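import Vale.Agent.P205.G.ClifA

/-!
G/Clif: the Clifford torus map and a cut-off lemma. Helper lemma names end in _Clif.
exists_clif: o4 = cross o1 o2 o3 (norm_cross_of_orthonormal, inner_cross_*), a = -(√2)⁻¹ • (o3 + o4), b = -(√2)⁻¹ • (o3 - o4);
G z = cos (z 0) • a + sin (z 0) • o1 + cos (z 1) • b + sin (z 1) • o2 with a, o1, b, o2 orthonormal.
fderiv G z v = v 0 • (-sin x • a + cos x • o1) + v 1 • (-sin y • b + cos y • o2) (HasFDerivAt, EuclideanSpace.proj);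
D2 G z v = fderiv (fun z => fderiv G z v) z v (fderiv_clm_apply) = -(v 0)² • (cos x • a + sin x • o1) - (v 1)² • (cos y • b + sin y • o2).
small_cut: β z = β1 (ρ⁻¹ • z) for a fixed bump β1 (rIn 1, rOut 2) with ‖fderiv β1‖ ≤ D; on closedBall 0 (2 ρ): ‖fderiv E‖ ≤ η and
‖E z‖ ≤ η ‖z‖ (Convex.norm_image_sub_le_of_norm_fderiv_le), η (1 + 2 D) ≤ ε; outside β vanishes nearby.
-/

open scoped Manifold ContDiff Topology RealInnerProductSpace
open Set Filter Metric Function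

noncomputable section

namespace Vale.Agent.P205.G

theorem small_cut {E : E2 → E4} (hE : ContDiff ℝ ∞ E) (h0 : E 0 = 0) (h1 : fderiv ℝ E 0 = 0)
    {ε r : ℝ} (hε : 0 < ε) (hr : 0 < r) : ∃ (β : E2 → ℝ) (ρ : ℝ), ContDiff ℝ ∞ β ∧ 0 < ρ ∧
      (∀ z, ‖z‖ ≤ ρ → β z = 1) ∧ support β ⊆ ball 0 r ∧
      ∀ z, ‖fderiv ℝ (fun x => β x • E x) z‖ ≤ ε := by
  let β1 : ContDiffBump (0 : E2) := ⟨1, 2, one_pos, one_lt_two⟩
  have hβ : ContDiff ℝ ∞ β1 := β1.contDiff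
  obtain ⟨D, hD⟩ : ∃ D : ℝ, ∀ z, ‖fderiv ℝ β1 z‖ ≤ D :=
    (β1.hasCompactSupport.fderiv ℝ).exists_bound_of_continuous (hβ.continuous_fderiv (by simp))
  have hD0 : 0 ≤ D := (norm_nonneg _).trans (hD 0)
  obtain ⟨η, hη, hηε⟩ : ∃ η : ℝ, 0 < η ∧ η * (1 + 2 * D) = ε :=
    ⟨ε / (1 + 2 * D), by positivity, div_mul_cancel₀ _ (by positivity)⟩
  obtain ⟨δ, hδ, h2⟩ := Metric.continuousAt_iff.1
    (hE.continuous_fderiv (by simp)).continuousAt η hη
  obtain ⟨ρ, hρ, hρδ, hρr⟩ : ∃ ρ : ℝ, 0 < ρ ∧ 2 * ρ < δ ∧ 2 * ρ < r :=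
    ⟨min δ r / 4, by positivity, by linarith [min_le_left δ r], by linarith [min_le_right δ r]⟩
  have h3 : ∀ z ∈ closedBall (0 : E2) (2 * ρ), ‖fderiv ℝ E z‖ ≤ η := fun z hz => by
    have := h2 (x := z) ((mem_closedBall.1 hz).trans_lt hρδ)
    rw [h1, dist_zero_right] at this
    exact this.le
  have hd : Differentiable ℝ E := hE.differentiable (by simp)
  have h4 : ∀ z ∈ closedBall (0 : E2) (2 * ρ), ‖E z‖ ≤ η * (2 * ρ) := fun z hz => by
    have := (convex_closedBall (0 : E2) (2 * ρ)).norm_image_sub_le_of_norm_fderiv_le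
      (fun x _ => hd x) h3 (mem_closedBall_self (by positivity)) hz
    rw [h0, sub_zero, sub_zero] at this
    exact this.trans (mul_le_mul_of_nonneg_left (mem_closedBall_zero_iff.1 hz) hη.le)
  have hn : ∀ z : E2, ‖ρ⁻¹ • z‖ = ρ⁻¹ * ‖z‖ := fun z => by
    rw [norm_smul, norm_inv, Real.norm_of_nonneg hρ.le]
  have h5 : ∀ z : E2, 2 * ρ ≤ ‖z‖ → β1 (ρ⁻¹ • z) = 0 := fun z hz => by
    refine β1.zero_of_le_dist ?_
    rw [dist_zero_right, hn, inv_mul_eq_div, le_div_iff₀ hρ]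
    exact hz
  have hs : ContDiff ℝ ∞ fun z : E2 => β1 (ρ⁻¹ • z) := hβ.comp (contDiff_id.const_smul _)
  refine ⟨fun z => β1 (ρ⁻¹ • z), ρ, hs, hρ, fun z hz => ?_, fun z hz => ?_, fun z => ?_⟩
  · refine β1.one_of_mem_closedBall (mem_closedBall_zero_iff.2 ?_)
    rw [hn, inv_mul_eq_div, div_le_iff₀ hρ]
    simpa [β1] using hz
  · refine mem_ball_zero_iff.2 (lt_trans (not_le.1 fun h => hz (h5 z h)) hρr)
  · by_cases hz : z ∈ closedBall (0 : E2) (2 * ρ)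
    · have k1 : HasFDerivAt (fun z : E2 => β1 (ρ⁻¹ • z))
          ((fderiv ℝ β1 (ρ⁻¹ • z)).comp (ρ⁻¹ • ContinuousLinearMap.id ℝ E2)) z :=
        (hβ.differentiable (by simp) _).hasFDerivAt.comp z ((hasFDerivAt_id z).const_smul ρ⁻¹)
      have k2 := (k1.smul (hd z).hasFDerivAt).fderiv
      have k3 : fderiv ℝ (fun x => β1 (ρ⁻¹ • x) • E x) z = _ := k2
      rw [k3]
      refine (norm_add_le _ _).trans ?_
      have b1 : ‖β1 (ρ⁻¹ • z) • fderiv ℝ E z‖ ≤ η := by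
        rw [norm_smul, Real.norm_of_nonneg β1.nonneg]
        exact (mul_le_of_le_one_left (norm_nonneg _) β1.le_one).trans (h3 z hz)
      have b2 : ‖(fderiv ℝ β1 (ρ⁻¹ • z)).comp (ρ⁻¹ • ContinuousLinearMap.id ℝ E2)‖ ≤ D * ρ⁻¹ := by
        refine (ContinuousLinearMap.opNorm_comp_le _ _).trans (mul_le_mul (hD _) ?_
          (norm_nonneg _) hD0)
        refine ContinuousLinearMap.opNorm_le_bound _ (by positivity) fun x => ?_
        exact (hn x).le
      rw [ContinuousLinearMap.norm_smulRight_apply]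
      have b3 := mul_le_mul b2 (h4 z hz) (norm_nonneg _) (by positivity)
      have b4 : D * ρ⁻¹ * (η * (2 * ρ)) = 2 * D * η := by field_simp
      linarith
    · have k : (fun x => β1 (ρ⁻¹ • x) • E x) =ᶠ[𝓝 z] fun _ => 0 := by
        filter_upwards [isClosed_closedBall.isOpen_compl.mem_nhds hz] with y hy
        rw [h5 y (not_le.1 fun h => hy (mem_closedBall_zero_iff.2 h)).le, zero_smul]
      rw [k.fderiv_eq, fderiv_fun_const]
      simpa using hε.le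

end Vale.Agent.P205.G
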