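import Vale.Agent.P205.G.Lin

/-!
G/ClifA (first part of G/Clif): the Clifford torus map and a cut-off lemma. Helper lemma names end in _ClifA.
exists_clif: o4 = cross o1 o2 o3 (norm_cross_of_orthonormal, inner_cross_*), a = -(√2)⁻¹ • (o3 + o4), b = -(√2)⁻¹ • (o3 - o4);
G z = cos (z 0) • a + sin (z 0) • o1 + cos (z 1) • b + sin (z 1) • o2 with a, o1, b, o2 orthonormal.
fderiv G z v = v 0 • (-sin x • a + cos x • o1) + v 1 • (-sin y • b + cos y • o2) (HasFDerivAt, EuclideanSpace.proj);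
D2 G z v = fderiv (fun z => fderiv G z v) z v (fderiv_clm_apply) = -(v 0)² • (cos x • a + sin x • o1) - (v 1)² • (cos y • b + sin y • o2).
small_cut: β z = β1 (ρ⁻¹ • z) for a fixed bump β1 (rIn 1, rOut 2) with ‖fderiv β1‖ ≤ D; on closedBall 0 (2 ρ): ‖fderiv E‖ ≤ η and
‖E z‖ ≤ η ‖z‖ (Convex.norm_image_sub_le_of_norm_fderiv_le), η (1 + 2 D) ≤ ε; outside β vanishes nearby.
-/

open scoped Manifold ContDiff Topology RealInnerProductSpace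
open Set Filter Metric Function

noncomputable section

namespace Vale.Agent.P205.G

theorem on_ClifA {a p b q : E4} (ha : ⟪a, a⟫ = (1 : ℝ)) (hp : ⟪p, p⟫ = (1 : ℝ))
    (hb : ⟪b, b⟫ = (1 : ℝ)) (hq : ⟪q, q⟫ = (1 : ℝ)) (hap : ⟪a, p⟫ = (0 : ℝ))
    (hab : ⟪a, b⟫ = (0 : ℝ)) (haq : ⟪a, q⟫ = (0 : ℝ)) (hpb : ⟪p, b⟫ = (0 : ℝ))
    (hpq : ⟪p, q⟫ = (0 : ℝ)) (hbq : ⟪b, q⟫ = (0 : ℝ)) (x1 x2 x3 x4 y1 y2 y3 y4 : ℝ) :
    ⟪x1 • a + x2 • p + x3 • b + x4 • q, y1 • a + y2 • p + y3 • b + y4 • q⟫ =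
      x1 * y1 + x2 * y2 + x3 * y3 + x4 * y4 := by
  have e1 := real_inner_comm a p
  have e2 := real_inner_comm a b
  have e3 := real_inner_comm a q
  have e4 := real_inner_comm p b
  have e5 := real_inner_comm p q
  have e6 := real_inner_comm b q
  simp only [inner_add_left, inner_add_right, real_inner_smul_left, real_inner_smul_right, e1, e2,
    e3, e4, e5, e6, ha, hp, hb, hq, hap, hab, haq, hpb, hpq, hbq]
  ring

theorem d_ClifA {f1 f2 f3 f4 g1 g2 g3 g4 : ℝ → ℝ} (h1 : ∀ x, HasDerivAt f1 (g1 x) x)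
    (h2 : ∀ x, HasDerivAt f2 (g2 x) x) (h3 : ∀ x, HasDerivAt f3 (g3 x) x)
    (h4 : ∀ x, HasDerivAt f4 (g4 x) x) (a p b q : E4) (z v : E2) :
    fderiv ℝ (fun z : E2 => f1 (z 0) • a + f2 (z 0) • p + f3 (z 1) • b + f4 (z 1) • q) z v =
      (v 0 * g1 (z 0)) • a + (v 0 * g2 (z 0)) • p + (v 1 * g3 (z 1)) • b +
        (v 1 * g4 (z 1)) • q := by
  have p0 : ∀ i : Fin 2, HasFDerivAt (fun z : E2 => z i)
      (EuclideanSpace.proj i : E2 →L[ℝ] ℝ) z := fun i =>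
    (EuclideanSpace.proj i : E2 →L[ℝ] ℝ).hasFDerivAt
  have k := (((((h1 (z 0)).comp_hasFDerivAt z (p0 0)).smul_const a).add
    (((h2 (z 0)).comp_hasFDerivAt z (p0 0)).smul_const p)).add
    (((h3 (z 1)).comp_hasFDerivAt z (p0 1)).smul_const b)).add
    (((h4 (z 1)).comp_hasFDerivAt z (p0 1)).smul_const q)
  have e := k.fderiv
  have e' : fderiv ℝ (fun z : E2 => f1 (z 0) • a + f2 (z 0) • p + f3 (z 1) • b + f4 (z 1) • q) z =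
    _ := e
  rw [e']
  simp only [add_apply, ContinuousLinearMap.smulRight_apply, smul_apply, smul_eq_mul,
    EuclideanSpace.coe_proj, mul_comm]

theorem main_ClifA {a p b q : E4} (ha : ⟪a, a⟫ = (1 : ℝ)) (hp : ⟪p, p⟫ = (1 : ℝ))
    (hb : ⟪b, b⟫ = (1 : ℝ)) (hq : ⟪q, q⟫ = (1 : ℝ)) (hap : ⟪a, p⟫ = (0 : ℝ))
    (hab : ⟪a, b⟫ = (0 : ℝ)) (haq : ⟪a, q⟫ = (0 : ℝ)) (hpb : ⟪p, b⟫ = (0 : ℝ))
    (hpq : ⟪p, q⟫ = (0 : ℝ)) (hbq : ⟪b, q⟫ = (0 : ℝ)) :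
    ∃ G : E2 → E4, ContDiff ℝ ∞ G ∧ fderiv ℝ G 0 ex = p ∧ fderiv ℝ G 0 ey = q ∧
      G 0 = a + b ∧ ∀ z v, ‖fderiv ℝ G z v‖ = ‖v‖ ∧ ⟪fderiv ℝ G z v, G z⟫ = 0 ∧
        ⟪D2 G z v, G z⟫ = -‖v‖ ^ 2 := by
  have hon := on_ClifA ha hp hb hq hap hab haq hpb hpq hbq
  obtain ⟨G, hG⟩ : ∃ G : E2 → E4, G = fun z : E2 => Real.cos (z 0) • a + Real.sin (z 0) • p +
    Real.cos (z 1) • b + Real.sin (z 1) • q := ⟨_, rfl⟩
  have c0 : ∀ i : Fin 2, ContDiff ℝ ∞ (fun z : E2 => z i) := fun i =>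
    (EuclideanSpace.proj i : E2 →L[ℝ] ℝ).contDiff
  have hs : ContDiff ℝ ∞ G := by
    rw [hG]
    exact ((((c0 0).cos.smul contDiff_const).add ((c0 0).sin.smul contDiff_const)).add
      ((c0 1).cos.smul contDiff_const)).add ((c0 1).sin.smul contDiff_const)
  have d1 : ∀ z v, fderiv ℝ G z v = (v 0 * -Real.sin (z 0)) • a + (v 0 * Real.cos (z 0)) • p +
      (v 1 * -Real.sin (z 1)) • b + (v 1 * Real.cos (z 1)) • q := fun z v => by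
    rw [hG]
    exact d_ClifA Real.hasDerivAt_cos Real.hasDerivAt_sin Real.hasDerivAt_cos
      Real.hasDerivAt_sin a p b q z v
  have d2 : ∀ z v, D2 G z v = (v 0 * (v 0 * -Real.cos (z 0))) • a +
      (v 0 * (v 0 * -Real.sin (z 0))) • p + (v 1 * (v 1 * -Real.cos (z 1))) • b +
      (v 1 * (v 1 * -Real.sin (z 1))) • q := fun z v => by
    have e : D2 G z v = fderiv ℝ (fun x => fderiv ℝ G x v) z v := by
      rw [fderiv_clm_apply (ind_diff hs.contDiffAt) (differentiableAt_const v)]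
      simp [D2]
    rw [e]
    simp only [d1]
    exact d_ClifA (f1 := fun x => v 0 * -Real.sin x) (f2 := fun x => v 0 * Real.cos x)
      (f3 := fun x => v 1 * -Real.sin x) (f4 := fun x => v 1 * Real.cos x)
      (fun x => (Real.hasDerivAt_sin x).neg.const_mul _)
      (fun x => (Real.hasDerivAt_cos x).const_mul _)
      (fun x => (Real.hasDerivAt_sin x).neg.const_mul _)
      (fun x => (Real.hasDerivAt_cos x).const_mul _) a p b q z v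
  refine ⟨G, hs, ?_, ?_, ?_, fun z v => ⟨?_, ?_, ?_⟩⟩
  · rw [d1]; simp [ex]
  · rw [d1]; simp [ey]
  · rw [hG]; simp
  · have h1 : ‖fderiv ℝ G z v‖ ^ 2 = ‖v‖ ^ 2 := by
      rw [← real_inner_self_eq_norm_sq, d1, hon, EuclideanSpace.real_norm_sq_eq, Fin.sum_univ_two]
      have s0 := Real.sin_sq_add_cos_sq (z 0)
      have s1 := Real.sin_sq_add_cos_sq (z 1)
      linear_combination v 0 ^ 2 * s0 + v 1 ^ 2 * s1
    exact (pow_left_inj₀ (norm_nonneg _) (norm_nonneg _) two_ne_zero).1 h1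
  · rw [d1, hG, hon]; ring
  · rw [d2, hG, hon, EuclideanSpace.real_norm_sq_eq, Fin.sum_univ_two]
    have s0 := Real.sin_sq_add_cos_sq (z 0)
    have s1 := Real.sin_sq_add_cos_sq (z 1)
    linear_combination -v 0 ^ 2 * s0 - v 1 ^ 2 * s1

theorem exists_clif {o1 o2 o3 : E4} (h1 : ‖o1‖ = 1) (h2 : ‖o2‖ = 1) (h3 : ‖o3‖ = 1)
    (h12 : ⟪o1, o2⟫ = 0) (h13 : ⟪o1, o3⟫ = 0) (h23 : ⟪o2, o3⟫ = 0) :
    ∃ G : E2 → E4, ContDiff ℝ ∞ G ∧ fderiv ℝ G 0 ex = o1 ∧ fderiv ℝ G 0 ey = o2 ∧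
      G 0 = -(√2 • o3) ∧ ∀ z v, ‖fderiv ℝ G z v‖ = ‖v‖ ∧ ⟪fderiv ℝ G z v, G z⟫ = 0 ∧
        ⟪D2 G z v, G z⟫ = -‖v‖ ^ 2 := by
  obtain ⟨o4, ho⟩ : ∃ o4, o4 = cross o1 o2 o3 := ⟨_, rfl⟩
  have h4 : ‖o4‖ = 1 := ho ▸ norm_cross_of_orthonormal h1 h2 h3 h12 h13 h23
  have h14 : ⟪o1, o4⟫ = (0 : ℝ) := ho ▸ inner_cross_1 o1 o2 o3
  have h24 : ⟪o2, o4⟫ = (0 : ℝ) := ho ▸ inner_cross_2 o1 o2 o3
  have h34 : ⟪o3, o4⟫ = (0 : ℝ) := ho ▸ inner_cross_3 o1 o2 o3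
  have s : ∀ {o : E4}, ‖o‖ = 1 → ⟪o, o⟫ = (1 : ℝ) := fun h => by
    rw [real_inner_self_eq_norm_sq, h]; norm_num
  have hon := on_ClifA (s h1) (s h2) (s h3) (s h4) h12 h13 h14 h23 h24 h34
  obtain ⟨t, ht⟩ : ∃ t : ℝ, t = √2 / 2 := ⟨_, rfl⟩
  have t2 : t * t = 1 / 2 := by
    rw [ht]
    have := Real.mul_self_sqrt (show (0 : ℝ) ≤ 2 by norm_num)
    linarith
  have e1 : o1 = (1 : ℝ) • o1 + (0 : ℝ) • o2 + (0 : ℝ) • o3 + (0 : ℝ) • o4 := by simp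
  have e2 : o2 = (0 : ℝ) • o1 + (1 : ℝ) • o2 + (0 : ℝ) • o3 + (0 : ℝ) • o4 := by simp
  obtain ⟨G, k1, k2, k3, k4, k5⟩ := main_ClifA
    (a := (0 : ℝ) • o1 + (0 : ℝ) • o2 + (-t) • o3 + (-t) • o4)
    (b := (0 : ℝ) • o1 + (0 : ℝ) • o2 + (-t) • o3 + t • o4)
    (p := (1 : ℝ) • o1 + (0 : ℝ) • o2 + (0 : ℝ) • o3 + (0 : ℝ) • o4)
    (q := (0 : ℝ) • o1 + (1 : ℝ) • o2 + (0 : ℝ) • o3 + (0 : ℝ) • o4)
    (by rw [hon]; linarith) (by rw [hon]; ring) (by rw [hon]; linarith) (by rw [hon]; ring)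
    (by rw [hon]; ring) (by rw [hon]; ring) (by rw [hon]; ring) (by rw [hon]; ring)
    (by rw [hon]; ring) (by rw [hon]; ring)
  refine ⟨G, k1, k2.trans e1.symm, k3.trans e2.symm, ?_, k5⟩
  have e : √2 = t + t := by rw [ht]; ring
  rw [k4, e]
  module

end Vale.Agent.P205.G
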