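import Vale.Agent.P205.G.Ext

/-!
G/Cone: Cone, Good2 and uniform versions. Helper lemma names end in _Cone.
cone_of_local: copy the proof of good2_of_local (Api/Good): F ∘ ψ.symm = (F ∘ φ.symm) ∘ τ near z, τ = φ ∘ ψ.symm, fderiv τ is injective
(fderiv_trans, dS_dM, dM_dS), D2_comp, Cn.comp_add. good2_good1, ug2_ug1: exists_unit_ker.
good2_smul: fderiv and D2 of c • u (fderiv_const_smul_field or eventual equalities on the open target), ind_smul_smul.
-/

open scoped Manifold ContDiff Topology RealInnerProductSpace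
open Set Filter Metric Function

noncomputable section

namespace Vale.Agent.P205.G

variable {M : Type*} [TopologicalSpace M] [ChartedSpace E2 M] [IsManifold I2 ∞ M]

theorem cone_of_local {F ν : M → E4} {h : M → ℝ} {S : Set M} (hF : Sm F) (hh : Sm h)
    (H : ∀ p ∈ S, ∃ φ : Chart M, IsCh φ ∧ p ∈ φ.source ∧ ∀ v : E2, v ≠ 0 →
      fderiv ℝ (h ∘ φ.symm) (φ p) v = 0 →
      Cn (fderiv ℝ (F ∘ φ.symm) (φ p)) (ν p) (D2 (F ∘ φ.symm) (φ p) v)) : Cone F ν h S := by
  intro ψ hψ z hz hs v hv h0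
  obtain ⟨φ, hφ, hp, hw⟩ := H (ψ.symm z) hs
  have hb := (good_bij hφ hψ hz hp).1
  have h1 := hw (fderiv ℝ (φ ∘ ψ.symm) z v) (fun h1 => hv (hb (h1.trans (map_zero _).symm)))
    (by rw [← good_chain hh hφ hψ hz hp, h0])
  have hu := hF.contDiffAt hφ (φ.map_source hp)
  have hτ := hφ.contDiffAt_trans hψ hz hp
  rw [(good_trans F hz hp).fderiv_eq, D2_congr (good_trans F hz hp), D2_comp hu hτ,
    fderiv_comp z (hu.differentiableAt (by simp)) (hτ.differentiableAt (by simp))]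
  exact h1.comp_add hb _

theorem Cone.mono {F ν : M → E4} {h : M → ℝ} {S S' : Set M} (H : Cone F ν h S) (hS : S' ⊆ S) :
    Cone F ν h S' := by
  exact fun φ hφ z hz hs => H φ hφ z hz (hS hs)

theorem Cone.good2 {F ν : M → E4} {h : M → ℝ} {S : Set M} (H : Cone F ν h S) : Good2 F h S := by
  exact fun φ hφ z hz hs v hv h0 => (H φ hφ z hz hs v hv h0).right

theorem good2_good1 {F : M → E4} {h : M → ℝ} (H : Good2 F h univ) : Good1 F := by
  intro φ hφ z hz
  obtain ⟨v, hv, h0⟩ := exists_unit_ker (fderiv ℝ (h ∘ φ.symm) z)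
  exact ⟨v, H φ hφ z hz (mem_univ _) v (fun h1 => by simp [h1] at hv) h0⟩

theorem ug2_ug1 {ι : Type} {l : Filter ι} {F : ι → M → E4} {h : M → ℝ} (H : UG2 l F h univ) :
    UG1 l F := by
  intro φ hφ K hK hKc
  obtain ⟨κ, hκ, h1⟩ := H φ hφ K hK hKc
  refine ⟨κ, hκ, h1.mono fun i hi z hz => ?_⟩
  obtain ⟨v, hv, h0⟩ := exists_unit_ker (fderiv ℝ (h ∘ φ.symm) z)
  exact ⟨v, hv, hi z hz (mem_univ _) v hv h0⟩

theorem good2_smul {F : M → E4} {h : M → ℝ} {S : Set M} (hF : Sm F) (H : Good2 F h S) {c : ℝ}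
    (hc : c ≠ 0) : Good2 (c • F) h S := by
  intro φ hφ z hz hs v hv h0
  have h1 := ind_smul_smul (H φ hφ z hz hs v hv h0) hc
  have e : (c • F) ∘ φ.symm = c • (F ∘ φ.symm) := rfl
  have e1 : fderiv ℝ (c • (F ∘ φ.symm)) = c • fderiv ℝ (F ∘ φ.symm) :=
    fderiv_const_smul_field c
  have e2 : D2 (c • (F ∘ φ.symm)) z v = c • D2 (F ∘ φ.symm) z v := by
    have e3 : fderiv ℝ (c • fderiv ℝ (F ∘ φ.symm)) z = c • fderiv ℝ (fderiv ℝ (F ∘ φ.symm)) z :=
      fderiv_const_smul (ind_diff (hF.contDiffAt hφ hz)) c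
    unfold D2
    rw [e1, e3]
    rfl
  rw [e, e2, e1]
  exact h1

theorem good2_metric {F : M → E4} {h : M → ℝ} (hF : Sm F) (H : Good2 F h univ) :
    IsMetric (pull F) :=
  Good1.isMetric hF (good2_good1 H)

end Vale.Agent.P205.G
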