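import Vale.Agent.P205.G.CoreA

/-!
G/Core: from an approximate step in a chart to an exact step on M. Helper lemma names end in _Core.
core_ug: F lam = F + push φ (U lam) (sm_push with K = closedBall 0 1). ug2_of_local: at p with p ∈ φ.source, ‖φ p‖ < 2 use φ and the
neighbourhood ball 0 2: for ‖z‖ ≤ 1 the hypothesis (add_push_symm, Ft = F ∘ symm near z, v = s • w with s² = 1 / ‖w‖², D2_smul, indQ_smul),
for 1 < ‖z‖ < 2 the map U lam vanishes near z and Good2.ug2 for F on closedBall 0 2 applies; κ by min (IndQ.mono). At other p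
(not in disc φ 1): push_eventually_zero uniformly in lam, chartAt p, Good2.ug2 on a compact neighbourhood.
step_core: γ0 = pull F + pushT φ T0 is a metric, n + 1 with n from perturb; γ lam = pull F + pushT φ (T lam); bd_const, bd_push, Bd.add,
bdT_const, bdT_pushT, BdT.add, ug2_ug1; both closeness conditions: for p ∈ disc φ 1 in the chart (apply_eq_trep, trep_pull, trep_pushT,
IsMetric.lower on closedBall 0 1, C lam⁻¹ ≤ c / 100), otherwise the differences vanish (pushT_eventually_zero, pull_congr); UG2.good2.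
-/

open scoped Manifold ContDiff Topology RealInnerProductSpace
open Set Filter Metric Function

noncomputable section

namespace Vale.Agent.P205.G

variable {M : Type*} [TopologicalSpace M] [ChartedSpace E2 M] [IsManifold I2 ∞ M]
  [T2Space M] [CompactSpace M]

theorem pushT_apply_Core {φ : Chart M} (T : E2 → Bil) {p : M} (hp : p ∈ φ.source) (v w : E2) :
    pushT φ T p v w = T (φ p) (dM φ p v) (dM φ p w) := by
  simp [pushT, hp]

theorem pushT_off_Core {φ : Chart M} (hK1 : closedBall 0 1 ⊆ φ.target) {T : E2 → Bil}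
    (hs : support T ⊆ closedBall 0 1) {p : M} (hp : p ∉ disc φ 1) : pushT φ T p = 0 :=
  (pushT_eventually_zero φ (isCompact_closedBall 0 1) hK1 hp).self_of_nhds T hs

theorem small_Core (C : ℝ) {c : ℝ} (hc : 0 < c) : ∀ᶠ lam : ℝ in atTop, C * lam⁻¹ ≤ c := by
  have h : Tendsto (fun lam : ℝ => C * lam⁻¹) atTop (𝓝 (C * 0)) :=
    tendsto_inv_atTop_zero.const_mul C
  rw [mul_zero] at h
  exact h.eventually (ge_mem_nhds hc)

theorem step_core {F : M → E4} {h : M → ℝ} (hF : Sm F) (hh : Sm h) (hG : Good2 F h univ)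
    {φ : Chart M} (hφ : IsCh φ) (hsub : closedBall 0 2 ⊆ φ.target) {w : E2} (hw : w ≠ 0)
    (hker : ∀ z ∈ φ.target, ∀ v, fderiv ℝ (h ∘ φ.symm) z v = 0 → ∃ s : ℝ, v = s • w)
    {Ft : E2 → E4} (hFt : ∀ z ∈ closedBall (0 : E2) 2, Ft z = F (φ.symm z)) {T0 : E2 → Bil}
    (h0 : ContDiff ℝ ∞ T0) (h0s : support T0 ⊆ closedBall 0 1)
    (h0y : ∀ z v v', T0 z v v' = T0 z v' v) (h0p : ∀ z v, 0 ≤ T0 z v v) :
    ∃ n : ℕ, ∀ (U : ℝ → E2 → E4) (T : ℝ → E2 → Bil),
      (∀ lam, ContDiff ℝ ∞ (U lam) ∧ support (U lam) ⊆ ball 0 1) →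
      (∀ lam, ContDiff ℝ ∞ (T lam) ∧ support (T lam) ⊆ closedBall 0 1 ∧
        ∀ z v v', T lam z v v' = T lam z v' v) →
      (∀ j : ℕ, ∃ C : ℝ, ∀ᶠ lam in atTop, ∀ z, ‖iteratedFDeriv ℝ j (U lam) z‖ ≤ C * lam ^ j) →
      (∀ j : ℕ, ∃ C : ℝ, ∀ᶠ lam in atTop, ∀ z, ‖iteratedFDeriv ℝ j (T lam) z‖ ≤ C * lam ^ j) →
      (∃ C : ℝ, ∀ᶠ lam in atTop, ∀ z v, |T lam z v v - T0 z v v| ≤ C * lam⁻¹ * ‖v‖ ^ 2) →
      (∃ C : ℝ, ∀ᶠ lam in atTop, ∀ z v,
        |‖fderiv ℝ (Ft + U lam) z v‖ ^ 2 - ‖fderiv ℝ Ft z v‖ ^ 2 - T lam z v v|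
          ≤ C * lam⁻¹ ^ n * ‖v‖ ^ 2) →
      (∃ κ : ℝ, 0 < κ ∧ ∀ᶠ lam in atTop, ∀ z ∈ closedBall (0 : E2) 1,
        IndQ κ (fderiv ℝ (Ft + U lam) z) (D2 (Ft + U lam) z w)) →
      ∀ᶠ lam in atTop, ∃ F' : M → E4, Sm F' ∧ Good2 F' h univ ∧
        pull F' = fun p => pull F p + pushT φ (T lam) p := by
  have hK1 : closedBall (0 : E2) 1 ⊆ φ.target :=
    (closedBall_subset_closedBall (by norm_num)).trans hsub
  have hK := isCompact_closedBall (0 : E2) 1
  have hm := good2_metric hF hG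
  have hp0 : ∀ p v, 0 ≤ pushT φ T0 p v v := fun p v => by
    by_cases hp : p ∈ φ.source
    · rw [pushT_apply_Core _ hp]; exact h0p _ _
    · simp [pushT, hp]
  have hγ0 : IsMetric fun p => pull F p + pushT φ T0 p := by
    refine ⟨hm.1.add (smT_pushT hφ h0.contDiffOn hK hK1 h0s), fun p v w => ?_, fun p v hv => ?_⟩
    · simp only [add_apply]
      rw [hm.2.1 p v w, symT_pushT φ h0y p v w]
    · simp only [add_apply]
      exact add_pos_of_pos_of_nonneg (hm.2.2 p v hv) (hp0 p v)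
  obtain ⟨n, hn⟩ := perturb hγ0
  obtain ⟨c, hc, hlow⟩ := hγ0.lower hφ hK hK1
  have hlow' : ∀ p ∈ disc φ 1, ∀ v, c * ‖dM φ p v‖ ^ 2 ≤ (pull F p + pushT φ T0 p) v v := by
    intro p hp v
    obtain ⟨h1, h2⟩ := (mem_disc hK1).1 hp
    have := hlow (φ p) (mem_closedBall_zero_iff.2 h2) (dM φ p v)
    rwa [← apply_eq_trep hφ _ h1] at this
  have hnn : ∀ p v, 0 ≤ (pull F p + pushT φ T0 p) v v := fun p v => by
    by_cases hv : v = 0
    · simp [hv]
    · exact (hγ0.2.2 p v hv).le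
  refine ⟨n + 1, fun U T hU hT bU bT ⟨C1, c1⟩ ⟨C2, c2⟩ ⟨κ, hκ, hQ⟩ => ?_⟩
  have hU1 : ∀ lam, support (U lam) ⊆ closedBall 0 1 := fun lam =>
    (hU lam).2.trans ball_subset_closedBall
  have sU : ∀ lam, Sm (push φ (U lam)) := fun lam =>
    sm_push hφ (hU lam).1.contDiffOn hK hK1 (hU1 lam)
  have hsm : ∀ lam, Sm (F + push φ (U lam)) := fun lam => sm_add hF (sU lam)
  have sT : ∀ lam, SmT (pushT φ (T lam)) := fun lam =>
    smT_pushT hφ (hT lam).1.contDiffOn hK hK1 (hT lam).2.1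
  have h1 : ∀ᶠ lam : ℝ in atTop, 1 ≤ id lam := eventually_ge_atTop 1
  have hug := core_ug hF hh hG hφ hsub hw hker hFt hU hκ hQ
  obtain ⟨F', k1, k2⟩ := hn atTop id (fun lam => F + push φ (U lam))
    (fun lam p => pull F p + pushT φ (T lam) p) tendsto_id
    (Eventually.of_forall fun lam => ⟨hsm lam, hm.1.add (sT lam), fun p v w => by
      simp only [add_apply]
      rw [hm.2.1 p v w, symT_pushT φ (hT lam).2.2 p v w]⟩)
    ((bd_const h1 hF).add (bd_push hφ hK hK1 h1
      (Eventually.of_forall fun lam => ⟨(hU lam).1, hU1 lam⟩) bU)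
      (Eventually.of_forall fun _ => hF) (Eventually.of_forall sU))
    ((bdT_const h1 hm.1).add (bdT_pushT hφ hK hK1 h1
      (Eventually.of_forall fun lam => ⟨(hT lam).1, (hT lam).2.1⟩) bT)
      (Eventually.of_forall fun _ => hm.1) (Eventually.of_forall sT))
    (ug2_ug1 hug)
    (by
      filter_upwards [c1, small_Core C1 (c := c / 100) (by positivity)] with lam d1 d2 p v
      by_cases hp : p ∈ disc φ 1
      · obtain ⟨e1, e2⟩ := (mem_disc hK1).1 hp
        have e3 := hlow' p hp v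
        have e4 := d1 (φ p) (dM φ p v)
        have e5 : (pull F p + pushT φ (T lam) p) v v - (pull F p + pushT φ T0 p) v v =
            T lam (φ p) (dM φ p v) (dM φ p v) - T0 (φ p) (dM φ p v) (dM φ p v) := by
          simp only [add_apply, pushT_apply_Core _ e1]; ring
        rw [e5]
        have e6 := mul_le_mul_of_nonneg_right d2 (sq_nonneg ‖dM φ p v‖)
        linarith
      · rw [pushT_off_Core hK1 (hT lam).2.1 hp, pushT_off_Core hK1 h0s hp, sub_self, abs_zero]
        have := hnn p v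
        rw [pushT_off_Core hK1 h0s hp] at this
        positivity)
    (by
      filter_upwards [c2, small_Core C2 hc, h1] with lam d1 d2 d3 p v
      have d4 : 0 ≤ (id lam)⁻¹ ^ n := by
        have : 0 < id lam := by linarith
        positivity
      by_cases hp : p ∈ disc φ 1
      · obtain ⟨e1, e2⟩ := (mem_disc hK1).1 hp
        have e3 := hlow' p hp v
        have e4 := d1 (φ p) (dM φ p v)
        have hzt := φ.map_source e1
        have f1 : Ft =ᶠ[𝓝 (φ p)] F ∘ φ.symm := eventuallyEq_of_ball hFt (by linarith)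
        have f2 : (F + push φ (U lam)) ∘ φ.symm =ᶠ[𝓝 (φ p)] Ft + U lam :=
          (add_push_symm F φ (U lam) hzt).trans (f1.symm.add EventuallyEq.rfl)
        have e5 : pull (F + push φ (U lam)) p v v - (pull F p + pushT φ (T lam) p) v v =
            ‖fderiv ℝ (Ft + U lam) (φ p) (dM φ p v)‖ ^ 2 - ‖fderiv ℝ Ft (φ p) (dM φ p v)‖ ^ 2
              - T lam (φ p) (dM φ p v) (dM φ p v) := by
          simp only [add_apply, pushT_apply_Core _ e1, pull_apply]
          rw [(hsm lam).dM_eq hφ e1, hF.dM_eq hφ e1, f2.fderiv_eq, ← f1.fderiv_eq,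
            real_inner_self_eq_norm_sq, real_inner_self_eq_norm_sq]
          ring
        rw [e5]
        refine e4.trans ?_
        have e6 := mul_le_mul_of_nonneg_right d2 (sq_nonneg ‖dM φ p v‖)
        calc C2 * lam⁻¹ ^ (n + 1) * ‖dM φ p v‖ ^ 2
            = (id lam)⁻¹ ^ n * (C2 * lam⁻¹ * ‖dM φ p v‖ ^ 2) := by simp only [id]; ring
          _ ≤ _ := mul_le_mul_of_nonneg_left (e6.trans e3) d4
      · rw [pushT_off_Core hK1 (hT lam).2.1 hp, pull_congr (add_push_off F hK1 (hU1 lam) hp)]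
        have e1 : pull F p v v - (pull F p + 0 : Bil) v v = 0 := by
          simp only [add_apply, zero_apply]; ring
        rw [e1, abs_zero]
        exact mul_nonneg d4 (hnn p v))
  have k3 := hug.good2 (Eventually.of_forall hsm) (k1.mono fun _ h => h.1) hh k2
  filter_upwards [k1, k3] with lam m1 m2
  exact ⟨F' lam, m1.1, m2, m1.2⟩

end Vale.Agent.P205.G
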