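import Vale.Agent.P205.G.Cone

/-!
G/CoreA (first part of G/Core): from an approximate step in a chart to an exact step on M. Helper lemma names end in _CoreA.
core_ug: F lam = F + push φ (U lam) (sm_push with K = closedBall 0 1). ug2_of_local: at p with p ∈ φ.source, ‖φ p‖ < 2 use φ and the
neighbourhood ball 0 2: for ‖z‖ ≤ 1 the hypothesis (add_push_symm, Ft = F ∘ symm near z, v = s • w with s² = 1 / ‖w‖², D2_smul, indQ_smul),
for 1 < ‖z‖ < 2 the map U lam vanishes near z and Good2.ug2 for F on closedBall 0 2 applies; κ by min (IndQ.mono). At other p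
(not in disc φ 1): push_eventually_zero uniformly in lam, chartAt p, Good2.ug2 on a compact neighbourhood.
step_core: γ0 = pull F + pushT φ T0 is a metric, n + 1 with n from perturb; γ lam = pull F + pushT φ (T lam); bd_const, bd_push, Bd.add,
bdT_const, bdT_pushT, BdT.add, ug2_ug1; both closeness conditions: for p ∈ disc φ 1 in the chart (apply_eq_trep, trep_pull, trep_pushT,
IsMetric.lower on closedBall 0 1, C lam⁻¹ ≤ c / 100), otherwise the differences vanish (pushT_eventually_zero, pull_congr); UG2.good2.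
-/

open scoped Manifold ContDiff Topology RealInnerProductSpace
open Set Filter Metric Function

noncomputable section

namespace Vale.Agent.P205.G

variable {M : Type*} [TopologicalSpace M] [ChartedSpace E2 M] [IsManifold I2 ∞ M]
  [T2Space M] [CompactSpace M]

theorem core_ug {F : M → E4} {h : M → ℝ} (hF : Sm F) (hh : Sm h) (hG : Good2 F h univ)
    {φ : Chart M} (hφ : IsCh φ) (hsub : closedBall 0 2 ⊆ φ.target) {w : E2} (hw : w ≠ 0)
    (hker : ∀ z ∈ φ.target, ∀ v, fderiv ℝ (h ∘ φ.symm) z v = 0 → ∃ s : ℝ, v = s • w)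
    {Ft : E2 → E4} (hFt : ∀ z ∈ closedBall (0 : E2) 2, Ft z = F (φ.symm z)) {U : ℝ → E2 → E4}
    (hU : ∀ lam, ContDiff ℝ ∞ (U lam) ∧ support (U lam) ⊆ ball 0 1) {κ : ℝ} (hκ : 0 < κ)
    (hQ : ∀ᶠ lam in atTop, ∀ z ∈ closedBall (0 : E2) 1,
      IndQ κ (fderiv ℝ (Ft + U lam) z) (D2 (Ft + U lam) z w)) :
    UG2 atTop (fun lam => F + push φ (U lam)) h univ := by
  have hK1 : closedBall (0 : E2) 1 ⊆ φ.target :=
    (closedBall_subset_closedBall (by norm_num)).trans hsub
  have hU1 : ∀ lam, support (U lam) ⊆ closedBall 0 1 := fun lam =>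
    (hU lam).2.trans ball_subset_closedBall
  have hsm : ∀ lam, Sm (F + push φ (U lam)) := fun lam =>
    sm_add hF (sm_push hφ (hU lam).1.contDiffOn (isCompact_closedBall 0 1) hK1 (hU1 lam))
  have hF2 : UG2 (atTop : Filter ℝ) (fun _ => F) h univ := hG.ug2 isClosed_univ hF hh
  refine ug2_of_local isClosed_univ (Eventually.of_forall hsm) hh fun p _ => ?_
  by_cases hp : p ∈ φ.source ∧ ‖φ p‖ < 2
  · obtain ⟨κ', hκ', h1⟩ := hF2 φ hφ _ hsub (isCompact_closedBall 0 2)
    have hw' : 0 < ‖w‖ := norm_pos_iff.2 hw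
    have hs0 : 0 < (‖w‖ ^ 2)⁻¹ := by positivity
    refine ⟨φ, hφ, hp.1, min κ' (κ * min 1 (‖w‖ ^ 2)⁻¹), lt_min hκ' (by positivity), ball 0 2,
      isOpen_ball.mem_nhds (mem_ball_zero_iff.2 hp.2), ?_⟩
    filter_upwards [h1, hQ] with lam k1 k2 z hz _ v hv h0
    have hz2 : ‖z‖ < 2 := mem_ball_zero_iff.1 hz
    have hzt : z ∈ φ.target := hsub (ball_subset_closedBall hz)
    have e1 := add_push_symm F φ (U lam) hzt
    by_cases hz1 : ‖z‖ ≤ 1
    · have e2 : Ft =ᶠ[𝓝 z] F ∘ φ.symm := eventuallyEq_of_ball hFt hz2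
      have e3 : (F + push φ (U lam)) ∘ φ.symm =ᶠ[𝓝 z] Ft + U lam :=
        e1.trans (e2.symm.add EventuallyEq.rfl)
      rw [e3.fderiv_eq, D2_congr e3]
      obtain ⟨s, rfl⟩ := hker z hzt v h0
      have hs : s ^ 2 = (‖w‖ ^ 2)⁻¹ := by
        rw [norm_smul, Real.norm_eq_abs] at hv
        have : s ^ 2 * ‖w‖ ^ 2 = 1 := by rw [← sq_abs s, ← mul_pow, hv, one_pow]
        exact eq_inv_of_mul_eq_one_left this
      rw [D2_smul, hs]
      exact (indQ_smul hκ.le hs0 (k2 z (mem_closedBall_zero_iff.2 hz1))).mono (min_le_right _ _)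
    · have e2 : U lam =ᶠ[𝓝 z] 0 := by
        have : ∀ᶠ y in 𝓝 z, y ∈ (closedBall (0 : E2) 1)ᶜ :=
          isClosed_closedBall.isOpen_compl.mem_nhds fun h => hz1 (mem_closedBall_zero_iff.1 h)
        filter_upwards [this] with y hy
        by_contra hne
        exact hy (hU1 lam hne)
      have e3 : (F + push φ (U lam)) ∘ φ.symm =ᶠ[𝓝 z] F ∘ φ.symm :=
        e1.trans ((EventuallyEq.rfl.add e2).trans (by rw [add_zero]))
      rw [e3.fderiv_eq, D2_congr e3]
      exact (k1 z (ball_subset_closedBall hz) (mem_univ _) v hv h0).mono (min_le_left _ _)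
  · have hp1 : p ∉ φ.symm '' closedBall 0 1 := fun h1 => by
      obtain ⟨h2, h3⟩ := (mem_disc hK1).1 h1
      exact hp ⟨h2, by linarith⟩
    have e0 := push_eventually_zero (V := E4) φ (isCompact_closedBall 0 1) hK1 hp1
    set ψ := chartAt E2 p
    have hps : p ∈ ψ.source := mem_chart_source E2 p
    have hpt : ψ p ∈ ψ.target := ψ.map_source hps
    have e1 : ∀ᶠ z in 𝓝 (ψ p), ∀ᶠ q in 𝓝 (ψ.symm z), ∀ U : E2 → E4,
        support U ⊆ closedBall 0 1 → push φ U q = 0 := by
      have := ψ.continuousAt_symm hpt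
      rw [ContinuousAt, ψ.left_inv hps] at this
      exact this.eventually e0.eventually_nhds
    obtain ⟨K, hKn, hKt, hKc⟩ := local_compact_nhds (ψ.open_target.mem_nhds hpt)
    obtain ⟨κ', hκ', h1⟩ := hF2 ψ (isCh_chartAt p) K hKt hKc
    refine ⟨ψ, isCh_chartAt p, hps, κ', hκ', _, inter_mem hKn e1, ?_⟩
    filter_upwards [h1] with lam k1 z hz _ v hv h0
    have e2 : F + push φ (U lam) =ᶠ[𝓝 (ψ.symm z)] F := by
      filter_upwards [hz.2] with q hq
      simp [hq _ (hU1 lam)]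
    have e3 := comp_symm_congr (hKt hz.1) e2
    rw [e3.fderiv_eq, D2_congr e3]
    exact k1 z hz.1 (mem_univ _) v hv h0

end Vale.Agent.P205.G
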