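import Vale.Agent.P205.G.CritA

/-!
G/Crit: a function with finitely many critical points; normal patches. Helper lemma names end in _Crit.
exists_crit: h p = ⟪v, f p⟫. For each chart of exists_fin_cover apply fin_range on the target with A = fderiv (f ∘ φ.symm) z,
n2 = cross (A ex) (A ey) (ν (φ.symm z)), n1 = cross (A ex) (A ey) n2 (contDiff_cross, normal_indep, ind_dM_iff); pick v in the finite
intersection (ae_all / Filter.eventually_all_finset, Eventually.exists). If dM h p = 0 then ⟪v, A ξ⟫ = 0 for all ξ
(Sm.fderiv_comp_symm, fderiv of ⟪v, ·⟫), normal_span.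
exists_pat: IsMetric.normal_ch at each point, Set.Finite.t2_separation, restrict with OpenPartialHomeomorph.restrOpen
(IsCh: restr_mem_maximalAtlas or diffeo_ch; trep only depends on the function symm, which is unchanged), common radius by finiteness.
-/

open scoped Manifold ContDiff Topology RealInnerProductSpace
open Set Filter Metric Function

noncomputable section

namespace Vale.Agent.P205.G

variable {M : Type*} [TopologicalSpace M] [ChartedSpace E2 M] [IsManifold I2 ∞ M]
  [T2Space M] [CompactSpace M]

theorem exists_pat {g : M → Bil} (hg : IsMetric g) {C : Set M} (hC : C.Finite) :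
    ∃ (φ : C → Chart M) (R : ℝ), Pat g φ R ∧ ∀ p : C, (φ p).symm 0 = p := by
  obtain ⟨U, hU, hd⟩ := hC.t2_separation
  choose ψ h1 h2 h3 h4 using hg.normal_ch
  have hm : ∀ p, p ∈ ((ψ p).restr (U p)).source := fun p => by
    rw [(ψ p).restr_source' _ (hU p).2]
    exact ⟨h2 p, (hU p).1⟩
  have := hC.to_subtype
  have hR : ∀ᶠ R in 𝓝[>] (0 : ℝ), ∀ p : C, closedBall 0 R ⊆ ((ψ p).restr (U p)).target := by
    refine eventually_all.2 fun p => ?_
    have h5 := ((ψ p).restr (U p)).map_source (hm p)
    have h6 : ((ψ p).restr (U p)) p = 0 := h3 p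
    rw [h6] at h5
    exact (eventually_closedBall_subset
      (((ψ p).restr (U p)).open_target.mem_nhds h5)).filter_mono nhdsWithin_le_nhds
  obtain ⟨R, h5, h6⟩ := (hR.and self_mem_nhdsWithin).exists
  refine ⟨fun p => (ψ p).restr (U p), R, ⟨fun p => restr_mem_maximalAtlas _ (h1 p) (hU p).2, h6, h5,
    fun p => h4 p, fun p q hpq => ?_⟩, fun p => ?_⟩
  · rw [(ψ p).restr_source' _ (hU p).2, (ψ q).restr_source' _ (hU q).2]
    exact (hd p.2 q.2 fun e => hpq (Subtype.ext e)).mono inter_subset_right inter_subset_right
  · have h7 := (ψ p).left_inv (h2 p)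
    rwa [h3] at h7

end Vale.Agent.P205.G
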