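import Vale.Agent.P205.G.ExtA

/-!
G/Ext: extension of chart representatives, discs, locality. Helper lemma names end in _Ext.
exists_ext: a smooth χ : E2 → ℝ equal to 1 on K with tsupport in U (exists_contMDiffMap_one_nhds_of_subset_interior applied to K and
a compact neighbourhood K' ⊆ U from exists_compact_between), take χ • u; at points outside K' it vanishes nearby.
The rest: unfold, Api/Ch, Api/Ten (push_symm, push_eventually_zero, sm_push, trep_pushT, pushT_eventually_zero, smT_pushT),
Filter.EventuallyEq.mfderiv_eq, continuity of φ.symm on the open target.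
-/

open scoped Manifold ContDiff Topology RealInnerProductSpace
open Set Filter Metric Function

noncomputable section

namespace Vale.Agent.P205.G

variable {M : Type*} [TopologicalSpace M] [ChartedSpace E2 M] [IsManifold I2 ∞ M]
variable {V : Type} [NormedAddCommGroup V]

theorem add_push_symm (F : M → V) (φ : Chart M) (U : E2 → V) {z : E2} (hz : z ∈ φ.target) :
    (F + push φ U) ∘ φ.symm =ᶠ[𝓝 z] F ∘ φ.symm + U := by
  filter_upwards [φ.open_target.mem_nhds hz] with y hy
  simp only [comp_apply, Pi.add_apply, push_symm φ U hy]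

theorem add_push_off [T2Space M] (F : M → V) {φ : Chart M} {r : ℝ} (h : closedBall 0 r ⊆ φ.target)
    {U : E2 → V} (hU : support U ⊆ closedBall 0 r) {p : M} (hp : p ∉ disc φ r) :
    F + push φ U =ᶠ[𝓝 p] F := by
  filter_upwards [push_eventually_zero (V := V) φ (isCompact_closedBall 0 r) h hp] with q hq
  simp only [Pi.add_apply, hq U hU, add_zero]

/-- A tensor inequality may be checked in a chart. -/
theorem le_of_trep {φ : Chart M} (hφ : IsCh φ) {S T : M → Bil} {p : M} (hp : p ∈ φ.source)
    (h : ∀ v, trep φ S (φ p) v v ≤ trep φ T (φ p) v v) (v : E2) : S p v v ≤ T p v v := by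
  rw [apply_eq_trep hφ S hp, apply_eq_trep hφ T hp]
  exact h _

theorem eq_of_trep {φ : Chart M} (hφ : IsCh φ) {S T : M → Bil} {p : M} (hp : p ∈ φ.source)
    (h : trep φ S (φ p) = trep φ T (φ p)) : S p = T p := by
  refine ContinuousLinearMap.ext fun v => ContinuousLinearMap.ext fun w => ?_
  rw [apply_eq_trep hφ S hp, apply_eq_trep hφ T hp, h]

theorem pushT_smul_trep {φ : Chart M} (hφ : IsCh φ) (u : E2 → ℝ) (D : M → Bil) {P : E2 → Bil}
    (h : ∀ z ∈ φ.target, u z ≠ 0 → P z = trep φ D z) (p : M) :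
    pushT φ (fun z => u z • P z) p = push φ u p • D p := by
  refine ContinuousLinearMap.ext fun v => ContinuousLinearMap.ext fun w => ?_
  unfold pushT push
  by_cases hp : p ∈ φ.source
  · rw [if_pos hp, if_pos hp, ContinuousLinearMap.bilinearComp_apply]
    simp only [smul_apply, smul_eq_mul]
    by_cases hu : u (φ p) = 0
    · rw [hu, zero_mul, zero_mul]
    · rw [h _ (φ.map_source hp) hu, ← apply_eq_trep hφ D hp]
  · rw [if_neg hp, if_neg hp]
    simp

section Pat

variable {ι : Type*} [Fintype ι] {φ : ι → Chart M} {g : M → Bil} {R : ℝ}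

omit [IsManifold I2 ∞ M] [Fintype ι] in
theorem off_Ext (hP : Pat g φ R) {i j : ι} (hij : j ≠ i) {z : E2} (hz : z ∈ (φ i).target) :
    (φ i).symm z ∉ (φ j).source := fun h =>
  disjoint_left.1 (hP.disj j i hij) h ((φ i).map_target hz)

omit [IsManifold I2 ∞ M] in
theorem sum_Ext (hP : Pat g φ R) (U : ι → E2 → V) (i : ι) {z : E2}
    (hz : z ∈ (φ i).target) : ∑ j, push (φ j) (U j) ((φ i).symm z) = U i z := by
  rw [Finset.sum_eq_single i (fun j _ hj => ?_) (fun h => (h (Finset.mem_univ i)).elim),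
    push_symm _ _ hz]
  unfold push
  rw [if_neg (off_Ext hP hj hz)]

theorem sm_sum_push [T2Space M] [NormedSpace ℝ V] (hP : Pat g φ R) {U : ι → E2 → V}
    (hU : ∀ i, ContDiffOn ℝ ∞ (U i) (φ i).target) (hs : ∀ i, support (U i) ⊆ closedBall 0 R) :
    Sm (fun p => ∑ i, push (φ i) (U i) p) := by
  exact contMDiff_finsetSum fun i _ =>
    sm_push (hP.ch i) (hU i) (isCompact_closedBall 0 R) (hP.sub i) (hs i)

theorem add_sum_push_symm (hP : Pat g φ R) (F : M → V) (U : ι → E2 → V) (i : ι) {z : E2}
    (hz : z ∈ (φ i).target) :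
    (F + fun p => ∑ j, push (φ j) (U j) p) ∘ (φ i).symm =ᶠ[𝓝 z] F ∘ (φ i).symm + U i := by
  filter_upwards [(φ i).open_target.mem_nhds hz] with y hy
  simp only [comp_apply, Pi.add_apply, sum_Ext hP U i hy]

theorem add_sum_push_off [T2Space M] (hP : Pat g φ R) (F : M → V) {U : ι → E2 → V}
    (hs : ∀ i, support (U i) ⊆ closedBall 0 R) {p : M} (hp : p ∉ discs φ R) :
    (F + fun p => ∑ j, push (φ j) (U j) p) =ᶠ[𝓝 p] F := by
  have h : ∀ i, ∀ᶠ q in 𝓝 p, push (φ i) (U i) q = 0 := fun i => by
    filter_upwards [push_eventually_zero (V := V) (φ i) (isCompact_closedBall 0 R) (hP.sub i)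
      (fun h => hp (mem_iUnion.2 ⟨i, h⟩))] with q hq
    exact hq _ (hs i)
  filter_upwards [eventually_all.2 h] with q hq
  simp only [Pi.add_apply, hq, Finset.sum_const_zero, add_zero]

theorem sum_push_symm (hP : Pat g φ R) (U : ι → E2 → V) (i : ι) {z : E2}
    (hz : z ∈ (φ i).target) : ∑ j, push (φ j) (U j) ((φ i).symm z) = U i z := by
  exact sum_Ext hP U i hz

theorem trep_sum_pushT (hP : Pat g φ R) (T : ι → E2 → Bil) (i : ι) {z : E2}
    (hz : z ∈ (φ i).target) : trep (φ i) (fun p => ∑ j, pushT (φ j) (T j) p) z = T i z := by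
  rw [← trep_pushT (hP.ch i) (T i) hz]
  unfold trep
  beta_reduce
  rw [Finset.sum_eq_single i (fun j _ hj => ?_) (fun h => (h (Finset.mem_univ i)).elim)]
  unfold pushT
  rw [if_neg (off_Ext hP hj hz)]

theorem sum_pushT_off (hP : Pat g φ R) {T : ι → E2 → Bil}
    (hs : ∀ i, support (T i) ⊆ closedBall 0 R) {p : M} (hp : p ∉ discs φ R) :
    ∑ j, pushT (φ j) (T j) p = 0 := by
  refine Finset.sum_eq_zero fun j _ => ?_
  unfold pushT
  split_ifs with h
  · have h0 : T j (φ j p) = 0 := by
      by_contra h1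
      exact hp (mem_iUnion.2 ⟨j, _, hs j h1, (φ j).left_inv h⟩)
    rw [h0]
    refine ContinuousLinearMap.ext fun v => ContinuousLinearMap.ext fun w => ?_
    rw [ContinuousLinearMap.bilinearComp_apply]
    rfl
  · rfl

end Pat

end Vale.Agent.P205.G
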