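import Vale.Agent.P205.G.Sard
import Vale.Agent.P205.G.Ext

/-!
G/CritA (first part of G/Crit): a function with finitely many critical points; normal patches. Helper lemma names end in _CritA.
exists_crit: h p = ⟪v, f p⟫. For each chart of exists_fin_cover apply fin_range on the target with A = fderiv (f ∘ φ.symm) z,
n2 = cross (A ex) (A ey) (ν (φ.symm z)), n1 = cross (A ex) (A ey) n2 (contDiff_cross, normal_indep, ind_dM_iff); pick v in the finite
intersection (ae_all / Filter.eventually_all_finset, Eventually.exists). If dM h p = 0 then ⟪v, A ξ⟫ = 0 for all ξ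
(Sm.fderiv_comp_symm, fderiv of ⟪v, ·⟫), normal_span.
exists_pat: IsMetric.normal_ch at each point, Set.Finite.t2_separation, restrict with OpenPartialHomeomorph.restrOpen
(IsCh: restr_mem_maximalAtlas or diffeo_ch; trep only depends on the function symm, which is unchanged), common radius by finiteness.
-/

open scoped Manifold ContDiff Topology RealInnerProductSpace
open Set Filter Metric Function

noncomputable section

namespace Vale.Agent.P205.G

variable {M : Type*} [TopologicalSpace M] [ChartedSpace E2 M] [IsManifold I2 ∞ M]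
  [T2Space M] [CompactSpace M]

omit [T2Space M] [CompactSpace M] in
theorem chart_CritA {f ν : M → E4} (hf : Sm f) (hν : Sm ν) (hI : ∀ p, Ind (dM f p) (ν p))
    {φ : Chart M} (hφ : IsCh φ) : ∀ᵐ v : E4, ∀ K ⊆ φ.target, IsCompact K →
      {z ∈ K | ∀ ξ, ⟪v, fderiv ℝ (f ∘ φ.symm) z ξ⟫ = 0}.Finite := by
  have hA : ContDiffOn ℝ ∞ (fderiv ℝ (f ∘ φ.symm)) φ.target := fun z hz =>
    (good_c1 (hf.contDiffAt hφ hz)).contDiffWithinAt
  have hx := hA.clm_apply (contDiffOn_const (c := ex))
  have hy := hA.clm_apply (contDiffOn_const (c := ey))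
  have h2 := contDiff_cross.comp_contDiffOn (hx.prodMk (hy.prodMk (hν.contDiffOn hφ)))
  have h1 := contDiff_cross.comp_contDiffOn (hx.prodMk (hy.prodMk h2))
  have hi : ∀ z ∈ φ.target, Ind (fderiv ℝ (f ∘ φ.symm) z) (ν (φ.symm z)) := fun z hz =>
    (ind_dM_iff hf hφ hz _).2 (hI _)
  filter_upwards [fin_range φ.open_target h1 h2 fun z hz a b hab => normal_indep (hi z hz) a b hab]
    with v hv K hK hc
  exact (hv K hK hc).subset fun z hz => ⟨hz.1, normal_span (hi z (hK hz.1)) hz.2⟩

theorem exists_crit {f ν : M → E4} (hf : Sm f) (hν : Sm ν) (hI : ∀ p, Ind (dM f p) (ν p)) :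
    ∃ h : M → ℝ, Sm h ∧ {p | dM h p = 0}.Finite := by
  obtain ⟨s, hs, hcov⟩ := exists_fin_cover (M := M)
  obtain ⟨v, hv⟩ := ((eventually_all_finset s).2 fun c hc =>
    chart_CritA hf hν hI (hs c hc).1).exists
  have hh : Sm fun p => ⟪v, f p⟫ := (innerSL ℝ v).contDiff.comp_contMDiff hf
  refine ⟨_, hh, (s.finite_toSet.biUnion fun c hc =>
    (hv c hc c.2 (hs c hc).2.1 (hs c hc).2.2).image c.1.symm).subset fun p hp => ?_⟩
  obtain ⟨c, hc, hp1, hp2⟩ := hcov p
  have ht := c.1.map_source hp1
  refine mem_biUnion hc ⟨c.1 p, ⟨interior_subset hp2, fun ξ => ?_⟩, c.1.left_inv hp1⟩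
  have h1 := hh.fderiv_comp_symm (hs c hc).1 ht
  rw [c.1.left_inv hp1, show dM (fun p => ⟪v, f p⟫) p = 0 from hp,
    ContinuousLinearMap.zero_comp] at h1
  have h2 := ((innerSL ℝ v).hasFDerivAt.comp _
    ((hf.contDiffAt (hs c hc).1 ht).differentiableAt (by simp)).hasFDerivAt).fderiv
  exact DFunLike.congr_fun (h2.symm.trans h1) ξ

end Vale.Agent.P205.G
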