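import Vale.Agent.P205.G.DecA

/-!
G/Dec: decomposition into primitive tensors. Helper lemma names end in _Dec.
For a symmetric B and L > 0 put al = (B ey ey + B ex ey / L) / 2, be = (B ey ey - B ex ey / L) / 2, A = B ex ex - L² B ey ey; then
B = al • sqs L + be • sqs (-L) + A • dxx (ext on ex, ey; eq_ex_ey). If B is positive definite, (B ex ey)² < B ex ex * B ey ey, so some L > 0 has
|B ex ey| < L B ey ey and L² B ey ey < B ex ex (dec_pt). These are open conditions in z: finitely many L cover the closed ball,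
t = all L and -L, S = ∑ s ∈ t, sqs s + dxx. Apply exists_contMDiffMap_forall_mem_convex_of_local with values in (t → ℝ) × ℝ and the convex sets
{c | all coordinates positive ∧ (‖z‖ ≤ 1 → P z = ∑ c.1 s • sqs s + c.2 • dxx)}: near z0 in the ball take τ > 0 small so that P z0 - τ S still has
positive al, be, A, and c = τ + (al, be at L, -L; A) of P z - τ S; near z0 outside the ball the constant 1.
div_wt: m = a positive lower bound of wt ^ 2 on closedBall 0 (1 / 2), halved; A z = η + E (2 • z) / wt z ^ 2, smooth because wt > 0 on ball 0 1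
(expNegInvGlue.pos_of_pos) and E (2 • z) = 0 for ‖z‖ > 1 / 2.
-/

open scoped Manifold ContDiff Topology RealInnerProductSpace
open Set Filter Metric Function

noncomputable section

namespace Vale.Agent.P205.G

/-- coefficient of `sqs L` -/
def al_Dec (L : ℝ) (B : Bil) : ℝ := (B ey ey + B ex ey / L) / 2

/-- coefficient of `dxx` -/
def ac_Dec (L : ℝ) (B : Bil) : ℝ := B ex ex - L ^ 2 * B ey ey

theorem al_smooth_Dec (L : ℝ) : ContDiff ℝ ∞ (al_Dec L) := by
  unfold al_Dec
  fun_prop

theorem ac_smooth_Dec (L : ℝ) : ContDiff ℝ ∞ (ac_Dec L) := by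
  unfold ac_Dec
  fun_prop

theorem id_Dec {L : ℝ} (hL : L ≠ 0) {B : Bil} (hs : ∀ v w, B v w = B w v) (v w : E2) :
    B v w = al_Dec L B * sqs L v w + al_Dec (-L) B * sqs (-L) v w + ac_Dec L B * dxx v w := by
  have h : B v w = v 0 * w 0 * B ex ex + (v 0 * w 1 + v 1 * w 0) * B ex ey
      + v 1 * w 1 * B ey ey := by
    conv_lhs => rw [eq_ex_ey' v, eq_ex_ey' w]
    simp only [map_add, map_smul, add_apply, smul_apply, smul_eq_mul]
    rw [hs ey ex]
    ring
  simp only [sqs_apply, dxx_apply, al_Dec, ac_Dec, h]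
  field_simp
  ring

/-- the open condition -/
def Ok_Dec (L : ℝ) (B : Bil) : Prop := 0 < al_Dec L B ∧ 0 < al_Dec (-L) B ∧ 0 < ac_Dec L B

theorem open_Dec (L : ℝ) : IsOpen {B : Bil | Ok_Dec L B} :=
  (isOpen_lt continuous_const (al_smooth_Dec L).continuous).inter
    ((isOpen_lt continuous_const (al_smooth_Dec (-L)).continuous).inter
      (isOpen_lt continuous_const (ac_smooth_Dec L).continuous))

theorem pt_Dec {B : Bil} (hs : ∀ v w, B v w = B w v) (hp : ∀ v, v ≠ 0 → 0 < B v v) :
    ∃ L : ℝ, 0 < L ∧ Ok_Dec L B := by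
  obtain ⟨L, hL, h1, h2⟩ := dec_pt hs hp
  obtain ⟨h3, h4⟩ := abs_lt.1 h1
  refine ⟨L, hL, ?_, ?_, sub_pos.2 h2⟩
  · have : -B ey ey < B ex ey / L := by
      rw [lt_div_iff₀ hL]
      linarith
    unfold al_Dec
    linarith
  · have : B ex ey / L < B ey ey := by
      rw [div_lt_iff₀ hL]
      linarith
    unfold al_Dec
    rw [div_neg]
    linarith

theorem dec {P : E2 → Bil} (hP : ContDiff ℝ ∞ P) (hs : ∀ z, ‖z‖ ≤ 1 → ∀ v w, P z v w = P z w v)
    (hp : ∀ z, ‖z‖ ≤ 1 → ∀ v, v ≠ 0 → 0 < P z v v) :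
    ∃ (t : Finset ℝ) (a : ℝ → E2 → ℝ) (A : E2 → ℝ), (∀ s, ContDiff ℝ ∞ (a s) ∧ ∀ z, 0 < a s z) ∧
      ContDiff ℝ ∞ A ∧ (∀ z, 0 < A z) ∧
      ∀ z, ‖z‖ ≤ 1 → P z = ∑ s ∈ t, a s z • sqs s + A z • dxx := by
  classical
  obtain ⟨T, hT⟩ := (isCompact_closedBall (0 : E2) 1).elim_finite_subcover
    (fun L : ℝ => {z | 0 < L ∧ Ok_Dec L (P z)})
    (fun L => (isOpen_const (p := 0 < L)).inter ((open_Dec L).preimage hP.continuous))
    (fun z hz => by
      have hz' := mem_closedBall_zero_iff.1 hz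
      obtain ⟨L, hL⟩ := pt_Dec (hs z hz') (hp z hz')
      exact mem_iUnion.2 ⟨L, hL⟩)
  let t : Finset ℝ := T ∪ T.image fun L => -L
  obtain ⟨S, hSe⟩ : ∃ S : Bil, ∀ v w, S v w = ∑ s : t, sqs s v w + dxx v w :=
    ⟨∑ s : t, sqs s + dxx, fun v w => by simp only [add_apply, sum_apply]⟩
  have hS : ∀ v w, S v w = S w v := fun v w => by
    simp only [hSe, sqs_apply, dxx_apply, mul_comm]
  let K : E2 → Set ((t → ℝ) × ℝ) := fun z => {c | (∀ s, 0 < c.1 s) ∧ 0 < c.2 ∧
    (‖z‖ ≤ 1 → ∀ v w, P z v w = ∑ s : t, c.1 s * sqs s v w + c.2 * dxx v w)}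
  have hK : ∀ z, Convex ℝ (K z) := by
    intro z c hc d hd a b ha hb hab
    refine ⟨fun s => ?_, ?_, fun hz v w => ?_⟩
    · exact convex_Ioi (0 : ℝ) (hc.1 s) (hd.1 s) ha hb hab
    · exact convex_Ioi (0 : ℝ) hc.2.1 hd.2.1 ha hb hab
    · have e1 := hc.2.2 hz v w
      have e2 := hd.2.2 hz v w
      simp only [Prod.fst_add, Prod.smul_fst, Pi.add_apply, Pi.smul_apply, Prod.snd_add,
        Prod.smul_snd, smul_eq_mul, add_mul, mul_assoc, Finset.sum_add_distrib, ← Finset.mul_sum]
      linear_combination a * e1 + b * e2 - P z v w * hab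
  obtain ⟨g, hg⟩ := exists_contMDiffMap_forall_mem_convex_of_local (n := (⊤ : ℕ∞)) I2 hK
    fun z₀ => by
    by_cases hz₀ : z₀ ∈ closedBall (0 : E2) 1
    · obtain ⟨L, hLT, hL, hok⟩ : ∃ L ∈ T, 0 < L ∧ Ok_Dec L (P z₀) := by
        simpa only [mem_iUnion, mem_ofPred_eq, exists_prop] using hT hz₀
      have hc : ∀ L', Continuous fun y : ℝ × E2 => al_Dec L' (P y.2) - y.1 * al_Dec L' S :=
        fun L' => ((al_smooth_Dec L').continuous.comp (hP.continuous.comp continuous_snd)).sub
          (continuous_fst.mul continuous_const)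
      have hc' : Continuous fun y : ℝ × E2 => ac_Dec L (P y.2) - y.1 * ac_Dec L S :=
        ((ac_smooth_Dec L).continuous.comp (hP.continuous.comp continuous_snd)).sub
          (continuous_fst.mul continuous_const)
      have hO : IsOpen {y : ℝ × E2 | 0 < al_Dec L (P y.2) - y.1 * al_Dec L S ∧
          0 < al_Dec (-L) (P y.2) - y.1 * al_Dec (-L) S ∧ 0 < ac_Dec L (P y.2) - y.1 * ac_Dec L S} :=
        (isOpen_lt continuous_const (hc L)).inter ((isOpen_lt continuous_const (hc (-L))).inter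
          (isOpen_lt continuous_const hc'))
      have h1 := (hO.preimage (Continuous.prodMk_left z₀)).mem_nhds (x := 0)
        (by simpa [Ok_Dec] using hok)
      obtain ⟨τ, hτ1, hτ⟩ := (Eventually.and (nhdsWithin_le_nhds h1)
        (self_mem_nhdsWithin (s := Ioi (0 : ℝ)))).exists
      have hτ0 : 0 < τ := hτ
      let L1 : t := ⟨L, Finset.mem_union_left _ hLT⟩
      let L2 : t := ⟨-L, Finset.mem_union_right _ (Finset.mem_image_of_mem _ hLT)⟩
      refine ⟨_, (hO.preimage (Continuous.prodMk_right τ)).mem_nhds hτ1, fun z =>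
        (fun s => τ + (if s = L1 then al_Dec L (P z) - τ * al_Dec L S else 0)
          + (if s = L2 then al_Dec (-L) (P z) - τ * al_Dec (-L) S else 0),
          τ + (ac_Dec L (P z) - τ * ac_Dec L S)),
        ?_, fun z hz => ⟨fun s => ?_, ?_, fun hz1 v w => ?_⟩⟩
      · refine (ContDiff.contMDiff (ContDiff.prodMk (contDiff_pi.2 fun s => ?_) ?_)).contMDiffOn
        · refine (contDiff_const.add ?_).add ?_
          · split_ifs
            · exact ((al_smooth_Dec L).comp hP).sub contDiff_const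
            · exact contDiff_const
          · split_ifs
            · exact ((al_smooth_Dec (-L)).comp hP).sub contDiff_const
            · exact contDiff_const
        · exact contDiff_const.add (((ac_smooth_Dec L).comp hP).sub contDiff_const)
      · obtain ⟨k1, k2, -⟩ := hz
        dsimp only at k1 k2 ⊢
        split_ifs <;> linarith
      · have := hz.2.2
        dsimp only at this ⊢
        linarith
      · have e1 := id_Dec hL.ne' (hs z hz1) v w
        have e2 := id_Dec hL.ne' hS v w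
        rw [hSe] at e2
        simp only [add_mul, Finset.sum_add_distrib, ite_mul, zero_mul, Finset.sum_ite_eq',
          Finset.mem_univ, if_true, ← Finset.mul_sum, L1, L2]
        linear_combination e1 - τ * e2
    · refine ⟨_, isClosed_closedBall.isOpen_compl.mem_nhds hz₀, fun _ => (fun _ => 1, 1),
        contMDiffOn_const, fun z hz => ⟨fun _ => one_pos, one_pos, fun h => ?_⟩⟩
      exact absurd (mem_closedBall_zero_iff.2 h) hz
  have hgs : ContDiff ℝ ∞ g := g.contMDiff.contDiff
  refine ⟨t, fun s z => if h : s ∈ t then (g z).1 ⟨s, h⟩ else 1, fun z => (g z).2,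
    fun s => ?_, hgs.snd, fun z => (hg z).2.1, fun z hz => ?_⟩
  · by_cases h : s ∈ t
    · simp only [dif_pos h]
      exact ⟨contDiff_pi.1 hgs.fst _, fun z => (hg z).1 _⟩
    · simp only [dif_neg h]
      exact ⟨contDiff_const, fun _ => one_pos⟩
  · ext1 v
    ext1 w
    rw [(hg z).2.2 hz, ← Finset.sum_coe_sort t]
    simp only [Finset.coe_mem, dif_pos, add_apply, sum_apply, smul_apply, smul_eq_mul]

end Vale.Agent.P205.G
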