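import Vale.Agent.P205.G.Defs

/-!
G/DecA (first part of G/Dec): decomposition into primitive tensors. Helper lemma names end in _DecA.
For a symmetric B and L > 0 put al = (B ey ey + B ex ey / L) / 2, be = (B ey ey - B ex ey / L) / 2, A = B ex ex - L² B ey ey; then
B = al • sqs L + be • sqs (-L) + A • dxx (ext on ex, ey; eq_ex_ey). If B is positive definite, (B ex ey)² < B ex ex * B ey ey, so some L > 0 has
|B ex ey| < L B ey ey and L² B ey ey < B ex ex (dec_pt). These are open conditions in z: finitely many L cover the closed ball,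
t = all L and -L, S = ∑ s ∈ t, sqs s + dxx. Apply exists_contMDiffMap_forall_mem_convex_of_local with values in (t → ℝ) × ℝ and the convex sets
{c | all coordinates positive ∧ (‖z‖ ≤ 1 → P z = ∑ c.1 s • sqs s + c.2 • dxx)}: near z0 in the ball take τ > 0 small so that P z0 - τ S still has
positive al, be, A, and c = τ + (al, be at L, -L; A) of P z - τ S; near z0 outside the ball the constant 1.
div_wt: m = a positive lower bound of wt ^ 2 on closedBall 0 (1 / 2), halved; A z = η + E (2 • z) / wt z ^ 2, smooth because wt > 0 on ball 0 1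
(expNegInvGlue.pos_of_pos) and E (2 • z) = 0 for ‖z‖ > 1 / 2.
-/

open scoped Manifold ContDiff Topology RealInnerProductSpace
open Set Filter Metric Function

noncomputable section

namespace Vale.Agent.P205.G

theorem contDiff_wt : ContDiff ℝ ∞ wt := by
  exact expNegInvGlue.contDiff.comp (contDiff_const.sub (contDiff_norm_sq ℝ))

theorem wt_pos {z : E2} (hz : ‖z‖ < 1) : 0 < wt z := by
  refine expNegInvGlue.pos_of_pos ?_
  nlinarith [norm_nonneg z]

theorem wt_zero {z : E2} (hz : 1 ≤ ‖z‖) : wt z = 0 := by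
  refine expNegInvGlue.zero_of_nonpos ?_
  nlinarith

theorem dec_pt {B : Bil} (hs : ∀ v w, B v w = B w v) (hp : ∀ v, v ≠ 0 → 0 < B v v) :
    ∃ L : ℝ, 0 < L ∧ |B ex ey| < L * B ey ey ∧ L ^ 2 * B ey ey < B ex ex := by
  have hx : ex ≠ 0 := fun h => by simpa [ex] using congrArg (· 0) h
  have hy : ey ≠ 0 := fun h => by simpa [ey] using congrArg (· 1) h
  have ha := hp ex hx
  have hc := hp ey hy
  have h1 := hp (B ey ey • ex - B ex ey • ey) fun h => hc.ne' (by
    simpa [ex, ey] using congrArg (· 0) h)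
  simp only [map_sub, map_smul, sub_apply, smul_apply,
    smul_eq_mul, hs ey ex] at h1
  set a := B ex ex
  set b := B ex ey
  set c := B ey ey
  have h2 : b ^ 2 < a * c := by
    have h3 : 0 < c * (a * c - b ^ 2) := by linarith
    linarith [(mul_pos_iff_of_pos_left hc).1 h3]
  have h4 : |b| / c < √(a / c) := by
    refine Real.lt_sqrt_of_sq_lt ?_
    rw [div_pow, sq_abs, div_lt_div_iff₀ (by positivity) hc]
    nlinarith
  obtain ⟨L, h5, h6⟩ := exists_between h4
  have hL : 0 < L := lt_of_le_of_lt (by positivity) h5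
  refine ⟨L, hL, (div_lt_iff₀ hc).1 h5, (lt_div_iff₀ hc).1 ?_⟩
  exact (Real.lt_sqrt hL.le).1 h6

theorem div_wt : ∃ m : ℝ, 0 < m ∧ ∀ η : ℝ, 0 < η → ∀ E : E2 → ℝ, ContDiff ℝ ∞ E →
    support E ⊆ closedBall 0 1 → (∀ z, -(η * m) ≤ E z) → ∃ A : E2 → ℝ, ContDiff ℝ ∞ A ∧
      (∀ z, 0 < A z) ∧ ∀ z, wt z ^ 2 * A z = η * wt z ^ 2 + E ((2 : ℝ) • z) := by
  obtain ⟨c, hc, h1⟩ := (isCompact_closedBall (0 : E2) (1 / 2)).exists_forall_le'
    (f := fun z => wt z ^ 2) (contDiff_wt.continuous.pow 2).continuousOn (a := 0) fun z hz =>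
      pow_pos (wt_pos ((mem_closedBall_zero_iff.1 hz).trans_lt (by norm_num))) 2
  refine ⟨c / 2, by positivity, fun η hη E hE hs hl => ?_⟩
  have h0 : ∀ z : E2, 1 / 2 < ‖z‖ → E ((2 : ℝ) • z) = 0 := fun z hz => by
    by_contra h
    have h2 := mem_closedBall_zero_iff.1 (hs h)
    rw [norm_smul, Real.norm_two] at h2
    linarith
  refine ⟨fun z => η + E ((2 : ℝ) • z) / wt z ^ 2, contDiff_iff_contDiffAt.2 fun z => ?_,
    fun z => ?_, fun z => ?_⟩
  · rcases lt_or_ge ‖z‖ 1 with h | h
    · exact contDiffAt_const.add ((hE.comp (contDiff_id.const_smul (2 : ℝ))).contDiffAt.div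
        (contDiff_wt.pow 2).contDiffAt (pow_pos (wt_pos h) 2).ne')
    · refine (contDiffAt_const (c := η)).congr_of_eventuallyEq ?_
      have h2 : ∀ᶠ x in 𝓝 z, 1 / 2 < ‖x‖ :=
        continuous_norm.continuousAt.eventually (lt_mem_nhds (by linarith))
      filter_upwards [h2] with x hx
      rw [h0 x hx, zero_div, add_zero]
  · rcases lt_or_ge (1 / 2) ‖z‖ with h | h
    · simpa [h0 z h] using hη
    · have h2 := h1 z (mem_closedBall_zero_iff.2 h)
      have h3 : 0 < wt z ^ 2 := hc.trans_le h2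
      have h4 : -(η / 2) ≤ E ((2 : ℝ) • z) / wt z ^ 2 := by
        rw [le_div_iff₀ h3]
        nlinarith [hl ((2 : ℝ) • z)]
      linarith
  · rcases lt_or_ge ‖z‖ 1 with h | h
    · have h3 := (wt_pos h).ne'
      field_simp
    · rw [wt_zero h, h0 z (by linarith)]
      ring

end Vale.Agent.P205.G
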