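import Vale.Agent.P205.PT.Main
import Vale.Agent.P205.Api.Cross

/-!
Part G: shared definitions (owner helper87). FROZEN.
-/

open scoped Manifold ContDiff Topology RealInnerProductSpace
open Set Filter Metric Function

noncomputable section

namespace Vale.Agent.P205.G

/-- The tensor `(s v0 + v1) (s w0 + w1)`. -/
def sqs (s : ℝ) : Bil :=
  (ContinuousLinearMap.mul ℝ ℝ).bilinearComp
    (s • EuclideanSpace.proj 0 + EuclideanSpace.proj 1)
    (s • EuclideanSpace.proj 0 + EuclideanSpace.proj 1)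

theorem sqs_apply (s : ℝ) (v w : E2) : sqs s v w = (s * v 0 + v 1) * (s * w 0 + w 1) := by
  simp [sqs]; ring

theorem dxx_apply (v w : E2) : dxx v w = v 0 * w 0 := by
  simp [dxx]

/-- The Euclidean inner product as a tensor. -/
def euc : Bil := (innerSL ℝ : E2 →L[ℝ] E2 →L[ℝ] ℝ)

theorem euc_apply (v w : E2) : euc v w = ⟪v, w⟫ := rfl

/-- All positive combinations of `n` and `c` are transversal to the range of `A`. -/
def Cn (A : E2 →L[ℝ] E4) (n c : E4) : Prop :=
  ∀ α β : ℝ, 0 ≤ α → 0 ≤ β → 0 < α + β → Ind A (α • n + β • c)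

variable {M : Type*} [TopologicalSpace M] [ChartedSpace E2 M]

/-- The cone condition on `S` for the directions in the kernel of `dh`. -/
def Cone (F ν : M → E4) (h : M → ℝ) (S : Set M) : Prop :=
  ∀ φ : Chart M, IsCh φ → ∀ z ∈ φ.target, φ.symm z ∈ S → ∀ v : E2, v ≠ 0 →
    fderiv ℝ (h ∘ φ.symm) z v = 0 →
      Cn (fderiv ℝ (F ∘ φ.symm) z) (ν (φ.symm z)) (D2 (F ∘ φ.symm) z v)

/-- A chart whose first coordinate is an affine function of `h`. -/
structure HCh (h : M → ℝ) (r ρ : ℝ) (φ : Chart M) : Prop where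
  ch : IsCh φ
  pos : 0 < r
  sub : closedBall 0 ρ ⊆ φ.target
  eq : ∃ c : ℝ, ∀ p ∈ φ.source, h p = c + r * φ p 0

/-- Disjoint charts, normal for `g` at the origin. -/
structure Pat (g : M → Bil) {ι : Type*} (φ : ι → Chart M) (R : ℝ) : Prop where
  ch : ∀ i, IsCh (φ i)
  pos : 0 < R
  sub : ∀ i, closedBall 0 R ⊆ (φ i).target
  nor : ∀ i v w, trep (φ i) g 0 v w = ⟪v, w⟫
  disj : ∀ i j, i ≠ j → Disjoint (φ i).source (φ j).source

theorem HCh.mono {h : M → ℝ} {r ρ ρ' : ℝ} {φ : Chart M} (H : HCh h r ρ φ) (hρ : ρ' ≤ ρ) :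
    HCh h r ρ' φ :=
  ⟨H.ch, H.pos, (closedBall_subset_closedBall hρ).trans H.sub, H.eq⟩

theorem Pat.mono {g : M → Bil} {ι : Type*} {φ : ι → Chart M} {R R' : ℝ} (H : Pat g φ R)
    (h0 : 0 < R') (h : R' ≤ R) : Pat g φ R' :=
  ⟨H.ch, h0, fun i => (closedBall_subset_closedBall h).trans (H.sub i), H.nor, H.disj⟩

/-- Closed coordinate disc. -/
def disc (φ : Chart M) (r : ℝ) : Set M := φ.symm '' closedBall 0 r

/-- Union of closed coordinate discs. -/
def discs {ι : Type*} (φ : ι → Chart M) (r : ℝ) : Set M := ⋃ i, disc (φ i) r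

end Vale.Agent.P205.G
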