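import Vale.Agent.P205.G.Lin

/-!
G/ExtA (first part of G/Ext): extension of chart representatives, discs, locality. Helper lemma names end in _ExtA.
exists_ext: a smooth χ : E2 → ℝ equal to 1 on K with tsupport in U (exists_contMDiffMap_one_nhds_of_subset_interior applied to K and
a compact neighbourhood K' ⊆ U from exists_compact_between), take χ • u; at points outside K' it vanishes nearby.
The rest: unfold, Api/Ch, Api/Ten (push_symm, push_eventually_zero, sm_push, trep_pushT, pushT_eventually_zero, smT_pushT),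
Filter.EventuallyEq.mfderiv_eq, continuity of φ.symm on the open target.
-/

open scoped Manifold ContDiff Topology RealInnerProductSpace
open Set Filter Metric Function

noncomputable section

namespace Vale.Agent.P205.G

variable {M : Type*} [TopologicalSpace M] [ChartedSpace E2 M] [IsManifold I2 ∞ M]
variable {V : Type} [NormedAddCommGroup V]

theorem exists_ext [NormedSpace ℝ V] {u : E2 → V} {U K : Set E2} (hU : IsOpen U)
    (hu : ContDiffOn ℝ ∞ u U) (hK : IsCompact K) (hKU : K ⊆ U) :
    ∃ u' : E2 → V, ContDiff ℝ ∞ u' ∧ ∀ z ∈ K, u' z = u z := by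
  obtain ⟨K', hK', h1, h2⟩ := exists_compact_between hK hU hKU
  obtain ⟨χ, hχ1, hχ0, -⟩ := exists_contMDiffMap_one_nhds_of_subset_interior (n := ⊤) I2
    hK.isClosed h1
  have hχ : ContDiff ℝ ∞ χ := χ.contMDiff.contDiff
  refine ⟨fun z => χ z • u z, contDiff_iff_contDiffAt.2 fun z => ?_, fun z hz => ?_⟩
  · by_cases hz : z ∈ K'
    · exact hχ.contDiffAt.smul (hu.contDiffAt (hU.mem_nhds (h2 hz)))
    · refine (contDiffAt_const (c := (0 : V))).congr_of_eventuallyEq ?_
      filter_upwards [hK'.isClosed.isOpen_compl.mem_nhds hz] with y hy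
      rw [hχ0 y hy, zero_smul]
  · have : χ z = 1 := hχ1.self_of_nhdsSet z hz
    simp only [this, one_smul]

theorem eventuallyEq_of_ball {u u' : E2 → V} {r : ℝ} (h : ∀ z ∈ closedBall (0 : E2) r, u' z = u z)
    {z : E2} (hz : ‖z‖ < r) : u' =ᶠ[𝓝 z] u := by
  filter_upwards [isOpen_ball.mem_nhds (mem_ball_zero_iff.2 hz)] with y hy
  exact h y (ball_subset_closedBall hy)

theorem isCompact_disc {φ : Chart M} {r : ℝ} (h : closedBall 0 r ⊆ φ.target) :
    IsCompact (disc φ r) := by
  exact (isCompact_closedBall 0 r).image_of_continuousOn (φ.continuousOn_symm.mono h)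

theorem mem_disc {φ : Chart M} {r : ℝ} (h : closedBall 0 r ⊆ φ.target) {p : M} :
    p ∈ disc φ r ↔ p ∈ φ.source ∧ ‖φ p‖ ≤ r := by
  constructor
  · rintro ⟨z, hz, rfl⟩
    refine ⟨φ.map_target (h hz), ?_⟩
    rw [φ.right_inv (h hz)]
    exact mem_closedBall_zero_iff.1 hz
  · rintro ⟨h1, h2⟩
    exact ⟨φ p, mem_closedBall_zero_iff.2 h2, φ.left_inv h1⟩

theorem disc_mono (φ : Chart M) {r r' : ℝ} (h : r ≤ r') : disc φ r ⊆ disc φ r' := by
  exact image_mono (closedBall_subset_closedBall h)

theorem isClosed_discs [T2Space M] {ι : Type*} [Finite ι] {φ : ι → Chart M} {r : ℝ}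
    (h : ∀ i, closedBall 0 r ⊆ (φ i).target) : IsClosed (discs φ r) := by
  exact isClosed_iUnion_of_finite fun i => (isCompact_disc (h i)).isClosed

theorem comp_symm_congr {α : Type*} {F F' : M → α} {φ : Chart M} {z : E2} (hz : z ∈ φ.target)
    (h : F =ᶠ[𝓝 (φ.symm z)] F') : F ∘ φ.symm =ᶠ[𝓝 z] F' ∘ φ.symm := by
  exact h.comp_tendsto (φ.continuousAt_symm hz)

theorem dM_congr [NormedSpace ℝ V] {F F' : M → V} {p : M} (h : F =ᶠ[𝓝 p] F') :
    dM F p = dM F' p := by
  exact h.mfderiv_eq

theorem pull_congr [InnerProductSpace ℝ V] {F F' : M → V} {p : M} (h : F =ᶠ[𝓝 p] F') :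
    pull F p = pull F' p := by
  unfold pull
  rw [dM_congr h]

theorem sm_add [NormedSpace ℝ V] {F G : M → V} (hF : Sm F) (hG : Sm G) : Sm (F + G) := by
  exact ContMDiff.add hF hG

theorem sm_const_smul [NormedSpace ℝ V] {F : M → V} (hF : Sm F) (c : ℝ) : Sm (c • F) := by
  exact ContMDiff.smul (f := fun _ : M => c) (contMDiff_const (I' := 𝓘(ℝ, ℝ))) hF

theorem sm_const [NormedSpace ℝ V] (c : V) : Sm (fun _ : M => c) := by
  exact contMDiff_const

theorem pull_smul {F : M → E4} (hF : Sm F) (c : ℝ) (p : M) :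
    pull (c • F) p = c ^ 2 • pull F p := by
  have h : dM (c • F) p = c • dM F p :=
    const_smul_mfderiv ((hF p).mdifferentiableAt (by simp)) c
  ext v w
  rw [pull_apply, h]
  simp only [smul_apply, pull_apply, real_inner_smul_left, real_inner_smul_right, smul_eq_mul]
  ring

theorem ind_dM_iff {F : M → E4} (hF : Sm F) {φ : Chart M} (hφ : IsCh φ) {z : E2}
    (hz : z ∈ φ.target) (c : E4) :
    Ind (fderiv ℝ (F ∘ φ.symm) z) c ↔ Ind (dM F (φ.symm z)) c := by
  rw [hF.fderiv_comp_symm hφ hz]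
  have hp := φ.map_target hz
  have e := φ.right_inv hz
  constructor
  · refine ind_of_comp fun v => ⟨dM φ (φ.symm z) v, ?_⟩
    have := dS_dM hφ hp v
    rwa [e] at this
  · intro h
    have hi : Injective (dS φ z) := fun v w hvw => by
      have h1 := dM_dS hφ hp v
      have h2 := dM_dS hφ hp w
      rw [e] at h1 h2
      rw [← h1, ← h2, hvw]
    have := ind_comp_add h hi 0
    rwa [map_zero, add_zero] at this

end Vale.Agent.P205.G
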