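import Vale.Agent.P205.G.HChA

/-!
G/HCh: charts adapted to h. Helper lemma names end in _HCh.
exists_hch: φ0 = a chart at q restricted to interior U; u = h ∘ φ0.symm has l = fderiv u (φ0 q) ≠ 0; choose a linear l2 with
(l, l2) invertible (l2 = proj 1 or proj 0); extend u by exists_ext near φ0 q, e z = !₂[u z, l2 z] has invertible derivative,
ContDiffAt.toOpenPartialHomeomorph (restrict to an open set where the derivative is invertible; the inverse is smooth by
OpenPartialHomeomorph.contDiffAt_symm), diffeo_ch, small_ch. exists_hcover: IsCompact.elim_nhds_subcover or elim_finite_subcover.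
HCh.fderiv: h ∘ symm = c + r * z 0 on the open target. HCh.half: affine_ch with L = scaling by 1 / 2.
-/

open scoped Manifold ContDiff Topology RealInnerProductSpace
open Set Filter Metric Function

noncomputable section

namespace Vale.Agent.P205.G

variable {M : Type*} [TopologicalSpace M] [ChartedSpace E2 M] [IsManifold I2 ∞ M]

theorem HCh.fderiv_eq {h : M → ℝ} {r ρ : ℝ} {φ : Chart M} (H : HCh h r ρ φ) {z : E2}
    (hz : z ∈ φ.target) (v : E2) : fderiv ℝ (h ∘ φ.symm) z v = r * v 0 := by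
  obtain ⟨c, hc⟩ := H.eq
  have h1 : h ∘ φ.symm =ᶠ[𝓝 z] fun y : E2 => c + r * y 0 := by
    filter_upwards [φ.open_target.mem_nhds hz] with y hy
    rw [comp_apply, hc _ (φ.map_target hy), φ.right_inv hy]
  have h2 : HasFDerivAt (fun y : E2 => c + r * y 0)
      (r • (EuclideanSpace.proj 0 : E2 →L[ℝ] ℝ)) z :=
    (((EuclideanSpace.proj 0 : E2 →L[ℝ] ℝ).hasFDerivAt).const_mul r).const_add c
  rw [h1.fderiv_eq, h2.fderiv]
  rfl

theorem HCh.ker {h : M → ℝ} {r ρ : ℝ} {φ : Chart M} (H : HCh h r ρ φ) {z : E2}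
    (hz : z ∈ φ.target) {v : E2} (hv : fderiv ℝ (h ∘ φ.symm) z v = 0) : v = v 1 • ey := by
  rw [H.fderiv_eq hz] at hv
  have h0 : v 0 = 0 := (mul_eq_zero.1 hv).resolve_left H.pos.ne'
  ext i
  fin_cases i <;> simp [ey, h0]

theorem HCh.pull_eq {h : M → ℝ} {r ρ : ℝ} {φ : Chart M} (hh : Sm h) (H : HCh h r ρ φ) {p : M}
    (hp : p ∈ φ.source) (v w : E2) : pull h p v w = r ^ 2 * (dM φ p v 0 * dM φ p w 0) := by
  rw [pull_apply, hh.dM_eq H.ch hp, hh.dM_eq H.ch hp, H.fderiv_eq (φ.map_source hp),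
    H.fderiv_eq (φ.map_source hp), RCLike.inner_apply, conj_trivial]
  ring

theorem HCh.pushT_dxx {h : M → ℝ} {r ρ : ℝ} {φ : Chart M} (hh : Sm h) (H : HCh h r ρ φ)
    (u : E2 → ℝ) (p : M) :
    pushT φ (fun z => (r ^ 2 * u z) • dxx) p = push φ u p • pull h p := by
  by_cases hp : p ∈ φ.source
  · ext1 v
    ext1 w
    simp only [pushT, push, if_pos hp, ContinuousLinearMap.bilinearComp_apply, smul_apply,
      dxx_apply, H.pull_eq hh hp, smul_eq_mul]
    ring
  · simp only [pushT, push, if_neg hp]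
    ext1 v
    ext1 w
    simp

theorem HCh.half {h : M → ℝ} {r : ℝ} {φ : Chart M} (H : HCh h r 4 φ) :
    ∃ ψ : Chart M, HCh h (2 * r) 2 ψ ∧
      ∀ (u : E2 → ℝ) (p : M), push ψ u p = push φ (fun z => u ((2 : ℝ)⁻¹ • z)) p := by
  obtain ⟨L, hL⟩ : ∃ L : E2 ≃L[ℝ] E2, ∀ z, L z = (2 : ℝ)⁻¹ • z :=
    ⟨ContinuousLinearEquiv.smulLeft (R₁ := ℝ) (M₁ := E2)
      (Units.mk0 (2 : ℝ)⁻¹ (inv_ne_zero two_ne_zero)), fun _ => rfl⟩
  obtain ⟨ψ, a1, a2, a3, -, a5⟩ := affine_ch H.ch L 0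
  obtain ⟨c, hc⟩ := H.eq
  have e : ∀ z : E2, L.symm (z - 0) = (2 : ℝ) • z := fun z => by
    rw [ContinuousLinearEquiv.symm_apply_eq, hL, inv_smul_smul₀ two_ne_zero, sub_zero]
  refine ⟨ψ, ⟨a1, mul_pos two_pos H.pos, fun z hz => ?_, c, fun p hp => ?_⟩, fun u p => ?_⟩
  · rw [a5, mem_ofPred_eq, e]
    refine H.sub ?_
    rw [mem_closedBall_zero_iff] at hz ⊢
    rw [norm_smul, Real.norm_two]
    linarith
  · rw [hc p (a2 ▸ hp), a3, hL, add_zero, PiLp.smul_apply, smul_eq_mul]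
    ring
  · by_cases hp : p ∈ φ.source
    · simp only [push, if_pos hp, if_pos (a2 ▸ hp : p ∈ ψ.source), a3, hL, add_zero]
    · simp only [push, if_neg hp, if_neg (a2 ▸ hp : p ∉ ψ.source)]

/-- Differential of a chart composed with a linear map. -/
theorem dM_linear {φ ψ : Chart M} (hφ : IsCh φ) (L : E2 →L[ℝ] E2) (h : ∀ p, ψ p = L (φ p))
    {p : M} (hp : p ∈ φ.source) (v : E2) : dM ψ p v = L (dM φ p v) := by
  have h1 : (ψ : M → E2) = L ∘ φ := funext h
  have h2 := mfderiv_comp (I := I2) (I' := I2) (I'' := I2) p L.mdifferentiableAt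
    ((contMDiffAt_of_mem_maximalAtlas hφ hp).mdifferentiableAt (by simp))
  rw [L.mfderiv_eq, ← h1] at h2
  exact congrArg (fun A => A v) h2

end Vale.Agent.P205.G
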