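import Vale.Agent.P205.G.Ext

/-!
G/HChA (first part of G/HCh): charts adapted to h. Helper lemma names end in _HChA.
exists_hch: φ0 = a chart at q restricted to interior U; u = h ∘ φ0.symm has l = fderiv u (φ0 q) ≠ 0; choose a linear l2 with
(l, l2) invertible (l2 = proj 1 or proj 0); extend u by exists_ext near φ0 q, e z = !₂[u z, l2 z] has invertible derivative,
ContDiffAt.toOpenPartialHomeomorph (restrict to an open set where the derivative is invertible; the inverse is smooth by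
OpenPartialHomeomorph.contDiffAt_symm), diffeo_ch, small_ch. exists_hcover: IsCompact.elim_nhds_subcover or elim_finite_subcover.
HCh.fderiv: h ∘ symm = c + r * z 0 on the open target. HCh.half: affine_ch with L = scaling by 1 / 2.
-/

open scoped Manifold ContDiff Topology RealInnerProductSpace
open Set Filter Metric Function

noncomputable section

namespace Vale.Agent.P205.G

theorem lin_HChA {l : E2 →L[ℝ] ℝ} (hl : l ≠ 0) : ∃ (l2 : E2 →L[ℝ] ℝ) (A : E2 ≃L[ℝ] E2),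
    (A : E2 →L[ℝ] E2) = l.smulRight ex + l2.smulRight ey := by
  have hv : ∀ v : E2, l v = v 0 * l ex + v 1 * l ey := fun v => by
    conv_lhs => rw [eq_ex_ey v]
    rw [map_add, map_smul, map_smul, smul_eq_mul, smul_eq_mul]
  have hab : l ex ^ 2 + l ey ^ 2 ≠ 0 := fun h0 => hl (by
    have h1 : l ex = 0 := by nlinarith [sq_nonneg (l ex), sq_nonneg (l ey)]
    have h2 : l ey = 0 := by nlinarith [sq_nonneg (l ex), sq_nonneg (l ey)]
    ext v
    simp [hv v, h1, h2])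
  let l2 : E2 →L[ℝ] ℝ := l ex • EuclideanSpace.proj (1 : Fin 2) - l ey • EuclideanSpace.proj 0
  let B : E2 →L[ℝ] E2 := l.smulRight ex + l2.smulRight ey
  have hB : Injective (B : E2 →ₗ[ℝ] E2) := by
    rw [injective_iff_map_eq_zero]
    intro v h0
    have h1 : l v = 0 := by simpa [B, ex, ey] using congrArg (fun w : E2 => w 0) h0
    have h2 : l2 v = 0 := by simpa [B, ex, ey] using congrArg (fun w : E2 => w 1) h0
    have h3 : l ex * v 1 - l ey * v 0 = 0 := h2
    rw [hv v] at h1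
    have h4 : v 0 = 0 := mul_left_cancel₀ hab (by linear_combination l ex * h1 - l ey * h3)
    have h5 : v 1 = 0 := mul_left_cancel₀ hab (by linear_combination l ey * h1 + l ex * h3)
    rw [eq_ex_ey v, h4, h5, zero_smul, zero_smul, add_zero]
  exact ⟨l2, (LinearEquiv.ofInjectiveEndo _ hB).toContinuousLinearEquiv, rfl⟩

theorem loc_HChA {u : E2 → ℝ} {W : Set E2} (hW : IsOpen W) (hu : ContDiffOn ℝ ∞ u W) {z : E2}
    (hz : z ∈ W) (hd : fderiv ℝ u z ≠ 0) : ∃ e : OpenPartialHomeomorph E2 E2, z ∈ e.source ∧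
      e.source ⊆ W ∧ ContDiffOn ℝ ∞ e e.source ∧ ContDiffOn ℝ ∞ e.symm e.target ∧
      ∀ x, e x 0 = u x := by
  obtain ⟨l2, A, hA⟩ := lin_HChA hd
  let f : E2 → E2 := fun x => u x • ex + l2 x • ey
  have hf : ContDiffOn ℝ ∞ f W :=
    (hu.smul contDiffOn_const).add (l2.contDiff.contDiffOn.smul contDiffOn_const)
  have hfa : ∀ x ∈ W, ContDiffAt ℝ ∞ f x := fun x hx => hf.contDiffAt (hW.mem_nhds hx)
  have hf' : HasFDerivAt f (A : E2 →L[ℝ] E2) z := by
    rw [hA]
    exact (((hu.contDiffAt (hW.mem_nhds hz)).differentiableAt (by simp)).hasFDerivAt.smul_const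
      ex).add (l2.hasFDerivAt.smul_const ey)
  have hW' : IsOpen (W ∩ fderiv ℝ f ⁻¹' range ((↑) : (E2 ≃L[ℝ] E2) → E2 →L[ℝ] E2)) :=
    (hf.continuousOn_fderiv_of_isOpen hW (by simp)).isOpen_inter_preimage hW
      ContinuousLinearEquiv.isOpen
  refine ⟨((hfa z hz).toOpenPartialHomeomorph f hf' (by simp)).restrOpen _ hW',
    ⟨(hfa z hz).mem_toOpenPartialHomeomorph_source hf' (by simp), hz, A, hf'.fderiv.symm⟩,
    fun x hx => hx.2.1, hf.mono fun x hx => hx.2.1, fun y hy => ?_, fun x => ?_⟩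
  · have h1 := OpenPartialHomeomorph.map_target _ hy
    obtain ⟨A', hA'⟩ := h1.2.2
    refine (OpenPartialHomeomorph.contDiffAt_symm _ hy (f₀' := A') ?_
      (hfa _ h1.2.1)).contDiffWithinAt
    rw [hA']
    exact ((hfa _ h1.2.1).differentiableAt (by simp)).hasFDerivAt
  · change f x 0 = u x
    simp [f, ex, ey]

variable {M : Type*} [TopologicalSpace M] [ChartedSpace E2 M] [IsManifold I2 ∞ M]

theorem exists_hch {h : M → ℝ} (hh : Sm h) {q : M} (hq : dM h q ≠ 0) {U : Set M} (hU : U ∈ 𝓝 q)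
    (ρ : ℝ) : ∃ (r : ℝ) (φ : Chart M), HCh h r ρ φ ∧ q ∈ φ.source ∧ φ q = 0 ∧ φ.source ⊆ U := by
  have hφ := isCh_chartAt q
  have hq0 := mem_chart_source E2 q
  generalize chartAt E2 q = φ at hφ hq0
  obtain ⟨e, he1, he2, he3, he4, he5⟩ := loc_HChA
    (φ.isOpen_inter_preimage_symm (isOpen_interior (s := U)))
    ((hh.contDiffOn hφ).mono inter_subset_left) (z := φ q)
    ⟨φ.map_source hq0, by
      rw [mem_preimage, φ.left_inv hq0]
      exact mem_interior_iff_mem_nhds.2 hU⟩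
    (fun h0 => hq (by
      ext v
      rw [hh.dM_eq hφ hq0 v, h0]
      rfl))
  have hq1 : q ∈ (φ.trans e).source := ⟨hq0, he1⟩
  obtain ⟨r, hr, ψ, h1, h2, h3, -, h5⟩ :=
    (eventually_mem_nhdsWithin.and (small_ch (diffeo_ch hφ e he3 he4) hq1 ρ)).exists
  have hr0 : 0 < r := hr
  have hv : ∀ p ∈ φ.source, (φ.trans e) p 0 = h p := fun p hp => by
    change e (φ p) 0 = h p
    rw [he5, comp_apply, φ.left_inv hp]
  refine ⟨r, ψ, ⟨h1, hr0, h5, h q, fun p hp => ?_⟩, h2 ▸ hq1, by rw [h3, sub_self, smul_zero],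
    fun p hp => ?_⟩
  · rw [h2] at hp
    rw [h3, PiLp.smul_apply, PiLp.sub_apply, hv p hp.1, hv q hq0, smul_eq_mul,
      mul_inv_cancel_left₀ hr0.ne', add_sub_cancel]
  · rw [h2] at hp
    have h6 : φ.symm (φ p) ∈ interior U := (he2 hp.2).2
    rw [φ.left_inv hp.1] at h6
    exact interior_subset h6

theorem exists_hcover {h : M → ℝ} (hh : Sm h) {K U : Set M} (hK : IsCompact K)
    (hcr : ∀ q ∈ K, dM h q ≠ 0) (hU : IsOpen U) (hKU : K ⊆ U) (ρ : ℝ) :
    ∃ s : Finset (ℝ × Chart M), (∀ c ∈ s, HCh h c.1 ρ c.2 ∧ c.2.source ⊆ U) ∧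
      ∀ q ∈ K, ∃ c ∈ s, q ∈ c.2.source ∧ ‖c.2 q‖ < 1 := by
  classical
  choose r φ h1 h2 h3 h4 using fun q (hq : q ∈ K) =>
    exists_hch hh (hcr q hq) (hU.mem_nhds (hKU hq)) ρ
  obtain ⟨t, ht⟩ := hK.elim_nhds_subcover'
    (fun q hq => (φ q hq).source ∩ φ q hq ⁻¹' ball 0 1) fun q hq =>
      ((φ q hq).isOpen_inter_preimage isOpen_ball).mem_nhds
        ⟨h2 q hq, by rw [mem_preimage, h3 q hq]; exact mem_ball_self one_pos⟩
  refine ⟨t.image fun q => (r q.1 q.2, φ q.1 q.2), fun c hc => ?_, fun q hq => ?_⟩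
  · obtain ⟨x, -, rfl⟩ := Finset.mem_image.1 hc
    exact ⟨h1 x.1 x.2, h4 x.1 x.2⟩
  · obtain ⟨x, hx, hx'⟩ := mem_iUnion₂.1 (ht hq)
    exact ⟨_, Finset.mem_image_of_mem _ hx, hx'.1, mem_ball_zero_iff.1 hx'.2⟩

end Vale.Agent.P205.G
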