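import Vale.Agent.P205.G.Defs

/-!
G/Osc: first and second derivative of a small oscillation. Helper lemma names end in _Osc.
u z = (lam⁻¹ ^ 2 * c (lam * z 1)) • P z. fderiv u z v = (lam⁻¹ * c' (lam * z 1) * v 1) • P z + (lam⁻¹ ^ 2 * c (..)) • fderiv P z v.
D2 u z ey = fderiv (fun z => fderiv u z ey) z ey (fderiv_clm_apply) = c'' • P + (2 lam⁻¹ c') • fderiv P z ey + (lam⁻¹ ^ 2 c) • D2 P z ey.
P, fderiv P, D2 P are bounded on K (IsCompact.exists_bound_of_continuousOn).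
-/

open scoped Manifold ContDiff Topology RealInnerProductSpace
open Set Filter Metric Function

noncomputable section

namespace Vale.Agent.P205.G

theorem D2_Osc {u : E2 → E4} (hu : ContDiff ℝ ∞ u) (z v : E2) :
    D2 u z v = fderiv ℝ (fun x => fderiv ℝ u x v) z v := by
  rw [fderiv_clm_apply (ind_diff hu.contDiffAt) (differentiableAt_const v)]
  simp [D2]

theorem scal_Osc {d : ℝ → ℝ} (hd : Differentiable ℝ d) (k lam : ℝ) (x : E2) :
    HasFDerivAt (fun x : E2 => k * d (lam * x 1))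
      ((k * lam * deriv d (lam * x 1)) • (EuclideanSpace.proj 1 : E2 →L[ℝ] ℝ)) x := by
  have h1 : HasFDerivAt (fun x : E2 => lam * x 1) (lam • (EuclideanSpace.proj 1 : E2 →L[ℝ] ℝ)) x :=
    (EuclideanSpace.proj 1 : E2 →L[ℝ] ℝ).hasFDerivAt.const_mul lam
  have h2 := ((hd (lam * x 1)).hasDerivAt.comp_hasFDerivAt x h1).const_mul k
  refine h2.congr_fderiv ?_
  rw [smul_smul, smul_smul]
  congr 1
  ring

theorem proj_Osc : ‖(EuclideanSpace.proj 1 : E2 →L[ℝ] ℝ)‖ ≤ 1 :=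
  ContinuousLinearMap.opNorm_le_bound _ zero_le_one fun x => by
    rw [one_mul]
    exact PiLp.norm_apply_le x 1

theorem osc {P : E2 → E4} (hP : ContDiff ℝ ∞ P) {c : ℝ → ℝ} (hc : ContDiff ℝ ∞ c) {B : ℝ}
    (h0 : ∀ t, |c t| ≤ B) (h1 : ∀ t, |deriv c t| ≤ B) {K : Set E2} (hK : IsCompact K) :
    ∃ C : ℝ, ∀ lam : ℝ, 1 ≤ lam → ∀ z ∈ K,
      ‖fderiv ℝ (fun x : E2 => (lam⁻¹ ^ 2 * c (lam * x 1)) • P x) z‖ ≤ C / lam ∧
      ‖D2 (fun x : E2 => (lam⁻¹ ^ 2 * c (lam * x 1)) • P x) z ey -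
        deriv (deriv c) (lam * z 1) • P z‖ ≤ C / lam := by
  have hB : 0 ≤ B := (abs_nonneg _).trans (h0 0)
  have dP : Differentiable ℝ P := hP.differentiable (by simp)
  have dc : Differentiable ℝ c := hc.differentiable (by simp)
  have dc' : Differentiable ℝ (deriv c) := (contDiff_infty_iff_deriv.1 hc).2.differentiable (by simp)
  have hD : ContDiff ℝ ∞ (fderiv ℝ P) := (contDiff_infty_iff_fderiv.1 hP).2
  have hQ : ContDiff ℝ ∞ (fun x => fderiv ℝ P x ey) := hD.clm_apply contDiff_const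
  have hR : Continuous fun x => fderiv ℝ (fun x => fderiv ℝ P x ey) x ey :=
    ((contDiff_infty_iff_fderiv.1 hQ).2.clm_apply contDiff_const).continuous
  have hs : Continuous fun x => ‖P x‖ + ‖fderiv ℝ P x‖ + ‖fderiv ℝ P x ey‖ +
      ‖fderiv ℝ (fun x => fderiv ℝ P x ey) x ey‖ :=
    ((hP.continuous.norm.add hD.continuous.norm).add hQ.continuous.norm).add hR.norm
  obtain ⟨N, hN⟩ := hK.exists_bound_of_continuousOn hs.continuousOn
  refine ⟨3 * B * N, fun lam hlam z hz => ?_⟩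
  have hl : 0 < lam := by linarith
  have hi : 0 < lam⁻¹ := inv_pos.2 hl
  have hi1 : lam⁻¹ ≤ 1 := inv_le_one_of_one_le₀ hlam
  have e0 : lam⁻¹ ^ 2 * lam = lam⁻¹ := by field_simp
  have F1 : ∀ x : E2, HasFDerivAt (fun x : E2 => (lam⁻¹ ^ 2 * c (lam * x 1)) • P x)
      ((lam⁻¹ ^ 2 * c (lam * x 1)) • fderiv ℝ P x + ((lam⁻¹ * deriv c (lam * x 1)) •
        (EuclideanSpace.proj 1 : E2 →L[ℝ] ℝ)).smulRight (P x)) x := fun x => by
    have := (scal_Osc dc (lam⁻¹ ^ 2) lam x).fun_smul (dP x).hasFDerivAt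
    rwa [e0] at this
  have hu : ContDiff ℝ ∞ (fun x : E2 => (lam⁻¹ ^ 2 * c (lam * x 1)) • P x) :=
    (contDiff_const.mul (hc.comp (contDiff_const.mul
      (EuclideanSpace.proj 1 : E2 →L[ℝ] ℝ).contDiff))).smul hP
  have hy : (EuclideanSpace.proj 1 : E2 →L[ℝ] ℝ) ey = 1 := by simp [ey]
  have e1 : (fun x => fderiv ℝ (fun x : E2 => (lam⁻¹ ^ 2 * c (lam * x 1)) • P x) x ey) =
      fun x => (lam⁻¹ ^ 2 * c (lam * x 1)) • fderiv ℝ P x ey +
        (lam⁻¹ * deriv c (lam * x 1)) • P x := by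
    funext x
    rw [(F1 x).fderiv]
    simp only [add_apply, smul_apply, ContinuousLinearMap.smulRight_apply, hy, smul_eq_mul,
      mul_one]
  have F2 := ((scal_Osc dc (lam⁻¹ ^ 2) lam z).fun_smul
    (hQ.differentiable (by simp) z).hasFDerivAt).fun_add
    ((scal_Osc dc' lam⁻¹ lam z).fun_smul (dP z).hasFDerivAt)
  have b0 : |lam⁻¹ ^ 2 * c (lam * z 1)| ≤ lam⁻¹ * B := by
    rw [abs_mul, abs_of_pos (pow_pos hi 2)]
    exact mul_le_mul (by nlinarith) (h0 _) (abs_nonneg _) hi.le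
  have b1 : |lam⁻¹ * deriv c (lam * z 1)| ≤ lam⁻¹ * B := by
    rw [abs_mul, abs_of_pos hi]
    exact mul_le_mul_of_nonneg_left (h1 _) hi.le
  have n0 := (le_abs_self _).trans (hN z hz)
  have n1 := norm_nonneg (P z)
  have n2 := norm_nonneg (fderiv ℝ P z)
  have n3 := norm_nonneg (fderiv ℝ P z ey)
  have n4 := norm_nonneg (fderiv ℝ (fun x => fderiv ℝ P x ey) z ey)
  have hw : 0 ≤ lam⁻¹ * B := by positivity
  have e3 : 3 * B * N / lam = lam⁻¹ * B * (3 * N) := by field_simp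
  rw [e3]
  constructor
  · rw [(F1 z).fderiv]
    refine (norm_add_le _ _).trans ?_
    rw [norm_smul, ContinuousLinearMap.norm_smulRight_apply, norm_smul, Real.norm_eq_abs,
      Real.norm_eq_abs]
    have c1 := mul_le_mul_of_nonneg_right b0 n2
    have c2 := mul_le_mul_of_nonneg_right
      (mul_le_mul b1 proj_Osc (norm_nonneg _) hw) n1
    have c3 := mul_le_mul_of_nonneg_left
      (show ‖fderiv ℝ P z‖ + ‖P z‖ ≤ 3 * N by linarith) hw
    linarith
  · have e2 : D2 (fun x : E2 => (lam⁻¹ ^ 2 * c (lam * x 1)) • P x) z ey -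
        deriv (deriv c) (lam * z 1) • P z =
        (lam⁻¹ ^ 2 * c (lam * z 1)) • fderiv ℝ (fun x => fderiv ℝ P x ey) z ey +
          (2 : ℝ) • (lam⁻¹ * deriv c (lam * z 1)) • fderiv ℝ P z ey := by
      rw [D2_Osc hu, e1, F2.fderiv, e0, inv_mul_cancel₀ hl.ne']
      simp only [add_apply, smul_apply, ContinuousLinearMap.smulRight_apply, hy, smul_eq_mul,
        mul_one, one_mul]
      module
    rw [e2]
    refine (norm_add_le _ _).trans ?_
    rw [norm_smul, norm_smul, norm_smul, Real.norm_eq_abs, Real.norm_eq_abs, Real.norm_eq_abs,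
      abs_two]
    have c1 := mul_le_mul_of_nonneg_right b0 n4
    have c2 := mul_le_mul_of_nonneg_right b1 n3
    have c3 := mul_le_mul_of_nonneg_left
      (show ‖fderiv ℝ (fun x => fderiv ℝ P x ey) z ey‖ + 2 * ‖fderiv ℝ P z ey‖ ≤ 3 * N by
        linarith) hw
    linarith

end Vale.Agent.P205.G
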