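import Vale.Agent.P205.G.HStepA
import Vale.Agent.P205.G.Osc

/-!
G/HLoop (first part of G/HStepB): the horseshoe oscillation. Helper lemma names end in _HLoop.
m z = cross (fderiv F z ex) (fderiv F z ey) (N z) (smooth). χ bump (rIn 5 / 4, rOut 3 / 2), η2 = 1 - bump (rIn 1, rOut 5 / 4).
E1 t = -2 cos (2 t), E2 t = cos t. V R z t = D2 F z ey + η2 z • (N z - D2 F z ey) + (χ z * R) • (E1 t • N z + E2 t • m z).
hloop: there is R ≥ 0 with Ind (fderiv F z) (V R z t) for ‖z‖ ≤ 2 and all t. For ‖z‖ ≥ 5 / 4: η2 = 1, ind_pair with horseshoe (β = 1).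
For ‖z‖ ≤ 5 / 4: χ = 1; (E1, E2) ≠ 0 (cos t = 0 gives cos (2 t) = -1), ind_pair, uniform κ on closedBall ×ˢ Icc 0 (2π)
(exists_indQ_compact, reduce t by toIcoMod or use the compact set of pairs (cos t, sin t)), V = R • (.. + R⁻¹ • bounded), IndQ.perturb, ind_smul.
hstepB: uniform κ for V R z t; U x = (lam⁻¹ ^ 2 * cos (2 lam x1) / 2) • (χ R N) + (lam⁻¹ ^ 2 * (-cos (lam x1))) • (χ R m) (osc twice, D2_add),
W z = V R z (lam * z 1) - N z; lam large, IndQ.perturb and cn_of_indQ with b = V R z (lam * z 1): if ‖z‖ ≤ 1 or N z = D2 F z ey then the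
η2 term vanishes and D2 (F + U) z ey is C / lam close to b.
-/

open scoped Manifold ContDiff Topology RealInnerProductSpace
open Set Filter Metric Function

noncomputable section

namespace Vale.Agent.P205.G

theorem hloop {F N : E2 → E4} (hF : ContDiff ℝ ∞ F) (hN : ContDiff ℝ ∞ N)
    (hI : ∀ z, ‖z‖ ≤ 2 → Ind (fderiv ℝ F z) (N z)) {χ η : E2 → ℝ} (hη : Continuous η)
    (hχ0 : ∀ z, 0 ≤ χ z) (hχ1 : ∀ z, ‖z‖ ≤ 5 / 4 → χ z = 1) (hη1 : ∀ z, 5 / 4 ≤ ‖z‖ → η z = 1) :
    ∃ R : ℝ, ∀ z, ‖z‖ ≤ 2 → ∀ t : ℝ, Ind (fderiv ℝ F z) (D2 F z ey + η z • (N z - D2 F z ey) +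
      (χ z * R) • ((-2 * Real.cos (2 * t)) • N z +
        Real.cos t • cross (fderiv ℝ F z ex) (fderiv ℝ F z ey) (N z))) := by
  have h1 : ContDiff ℝ ∞ (fderiv ℝ F) := hF.fderiv_right (m := ∞) (by simp)
  have h2 : Continuous (fderiv ℝ (fderiv ℝ F)) := h1.continuous_fderiv (by simp)
  have h3 : Continuous fun z => D2 F z ey := by
    unfold D2
    fun_prop
  have h4 : Continuous fun z => cross (fderiv ℝ F z ex) (fderiv ℝ F z ey) (N z) :=
    contDiff_cross.continuous.comp (f := fun z => (fderiv ℝ F z ex, fderiv ℝ F z ey, N z)) (by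
      have := h1.continuous
      have := hN.continuous
      fun_prop)
  have hN' := hN.continuous
  obtain ⟨κ, hκ, hQ⟩ := exists_indQ_compact
    ((isCompact_closedBall (0 : E2) 2).prod (isCompact_Icc (a := (-1 : ℝ)) (b := 1)))
    (A := fun p => fderiv ℝ F p.1)
    (c := fun p => (-2 * (2 * p.2 ^ 2 - 1)) • N p.1 +
      p.2 • cross (fderiv ℝ F p.1 ex) (fderiv ℝ F p.1 ey) (N p.1))
    (h1.continuous.comp continuous_fst).continuousOn
    (((by fun_prop : Continuous fun p : E2 × ℝ => (-2 * (2 * p.2 ^ 2 - 1)) • N p.1).add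
      (continuous_snd.smul (h4.comp continuous_fst))).continuousOn)
    fun p hp => ind_pair (hI _ (mem_closedBall_zero_iff.1 hp.1)) (by
      by_cases h : p.2 = 0
      · simp [h]
      · exact Or.inr h)
  obtain ⟨C, hC⟩ := (isCompact_closedBall (0 : E2) 2).exists_bound_of_continuousOn
    (f := fun z => D2 F z ey + η z • (N z - D2 F z ey)) (by fun_prop)
  have hC0 : 0 ≤ C := (norm_nonneg _).trans (hC 0 (by simp))
  have hR : 0 < 2 * C / κ + 1 := by positivity
  refine ⟨2 * C / κ + 1, fun z hz t => ?_⟩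
  set R := 2 * C / κ + 1 with hRd
  rw [Real.cos_two_mul]
  rcases le_total ‖z‖ (5 / 4) with h | h
  · have h5 := hQ (z, Real.cos t) ⟨mem_closedBall_zero_iff.2 hz, Real.cos_mem_Icc t⟩
    have h6 := (h5.perturb (ε := κ / 2) (A' := fderiv ℝ F z)
      (c' := R⁻¹ • (D2 F z ey + η z • (N z - D2 F z ey)) +
        ((-2 * (2 * Real.cos t ^ 2 - 1)) • N z +
          Real.cos t • cross (fderiv ℝ F z ex) (fderiv ℝ F z ey) (N z)))
      (by simpa using (half_pos hκ).le) (by
        rw [add_sub_cancel_right, norm_smul, norm_inv, Real.norm_of_nonneg hR.le,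
          inv_mul_le_iff₀ hR]
        refine (hC z (mem_closedBall_zero_iff.2 hz)).trans ?_
        rw [hRd]
        field_simp
        linarith)).ind (by linarith)
    have h7 := ind_smul h6 hR.ne'
    rw [smul_add R, smul_inv_smul₀ hR.ne'] at h7
    rwa [hχ1 z h, one_mul]
  · have h5 : 0 ≤ χ z * R := mul_nonneg (hχ0 z) hR.le
    have h6 := ind_pair (hI z hz) (a := 1 + χ z * R * (-2 * (2 * Real.cos t ^ 2 - 1)))
      (b := χ z * R * Real.cos t) (by
        by_contra h7
        push Not at h7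
        rcases mul_eq_zero.1 h7.2 with h8 | h8
        · simp [h8] at h7
        · have h9 := h7.1
          rw [h8] at h9
          linarith)
    rw [hη1 z h]
    refine (congrArg _ ?_).mp h6
    module

end Vale.Agent.P205.G
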