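import Vale.Agent.P205.G.HStep0

/-!
G/HStep: one step of the second order h-principle, in the plane and on M. Helper lemma names end in _HStep.
hstep: hstepA then hstepB for N + W1; for z ∈ A with ‖z‖ > 3 / 2 both U and W2 vanish near z (D2_congr, EventuallyEq.fderiv_eq).
hglob_step: exists_ext on closedBall 0 3 for F ∘ symm and ν ∘ symm, A' = {z ∈ closedBall 0 2 | φ.symm z ∈ A} (closed), hC at v = ey
(HCh.fderiv_eq). F' = F + push φ U, ν' = ν + push φ W. For p ∈ disc φ 2 work in φ (add_push_symm, push_symm, ind_dM_iff, HCh.ker, D2_smul,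
Cn.smul), otherwise add_push_off, dM_congr, comp_symm_congr with any chart; cone_of_local.
-/

open scoped Manifold ContDiff Topology RealInnerProductSpace
open Set Filter Metric Function

noncomputable section

namespace Vale.Agent.P205.G

variable {M : Type*} [TopologicalSpace M] [ChartedSpace E2 M] [IsManifold I2 ∞ M]
  [T2Space M] [CompactSpace M]

theorem ey_ne_HStep : ey ≠ 0 := fun e => by
  have := congrArg (fun v : E2 => v 1) e
  simp [ey] at this

theorem hglob_step {F ν : M → E4} {h : M → ℝ} {A : Set M} (hF : Sm F) (hν : Sm ν) (hh : Sm h)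
    (hA : IsClosed A) (hI : ∀ p, Ind (dM F p) (ν p)) (hC : Cone F ν h A) {r : ℝ} {φ : Chart M}
    (hφ : HCh h r 3 φ) : ∃ F' ν' : M → E4, Sm F' ∧ Sm ν' ∧ (∀ p, Ind (dM F' p) (ν' p)) ∧
      Cone F' ν' h (A ∪ disc φ 1) ∧ ∀ p, p ∉ φ.source → F' p = F p := by
  have h3 := hφ.sub
  have s23 : ∀ z : E2, ‖z‖ ≤ 2 → z ∈ closedBall (0 : E2) 3 := fun z hz =>
    mem_closedBall_zero_iff.2 (by linarith)
  have h2 : closedBall (0 : E2) 2 ⊆ φ.target := (hφ.mono (by norm_num)).sub
  have h1 : closedBall (0 : E2) 1 ⊆ φ.target := (hφ.mono (by norm_num)).sub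
  have ht : ∀ z : E2, ‖z‖ ≤ 2 → z ∈ φ.target := fun z hz => h3 (s23 z hz)
  obtain ⟨F0, hF0, eF0⟩ := exists_ext φ.open_target (hF.contDiffOn hφ.ch)
    (isCompact_closedBall _ _) h3
  obtain ⟨N0, hN0, eN0⟩ := exists_ext φ.open_target (hν.contDiffOn hφ.ch)
    (isCompact_closedBall _ _) h3
  have eF : ∀ z : E2, ‖z‖ ≤ 2 → F0 =ᶠ[𝓝 z] F ∘ φ.symm := fun z hz =>
    eventuallyEq_of_ball eF0 (by linarith)
  have hA' : IsClosed (closedBall (0 : E2) 2 ∩ φ.symm ⁻¹' A) :=
    (φ.continuousOn_symm.mono h2).preimage_isClosed_of_isClosed isClosed_closedBall hA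
  obtain ⟨U, W, hU, hW, sU, sW, k1, k2⟩ := hstep hF0 hN0 hA'
    (fun z hz => by
      rw [(eF z hz).fderiv_eq, eN0 z (s23 z hz), ind_dM_iff hF hφ.ch (ht z hz)]
      exact hI _)
    (fun z hzA hz => by
      rw [(eF z hz).fderiv_eq, D2_congr (eF z hz), eN0 z (s23 z hz)]
      exact hC φ hφ.ch z (ht z hz) hzA.2 ey ey_ne_HStep (by
        rw [hφ.fderiv_eq (ht z hz)]
        simp [ey]))
  have hF' : Sm (F + push φ U) :=
    sm_add hF (sm_push hφ.ch hU.contDiffOn (isCompact_closedBall _ _) h2 sU)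
  have hν' : Sm (ν + push φ W) :=
    sm_add hν (sm_push hφ.ch hW.contDiffOn (isCompact_closedBall _ _) h2 sW)
  have key : ∀ z : E2, ‖z‖ ≤ 2 → (F + push φ U) ∘ φ.symm =ᶠ[𝓝 z] F0 + U := fun z hz =>
    (add_push_symm F φ U (ht z hz)).trans ((eF z hz).symm.add (EventuallyEq.refl _ U))
  have keyν : ∀ p ∈ φ.source, ‖φ p‖ ≤ 2 → (ν + push φ W) p = N0 (φ p) + W (φ p) :=
    fun p hp hz => by
      rw [eN0 _ (s23 _ hz), ← push_symm φ W (ht _ hz), comp_apply, φ.left_inv hp, Pi.add_apply]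
  refine ⟨F + push φ U, ν + push φ W, hF', hν', fun p => ?_,
    cone_of_local hF' hh fun p hp => ?_, fun p hp => ?_⟩
  · by_cases hd : p ∈ disc φ 2
    · obtain ⟨hp, hz⟩ := (mem_disc h2).1 hd
      have := (ind_dM_iff hF' hφ.ch (ht _ hz) ((ν + push φ W) p)).1 (by
        rw [(key _ hz).fderiv_eq, keyν p hp hz]
        exact k1 _ hz)
      rwa [φ.left_inv hp] at this
    · rw [dM_congr (add_push_off F h2 sU hd), (add_push_off ν h2 sW hd).eq_of_nhds]
      exact hI p
  · by_cases hd : p ∈ disc φ 2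
    · obtain ⟨hs, hz⟩ := (mem_disc h2).1 hd
      refine ⟨φ, hφ.ch, hs, fun v hv hk => ?_⟩
      have e := hφ.ker (ht _ hz) hk
      have h0 : v 1 ≠ 0 := fun e0 => hv (by rw [e, e0, zero_smul])
      rw [e, D2_smul, (key _ hz).fderiv_eq, D2_congr (key _ hz), keyν p hs hz]
      refine (k2 _ hz ?_).smul (by positivity)
      rcases hp with hp | hp
      · refine Or.inr ⟨mem_closedBall_zero_iff.2 hz, ?_⟩
        rw [mem_preimage, φ.left_inv hs]
        exact hp
      · exact Or.inl ((mem_disc h1).1 hp).2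
    · have hpA : p ∈ A := hp.resolve_right fun e => hd (disc_mono φ (by norm_num) e)
      have hs := mem_chart_source E2 p
      have hψ := isCh_chartAt p
      refine ⟨chartAt E2 p, hψ, hs, fun v hv hk => ?_⟩
      set ψ := chartAt E2 p
      have e : (F + push φ U) ∘ ψ.symm =ᶠ[𝓝 (ψ p)] F ∘ ψ.symm :=
        comp_symm_congr (ψ.map_source hs) (by
          rw [ψ.left_inv hs]
          exact add_push_off F h2 sU hd)
      rw [e.fderiv_eq, D2_congr e, (add_push_off ν h2 sW hd).eq_of_nhds]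
      have := hC ψ hψ (ψ p) (ψ.map_source hs) (by rwa [ψ.left_inv hs]) v hv hk
      rwa [ψ.left_inv hs] at this
  · rw [Pi.add_apply, push, if_neg hp, add_zero]

end Vale.Agent.P205.G
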