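import Vale.Agent.P205.G.HStepB
import Vale.Agent.P205.G.Cone
import Vale.Agent.P205.G.HCh

/-!
G/HStep0 (first part of G/HStep): one step of the second order h-principle, in the plane and on M. Helper lemma names end in _HStep0.
hstep: hstepA then hstepB for N + W1; for z ∈ A with ‖z‖ > 3 / 2 both U and W2 vanish near z (D2_congr, EventuallyEq.fderiv_eq).
hglob_step: exists_ext on closedBall 0 3 for F ∘ symm and ν ∘ symm, A' = {z ∈ closedBall 0 2 | φ.symm z ∈ A} (closed), hC at v = ey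
(HCh.fderiv_eq). F' = F + push φ U, ν' = ν + push φ W. For p ∈ disc φ 2 work in φ (add_push_symm, push_symm, ind_dM_iff, HCh.ker, D2_smul,
Cn.smul), otherwise add_push_off, dM_congr, comp_symm_congr with any chart; cone_of_local.
-/

open scoped Manifold ContDiff Topology RealInnerProductSpace
open Set Filter Metric Function

noncomputable section

namespace Vale.Agent.P205.G

theorem hstep {F N : E2 → E4} (hF : ContDiff ℝ ∞ F) (hN : ContDiff ℝ ∞ N) {A : Set E2}
    (hA : IsClosed A) (hI : ∀ z, ‖z‖ ≤ 2 → Ind (fderiv ℝ F z) (N z))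
    (hC : ∀ z ∈ A, ‖z‖ ≤ 2 → Cn (fderiv ℝ F z) (N z) (D2 F z ey)) :
    ∃ U W : E2 → E4, ContDiff ℝ ∞ U ∧ ContDiff ℝ ∞ W ∧ support U ⊆ closedBall 0 2 ∧
      support W ⊆ closedBall 0 2 ∧ (∀ z, ‖z‖ ≤ 2 → Ind (fderiv ℝ (F + U) z) (N z + W z)) ∧
      ∀ z, ‖z‖ ≤ 2 → (‖z‖ ≤ 1 ∨ z ∈ A) →
        Cn (fderiv ℝ (F + U) z) (N z + W z) (D2 (F + U) z ey) := by
  obtain ⟨W1, a1, a2, a3, a4, a5⟩ := hstepA hF hN hA hI hC
  obtain ⟨U, W2, b1, b2, b3, b4, b5, b6⟩ := hstepB (N := fun z => N z + W1 z) hF (hN.add a1) a3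
  refine ⟨U, fun z => W1 z + W2 z, b1, a1.add b2,
    b3.trans (closedBall_subset_closedBall (by norm_num)), fun z hz => ?_, fun z hz => ?_,
    fun z hz hz' => ?_⟩
  · by_contra hne
    have e1 : W1 z = 0 := by
      by_contra h1; exact hne (closedBall_subset_closedBall (by norm_num) (a2 h1))
    have e2 : W2 z = 0 := by
      by_contra h1; exact hne (closedBall_subset_closedBall (by norm_num) (b4 h1))
    exact hz (by simp [e1, e2])
  · rw [← add_assoc]; exact b5 z hz
  · rw [← add_assoc]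
    by_cases h1 : ‖z‖ ≤ 3 / 2
    · exact b6 z hz (hz'.imp id fun h2 => a5 z h2 h1)
    · have hzA : z ∈ A := hz'.resolve_left fun h2 => h1 (by linarith)
      have e0 : ∀ᶠ y in 𝓝 z, y ∈ (closedBall (0 : E2) (3 / 2))ᶜ :=
        isClosed_closedBall.isOpen_compl.mem_nhds fun h => h1 (mem_closedBall_zero_iff.1 h)
      have e1 : F + U =ᶠ[𝓝 z] F := by
        filter_upwards [e0] with y hy
        have : U y = 0 := by by_contra h2; exact hy (b3 h2)
        simp [this]
      have e2 : W2 z = 0 := by by_contra h2; exact e0.self_of_nhds (b4 h2)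
      rw [e1.fderiv_eq, D2_congr e1, e2, add_zero]
      exact a4 z hzA hz

end Vale.Agent.P205.G
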