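import Vale.Agent.P205.G.Lin

/-!
G/HStepA: replace the transversal field by the second derivative near the good set. Helper lemma names end in _HStepA.
O = {z | ‖z‖ < 7 / 4 ∧ ∀ t ∈ Icc 0 1, Ind (fderiv F z) ((1 - t) • N z + t • D2 F z ey)} is a neighbourhood of every point of the compact
A ∩ closedBall 0 (3 / 2) (IsCompact.eventually_forall_of_forall_eventually, isOpen_ind, continuity). η smooth, values in [0, 1], equal to 1 on
A ∩ closedBall 0 (3 / 2), zero off O (exists_contMDiffMap_one_nhds_of_subset_interior). W = η • (D2 F · ey - N). Cn.mix.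
-/

open scoped Manifold ContDiff Topology RealInnerProductSpace
open Set Filter Metric Function

noncomputable section

namespace Vale.Agent.P205.G

theorem contDiff_D2 {F : E2 → E4} (hF : ContDiff ℝ ∞ F) (v : E2) :
    ContDiff ℝ ∞ fun z => D2 F z v := by
  exact (((hF.fderiv_right (m := ∞) le_rfl).fderiv_right (m := ∞) le_rfl).clm_apply
    contDiff_const).clm_apply contDiff_const

theorem hstepA {F N : E2 → E4} (hF : ContDiff ℝ ∞ F) (hN : ContDiff ℝ ∞ N) {A : Set E2}
    (hA : IsClosed A) (hI : ∀ z, ‖z‖ ≤ 2 → Ind (fderiv ℝ F z) (N z))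
    (hC : ∀ z ∈ A, ‖z‖ ≤ 2 → Cn (fderiv ℝ F z) (N z) (D2 F z ey)) :
    ∃ W : E2 → E4, ContDiff ℝ ∞ W ∧ support W ⊆ closedBall 0 (7 / 4) ∧
      (∀ z, ‖z‖ ≤ 2 → Ind (fderiv ℝ F z) (N z + W z)) ∧
      (∀ z ∈ A, ‖z‖ ≤ 2 → Cn (fderiv ℝ F z) (N z + W z) (D2 F z ey)) ∧
      ∀ z ∈ A, ‖z‖ ≤ 3 / 2 → N z + W z = D2 F z ey := by
  have hD := contDiff_D2 hF ey
  have hF' : Continuous (fderiv ℝ F) := hF.continuous_fderiv (by simp)
  have hs : A ∩ closedBall 0 (3 / 2) ⊆ interior {z : E2 | ‖z‖ < 7 / 4 ∧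
      ∀ t ∈ Icc (0 : ℝ) 1, Ind (fderiv ℝ F z) ((1 - t) • N z + t • D2 F z ey)} := by
    rintro z ⟨hzA, hz⟩
    rw [mem_closedBall_zero_iff] at hz
    rw [mem_interior_iff_mem_nhds]
    refine (continuous_norm.continuousAt.eventually_lt continuousAt_const (by linarith)).and ?_
    refine isCompact_Icc.eventually_forall_of_forall_eventually fun t ht => ?_
    have hc : Continuous fun w : E2 × ℝ =>
        (fderiv ℝ F w.1, (1 - w.2) • N w.1 + w.2 • D2 F w.1 ey) :=
      (hF'.comp continuous_fst).prodMk (((continuous_const.sub continuous_snd).smul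
        (hN.continuous.comp continuous_fst)).add
        (continuous_snd.smul (hD.continuous.comp continuous_fst)))
    exact (hc.continuousAt (x := (z, t))).eventually_mem (isOpen_ind.mem_nhds
      ((hC z hzA (by linarith)).mix ht.1 ht.2).left)
  obtain ⟨η, h1, h0, h01⟩ := exists_contMDiffMap_one_nhds_of_subset_interior (n := ⊤) I2
    (hA.inter isClosed_closedBall) hs
  have hη : ContDiff ℝ ∞ η := η.contMDiff.contDiff
  have e : ∀ z, N z + η z • (D2 F z ey - N z) = (1 - η z) • N z + η z • D2 F z ey := fun z => by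
    module
  refine ⟨fun z => η z • (D2 F z ey - N z), hη.smul (hD.sub hN), fun z hz => ?_, fun z hz => ?_,
    fun z hzA hz => ?_, fun z hzA hz => ?_⟩
  · by_contra hz'
    rw [mem_closedBall_zero_iff, not_le] at hz'
    refine hz ?_
    simp only [h0 z fun h => lt_asymm hz' h.1, zero_smul]
  · by_cases hz0 : η z = 0
    · simp only [hz0, zero_smul, add_zero]
      exact hI z hz
    · rw [e]
      by_contra hn
      exact hz0 (h0 z fun h => hn (h.2 _ (h01 z)))
  · rw [e]
    exact (hC z hzA hz).mix (h01 z).1 (h01 z).2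
  · simp only [h1.self_of_nhdsSet z ⟨hzA, mem_closedBall_zero_iff.2 hz⟩, one_smul, add_sub_cancel]

end Vale.Agent.P205.G
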