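import Vale.Agent.P205.G.HLoop

/-!
G/HStepB: the horseshoe oscillation. Helper lemma names end in _HStepB.
m z = cross (fderiv F z ex) (fderiv F z ey) (N z) (smooth). χ bump (rIn 5 / 4, rOut 3 / 2), η2 = 1 - bump (rIn 1, rOut 5 / 4).
E1 t = -2 cos (2 t), E2 t = cos t. V R z t = D2 F z ey + η2 z • (N z - D2 F z ey) + (χ z * R) • (E1 t • N z + E2 t • m z).
hloop: there is R ≥ 0 with Ind (fderiv F z) (V R z t) for ‖z‖ ≤ 2 and all t. For ‖z‖ ≥ 5 / 4: η2 = 1, ind_pair with horseshoe (β = 1).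
For ‖z‖ ≤ 5 / 4: χ = 1; (E1, E2) ≠ 0 (cos t = 0 gives cos (2 t) = -1), ind_pair, uniform κ on closedBall ×ˢ Icc 0 (2π)
(exists_indQ_compact, reduce t by toIcoMod or use the compact set of pairs (cos t, sin t)), V = R • (.. + R⁻¹ • bounded), IndQ.perturb, ind_smul.
hstepB: uniform κ for V R z t; U x = (lam⁻¹ ^ 2 * cos (2 lam x1) / 2) • (χ R N) + (lam⁻¹ ^ 2 * (-cos (lam x1))) • (χ R m) (osc twice, D2_add),
W z = V R z (lam * z 1) - N z; lam large, IndQ.perturb and cn_of_indQ with b = V R z (lam * z 1): if ‖z‖ ≤ 1 or N z = D2 F z ey then the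
η2 term vanishes and D2 (F + U) z ey is C / lam close to b.
-/

open scoped Manifold ContDiff Topology RealInnerProductSpace
open Set Filter Metric Function

noncomputable section

namespace Vale.Agent.P205.G

theorem d1_HStepB : deriv (fun t : ℝ => Real.cos (2 * t) / 2) = fun t => -Real.sin (2 * t) := by
  funext t
  have h := (((hasDerivAt_id' t).const_mul 2).cos.div_const 2).deriv
  rw [h]; ring

theorem d2_HStepB (t : ℝ) : deriv (deriv fun t : ℝ => Real.cos (2 * t) / 2) t =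
    -2 * (2 * Real.cos t ^ 2 - 1) := by
  rw [d1_HStepB]
  have h := (((hasDerivAt_id' t).const_mul 2).sin.fun_neg).deriv
  rw [h, Real.cos_two_mul]; ring

theorem d3_HStepB : deriv (fun t : ℝ => -Real.cos t) = Real.sin := by
  funext t
  rw [(Real.hasDerivAt_cos t).fun_neg.deriv, neg_neg]

theorem sm_HStepB {P : E2 → E4} (hP : ContDiff ℝ ∞ P) {c : ℝ → ℝ} (hc : ContDiff ℝ ∞ c)
    (lam : ℝ) : ContDiff ℝ ∞ fun x : E2 => (lam⁻¹ ^ 2 * c (lam * x 1)) • P x :=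
  (contDiff_const.mul (hc.comp (contDiff_const.mul (by fun_prop)))).smul hP

theorem core_HStepB {F N m : E2 → E4} (hF : ContDiff ℝ ∞ F) (hN : ContDiff ℝ ∞ N)
    (hm : ContDiff ℝ ∞ m) {χ η : E2 → ℝ} (hχ : ContDiff ℝ ∞ χ) (hη : ContDiff ℝ ∞ η)
    (hχ0 : ∀ z, 3 / 2 < ‖z‖ → χ z = 0) (hη1 : ∀ z, 3 / 2 < ‖z‖ → η z = 1)
    (hη0 : ∀ z, ‖z‖ ≤ 1 → η z = 0)
    (hV : ∀ z, ‖z‖ ≤ 2 → ∀ t : ℝ, Ind (fderiv ℝ F z) (D2 F z ey + η z • (N z - D2 F z ey) +
      χ z • ((-2 * Real.cos (2 * t)) • N z + Real.cos t • m z))) :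
    ∃ U W : E2 → E4, ContDiff ℝ ∞ U ∧ ContDiff ℝ ∞ W ∧ support U ⊆ closedBall 0 (3 / 2) ∧
      support W ⊆ closedBall 0 (3 / 2) ∧
      (∀ z, ‖z‖ ≤ 2 → Ind (fderiv ℝ (F + U) z) (N z + W z)) ∧
      ∀ z, ‖z‖ ≤ 2 → (‖z‖ ≤ 1 ∨ N z = D2 F z ey) →
        Cn (fderiv ℝ (F + U) z) (N z + W z) (D2 (F + U) z ey) := by
  have hF1 : ContDiff ℝ ∞ (fderiv ℝ F) := (contDiff_infty_iff_fderiv.1 hF).2
  have hD : ContDiff ℝ ∞ fun z => D2 F z ey :=
    ((contDiff_infty_iff_fderiv.1 hF1).2.clm_apply contDiff_const).clm_apply contDiff_const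
  obtain ⟨V, hVe⟩ : ∃ V : E2 × ℝ → E4, V = fun x => D2 F x.1 ey + η x.1 • (N x.1 - D2 F x.1 ey) +
      χ x.1 • ((-2 * (2 * x.2 ^ 2 - 1)) • N x.1 + x.2 • m x.1) := ⟨_, rfl⟩
  have hVs : ContDiff ℝ ∞ V := by
    rw [hVe]
    exact ((hD.comp contDiff_fst).add ((hη.comp contDiff_fst).smul
      ((hN.comp contDiff_fst).sub (hD.comp contDiff_fst)))).add ((hχ.comp contDiff_fst).smul
      (((contDiff_const.mul ((contDiff_const.mul (contDiff_snd.pow 2)).sub contDiff_const)).smul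
        (hN.comp contDiff_fst)).add (contDiff_snd.smul (hm.comp contDiff_fst))))
  obtain ⟨κ, hκ, hQ⟩ := exists_indQ_compact
    ((isCompact_closedBall (0 : E2) 2).prod (isCompact_Icc (a := (-1 : ℝ)) (b := 1)))
    (A := fun x : E2 × ℝ => fderiv ℝ F x.1) (c := V)
    (hF1.continuous.comp continuous_fst).continuousOn hVs.continuous.continuousOn (by
      intro x hx
      have h := hV x.1 (mem_closedBall_zero_iff.1 hx.1) (Real.arccos x.2)
      rw [Real.cos_two_mul, Real.cos_arccos hx.2.1 hx.2.2] at h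
      rw [hVe]
      exact h)
  have hc1 : ContDiff ℝ ∞ fun t : ℝ => Real.cos (2 * t) / 2 := by fun_prop
  have hc2 : ContDiff ℝ ∞ fun t : ℝ => -Real.cos t := by fun_prop
  have hP1 : ContDiff ℝ ∞ fun z => χ z • N z := hχ.smul hN
  have hP2 : ContDiff ℝ ∞ fun z => χ z • m z := hχ.smul hm
  obtain ⟨C₁, h₁⟩ := osc hP1 hc1 (B := 1) (fun t => by
      rw [abs_div, abs_two]
      linarith [Real.abs_cos_le_one (2 * t)])
    (fun t => by rw [d1_HStepB, abs_neg]; exact Real.abs_sin_le_one _)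
    (isCompact_closedBall (0 : E2) 2)
  obtain ⟨C₂, h₂⟩ := osc hP2 hc2 (B := 1)
    (fun t => by rw [abs_neg]; exact Real.abs_cos_le_one _)
    (fun t => by rw [d3_HStepB]; exact Real.abs_sin_le_one _) (isCompact_closedBall (0 : E2) 2)
  obtain ⟨lam, hl1, hl2⟩ : ∃ lam : ℝ, 1 ≤ lam ∧ C₁ / lam + C₂ / lam ≤ κ / 2 := by
    refine ⟨max 1 ((C₁ + C₂) / (κ / 2)), le_max_left _ _, ?_⟩
    have h := le_max_right 1 ((C₁ + C₂) / (κ / 2))
    rw [div_le_iff₀ (half_pos hκ)] at h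
    rw [← add_div, div_le_iff₀ (lt_max_of_lt_left one_pos)]
    linarith
  have s1 := sm_HStepB hP1 hc1 lam
  have s2 := sm_HStepB hP2 hc2 lam
  have h1 := h₁ lam hl1
  have h2 := h₂ lam hl1
  simp only [d2_HStepB, d3_HStepB, Real.deriv_sin] at h1 h2
  generalize hu1 : (fun x : E2 => (lam⁻¹ ^ 2 * (Real.cos (2 * (lam * x 1)) / 2)) • χ x • N x) = u₁
    at s1 h1
  generalize hu2 : (fun x : E2 => (lam⁻¹ ^ 2 * -Real.cos (lam * x 1)) • χ x • m x) = u₂ at s2 h2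
  have hA : ∀ z, ‖z‖ ≤ 2 → ‖fderiv ℝ (F + (u₁ + u₂)) z - fderiv ℝ F z‖ ≤ κ / 2 := by
    intro z hz
    have d1 : DifferentiableAt ℝ u₁ z := (s1.differentiable (by simp)) z
    have d2 : DifferentiableAt ℝ u₂ z := (s2.differentiable (by simp)) z
    rw [fderiv_add ((hF.differentiable (by simp)) z) (d1.add d2), fderiv_add d1 d2,
      add_sub_cancel_left]
    exact (norm_add_le_of_le (h1 z (mem_closedBall_zero_iff.2 hz)).1
      (h2 z (mem_closedBall_zero_iff.2 hz)).1).trans hl2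
  have hQ' : ∀ z : E2, ‖z‖ ≤ 2 → IndQ κ (fderiv ℝ F z) (V (z, Real.cos (lam * z 1))) :=
    fun z hz => hQ (z, Real.cos (lam * z 1))
      ⟨mem_closedBall_zero_iff.2 hz, Real.neg_one_le_cos _, Real.cos_le_one _⟩
  have hk : 0 ≤ κ / 2 := (half_pos hκ).le
  refine ⟨u₁ + u₂, fun z => V (z, Real.cos (lam * z 1)) - N z, s1.add s2,
    (hVs.comp (contDiff_id.prodMk (by fun_prop))).sub hN, fun z hz => ?_, fun z hz => ?_,
    fun z hz => ?_, fun z hz hz' => ?_⟩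
  · by_contra h
    rw [mem_closedBall_zero_iff, not_le] at h
    apply hz
    simp only [← hu1, ← hu2, Pi.add_apply, hχ0 z h, zero_smul, smul_zero, add_zero]
  · by_contra h
    rw [mem_closedBall_zero_iff, not_le] at h
    apply hz
    simp only [hVe, hχ0 z h, hη1 z h, zero_smul, one_smul, add_zero, add_sub_cancel, sub_self]
  · rw [add_sub_cancel]
    exact ((hQ' z hz).perturb (hA z hz) (by rwa [sub_self, norm_zero])).ind (by linarith)
  · rw [add_sub_cancel]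
    refine cn_of_indQ (half_lt_self hκ) (hQ' z hz) (hA z hz) (by rwa [sub_self, norm_zero]) ?_
    have e : η z • (N z - D2 F z ey) = 0 := by
      rcases hz' with h | h
      · rw [hη0 z h, zero_smul]
      · rw [h, sub_self, smul_zero]
    have s12 : ContDiff ℝ ∞ (u₁ + u₂) := s1.add s2
    rw [D2_add hF.contDiffAt s12.contDiffAt, D2_add s1.contDiffAt s2.contDiffAt]
    refine le_trans (le_of_eq (congrArg _ ?_)) ((norm_add_le_of_le
      (h1 z (mem_closedBall_zero_iff.2 hz)).2 (h2 z (mem_closedBall_zero_iff.2 hz)).2).trans hl2)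
    simp only [hVe, e]
    module

theorem hstepB {F N : E2 → E4} (hF : ContDiff ℝ ∞ F) (hN : ContDiff ℝ ∞ N)
    (hI : ∀ z, ‖z‖ ≤ 2 → Ind (fderiv ℝ F z) (N z)) :
    ∃ U W : E2 → E4, ContDiff ℝ ∞ U ∧ ContDiff ℝ ∞ W ∧ support U ⊆ closedBall 0 (3 / 2) ∧
      support W ⊆ closedBall 0 (3 / 2) ∧
      (∀ z, ‖z‖ ≤ 2 → Ind (fderiv ℝ (F + U) z) (N z + W z)) ∧
      ∀ z, ‖z‖ ≤ 2 → (‖z‖ ≤ 1 ∨ N z = D2 F z ey) →
        Cn (fderiv ℝ (F + U) z) (N z + W z) (D2 (F + U) z ey) := by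
  let χ : ContDiffBump (0 : E2) := ⟨5 / 4, 3 / 2, by norm_num, by norm_num⟩
  let ψ : ContDiffBump (0 : E2) := ⟨1, 5 / 4, by norm_num, by norm_num⟩
  have hF1 : ContDiff ℝ ∞ (fderiv ℝ F) := (contDiff_infty_iff_fderiv.1 hF).2
  have hψ : ∀ z : E2, 5 / 4 ≤ ‖z‖ → 1 - ψ z = 1 := fun z hz => by
    rw [ψ.zero_of_le_dist (by rwa [dist_zero_right]), sub_zero]
  have hη : ContDiff ℝ ∞ fun z => 1 - ψ z := contDiff_const.sub ψ.contDiff
  obtain ⟨R, hR⟩ := hloop hF hN hI (χ := χ) hη.continuous (fun _ => χ.nonneg)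
    (fun z hz => χ.one_of_mem_closedBall (mem_closedBall_zero_iff.2 hz)) hψ
  refine core_HStepB hF hN
    (m := fun z => cross (fderiv ℝ F z ex) (fderiv ℝ F z ey) (N z))
    (contDiff_cross.comp ((hF1.clm_apply contDiff_const).prodMk
      ((hF1.clm_apply contDiff_const).prodMk hN)))
    (χ := fun z => χ z * R) (χ.contDiff.mul contDiff_const) hη (fun z hz => ?_)
    (fun z hz => hψ z (by linarith)) (fun z hz => ?_) hR
  · rw [χ.zero_of_le_dist (by rw [dist_zero_right]; exact hz.le), zero_mul]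
  · rw [ψ.one_of_mem_closedBall (mem_closedBall_zero_iff.2 hz), sub_self]

end Vale.Agent.P205.G
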