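import Vale.Agent.P205.G.HprinA

/-!
G/Hprin: the second order h-principle on M. Helper lemma names end in _Hprin.
hprin_ind: Finset.induction_on with hglob_step (A ∪ discs is closed: isCompact_disc).
hprin: K = complement of the open set ⋃ i, (φ i).source ∩ φ i ⁻¹' ball 0 R (compact), U = (discs φ (R / 2))ᶜ, exists_hcover with ρ = 3;
discs φ R and the unit discs cover M (mem_disc); Cone.mono, Cone.good2.
start: patch_glob gives R, F1; Cone F1 ν h (discs φ (R / 2)) by cone_of_local; hprin with Pat.mono; F2 = F1 on discs φ (R / 4), so the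
chart representatives agree near every z with ‖z‖ ≤ R / 8 (eventuallyEq_of_ball); good2_of_local, Cn.right, trep_pull.
-/

open scoped Manifold ContDiff Topology RealInnerProductSpace
open Set Filter Metric Function

noncomputable section

namespace Vale.Agent.P205.G

variable {M : Type*} [TopologicalSpace M] [ChartedSpace E2 M] [IsManifold I2 ∞ M]
  [T2Space M] [CompactSpace M]

theorem start {g : M → Bil} {ι : Type*} [Fintype ι] {φ : ι → Chart M} {r : ℝ} (hP : Pat g φ r)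
    {f ν : M → E4} {h : M → ℝ} (hf : Sm f) (hν : Sm ν) (hh : Sm h)
    (hI : ∀ p, Ind (dM f p) (ν p)) (hcr : ∀ p, dM h p = 0 → ∃ i, (φ i).symm 0 = p) :
    ∃ (R : ℝ) (F : M → E4), 0 < R ∧ R ≤ r ∧ Sm F ∧ Good2 F h univ ∧
      Good2 F (fun _ => 0) (discs φ R) ∧
      ∀ i z, ‖z‖ ≤ R → ∀ v, trep (φ i) (pull F) z v v = ‖v‖ ^ 2 := by
  obtain ⟨R, F1, R0, Rr, s1, i1, l1⟩ := patch_glob hP hf hν hI
  have hP2 : Pat g φ (R / 2) := hP.mono (by linarith) (by linarith)
  have hC : Cone F1 ν h (discs φ (R / 2)) := by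
    refine cone_of_local s1 hh fun p hp => ?_
    obtain ⟨i, hi⟩ := mem_iUnion.1 hp
    obtain ⟨p1, p2⟩ := (mem_disc (hP2.sub i)).1 hi
    refine ⟨φ i, hP.ch i, p1, fun v hv _ => ?_⟩
    have := (l1 i (φ i p) (by linarith)).2 v hv
    rwa [(φ i).left_inv p1] at this
  obtain ⟨F2, s2, g2, e2⟩ := hprin hP2 s1 hν hh i1 hcr hC
  have hev : ∀ i z, ‖z‖ ≤ R / 8 → F2 ∘ (φ i).symm =ᶠ[𝓝 z] F1 ∘ (φ i).symm := fun i z hz =>
    eventuallyEq_of_ball (r := R / 2 / 2)
      (fun w hw => e2 _ (mem_iUnion.2 ⟨i, mem_image_of_mem _ hw⟩)) (by linarith)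
  have hP8 : Pat g φ (R / 8) := hP.mono (by linarith) (by linarith)
  refine ⟨R / 8, F2, by linarith, by linarith, s2, g2, ?_, fun i z hz v => ?_⟩
  · refine good2_of_local s2 contMDiff_const fun p hp => ?_
    obtain ⟨i, hi⟩ := mem_iUnion.1 hp
    obtain ⟨p1, p2⟩ := (mem_disc (hP8.sub i)).1 hi
    refine ⟨φ i, hP.ch i, p1, fun v hv _ => ?_⟩
    have e := hev i _ p2
    rw [D2, e.fderiv_eq, e.fderiv.fderiv_eq]
    exact ((l1 i (φ i p) (by linarith)).2 v hv).right
  · rw [trep_pull s2 (hP.ch i) (hP8.sub i (mem_closedBall_zero_iff.2 hz)), (hev i z hz).fderiv_eq,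
      real_inner_self_eq_norm_sq, (l1 i z (by linarith)).1 v]

end Vale.Agent.P205.G
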