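import Vale.Agent.P205.G.PatchB0

/-!
G/PatchB: the Clifford patch in the plane and on M. Helper lemma names end in _PatchB.
patchB: F1 = F + U1 from patchA, G from exists_clif, E z = G z - G 0 + F1 0 - F1 z has E 0 = 0 and fderiv E 0 = 0 (eq_ex_ey).
IndQ κ (fderiv F1 0) (N 0); on a small closed ball (radius r1 < r) fderiv F1 and N are κ / 4 close to their values at 0; small_cut with ε = κ / 4 and r1;
U = U1 + β • E. For ‖z‖ < r1 use IndQ.perturb, for other z the support of β lies in ball 0 r1: take small_cut at radius r1 / 2 so that β • E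
vanishes near z. On ball 0 R (R ≤ ρ, and ⟪N z, G z⟫ < 0 there by continuity) F + U = G + const near z; cn_of_normal with n = G z.
patch_glob: exists_ext for f ∘ symm and ν ∘ symm on closedBall 0 r, patchB at radius r / 2, F = f + ∑ push; add_sum_push_symm,
add_sum_push_off, ind_dM_iff, dM_congr, D2_congr; R = a common lower bound (Finite.exists_le or eventually in 𝓝[>] 0).
-/

open scoped Manifold ContDiff Topology RealInnerProductSpace
open Set Filter Metric Function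

noncomputable section

namespace Vale.Agent.P205.G

variable {M : Type*} [TopologicalSpace M] [ChartedSpace E2 M] [IsManifold I2 ∞ M]
  [T2Space M] [CompactSpace M]

theorem lower_PatchB {ι : Type*} [Finite ι] {R : ι → ℝ} (hR : ∀ i, 0 < R i) {b : ℝ}
    (hb : 0 < b) : ∃ a : ℝ, 0 < a ∧ a ≤ b ∧ ∀ i, a ≤ R i := by
  have h1 : ∀ᶠ a in 𝓝[>] (0 : ℝ), ∀ i, a ≤ R i :=
    eventually_all.2 fun i => mem_nhdsWithin_of_mem_nhds (Iic_mem_nhds (hR i))
  have h2 : ∀ᶠ a in 𝓝[>] (0 : ℝ), a ≤ b := mem_nhdsWithin_of_mem_nhds (Iic_mem_nhds hb)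
  have h3 : ∀ᶠ a in 𝓝[>] (0 : ℝ), 0 < a := self_mem_nhdsWithin
  exact (h3.and (h2.and h1)).exists

omit [T2Space M] [CompactSpace M] in
theorem one_PatchB {φ : Chart M} (hφ : IsCh φ) {r : ℝ} (hr : 0 < r)
    (hsub : closedBall (0 : E2) r ⊆ φ.target) {f ν : M → E4} (hf : Sm f) (hν : Sm ν)
    (hI : ∀ p, Ind (dM f p) (ν p)) :
    ∃ (U : E2 → E4) (R : ℝ), ContDiff ℝ ∞ U ∧ support U ⊆ closedBall 0 (r / 2) ∧ 0 < R ∧
      (∀ z, ‖z‖ < r → Ind (fderiv ℝ (f ∘ φ.symm + U) z) (ν (φ.symm z))) ∧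
      ∀ z, ‖z‖ < r → ‖z‖ < R → (∀ v, ‖fderiv ℝ (f ∘ φ.symm + U) z v‖ = ‖v‖) ∧ ∀ v, v ≠ 0 →
        Cn (fderiv ℝ (f ∘ φ.symm + U) z) (ν (φ.symm z)) (D2 (f ∘ φ.symm + U) z v) := by
  obtain ⟨F0, hF0, eF⟩ := exists_ext φ.open_target (hf.contDiffOn hφ)
    (isCompact_closedBall (0 : E2) r) hsub
  obtain ⟨N0, hN0, eN⟩ := exists_ext φ.open_target (hν.contDiffOn hφ)
    (isCompact_closedBall (0 : E2) r) hsub
  have hm : ∀ z : E2, ‖z‖ < r → z ∈ closedBall (0 : E2) r := fun z hz =>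
    mem_closedBall_zero_iff.2 hz.le
  have hI0 : ∀ z : E2, ‖z‖ < r → Ind (fderiv ℝ F0 z) (N0 z) := fun z hz => by
    rw [(eventuallyEq_of_ball eF hz).fderiv_eq, eN z (hm z hz)]
    exact (ind_dM_iff hf hφ (hsub (hm z hz)) _).2 (hI _)
  obtain ⟨U, R, hU, hs, h1, hR, h2⟩ := patchB hF0 hN0.continuous (hI0 0 (by simpa using hr))
    (half_pos hr)
  have he : ∀ z : E2, ‖z‖ < r → F0 + U =ᶠ[𝓝 z] f ∘ φ.symm + U := fun z hz =>
    (eventuallyEq_of_ball eF hz).add (EventuallyEq.refl _ _)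
  refine ⟨U, R, hU, hs.trans ball_subset_closedBall, hR, fun z hz => ?_, fun z hz hz' => ?_⟩
  · have h3 := h1 z (hI0 z hz)
    rw [(he z hz).fderiv_eq, eN z (hm z hz)] at h3
    exact h3
  · obtain ⟨h3, h4⟩ := h2 z hz'
    rw [(he z hz).fderiv_eq] at h3 h4
    refine ⟨h3, fun v hv => ?_⟩
    have h5 := h4 v hv
    rw [D2_congr (he z hz), eN z (hm z hz)] at h5
    exact h5

theorem patch_glob {g : M → Bil} {ι : Type*} [Fintype ι] {φ : ι → Chart M} {r : ℝ}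
    (hP : Pat g φ r) {f ν : M → E4} (hf : Sm f) (hν : Sm ν) (hI : ∀ p, Ind (dM f p) (ν p)) :
    ∃ (R : ℝ) (F : M → E4), 0 < R ∧ R ≤ r ∧ Sm F ∧ (∀ p, Ind (dM F p) (ν p)) ∧
      ∀ i z, ‖z‖ < R → (∀ v, ‖fderiv ℝ (F ∘ (φ i).symm) z v‖ = ‖v‖) ∧ ∀ v, v ≠ 0 →
        Cn (fderiv ℝ (F ∘ (φ i).symm) z) (ν ((φ i).symm z)) (D2 (F ∘ (φ i).symm) z v) := by
  choose U R hU hs hR h1 h2 using fun i => one_PatchB (hP.ch i) hP.pos (hP.sub i) hf hν hI
  have hr := hP.pos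
  have hP' : Pat g φ (r / 2) := hP.mono (half_pos hr) (half_le_self hr.le)
  obtain ⟨a, ha, har, haR⟩ := lower_PatchB hR hr
  have hF : Sm (f + fun p => ∑ j, push (φ j) (U j) p) :=
    sm_add hf (sm_sum_push hP' (fun i => (hU i).contDiffOn) hs)
  have ht : ∀ i (z : E2), ‖z‖ < r → z ∈ (φ i).target := fun i z hz =>
    hP.sub i (mem_closedBall_zero_iff.2 hz.le)
  refine ⟨a, f + fun p => ∑ j, push (φ j) (U j) p, ha, har, hF, fun p => ?_, fun i z hz => ?_⟩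
  · by_cases hp : p ∈ discs φ (r / 2)
    · obtain ⟨i, z, hz, rfl⟩ := mem_iUnion.1 hp
      have hz' : ‖z‖ < r := (mem_closedBall_zero_iff.1 hz).trans_lt (half_lt_self hr)
      refine (ind_dM_iff hF (hP.ch i) (ht i z hz') _).1 ?_
      rw [(add_sum_push_symm hP f U i (ht i z hz')).fderiv_eq]
      exact h1 i z hz'
    · rw [dM_congr (add_sum_push_off hP' f hs hp)]
      exact hI p
  · have hz' : ‖z‖ < r := hz.trans_le har
    have he := add_sum_push_symm hP f U i (ht i z hz')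
    obtain ⟨h3, h4⟩ := h2 i z hz' (hz.trans_le (haR i))
    rw [he.fderiv_eq]
    refine ⟨h3, fun v hv => ?_⟩
    rw [D2_congr he]
    exact h4 v hv

end Vale.Agent.P205.G
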