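import Vale.Agent.P205.G.HStep
import Vale.Agent.P205.G.PatchB

/-!
G/HprinA (first part of G/Hprin): the second order h-principle on M. Helper lemma names end in _HprinA.
hprin_ind: Finset.induction_on with hglob_step (A ∪ discs is closed: isCompact_disc).
hprin: K = complement of the open set ⋃ i, (φ i).source ∩ φ i ⁻¹' ball 0 R (compact), U = (discs φ (R / 2))ᶜ, exists_hcover with ρ = 3;
discs φ R and the unit discs cover M (mem_disc); Cone.mono, Cone.good2.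
start: patch_glob gives R, F1; Cone F1 ν h (discs φ (R / 2)) by cone_of_local; hprin with Pat.mono; F2 = F1 on discs φ (R / 4), so the
chart representatives agree near every z with ‖z‖ ≤ R / 8 (eventuallyEq_of_ball); good2_of_local, Cn.right, trep_pull.
-/

open scoped Manifold ContDiff Topology RealInnerProductSpace
open Set Filter Metric Function

noncomputable section

namespace Vale.Agent.P205.G

variable {M : Type*} [TopologicalSpace M] [ChartedSpace E2 M] [IsManifold I2 ∞ M]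
  [T2Space M] [CompactSpace M]

theorem hprin_ind {F ν : M → E4} {h : M → ℝ} {A U : Set M} (hF : Sm F) (hν : Sm ν) (hh : Sm h)
    (hA : IsClosed A) (hI : ∀ p, Ind (dM F p) (ν p)) (hC : Cone F ν h A)
    (s : Finset (ℝ × Chart M)) (hs : ∀ c ∈ s, HCh h c.1 3 c.2 ∧ c.2.source ⊆ U) :
    ∃ F' ν' : M → E4, Sm F' ∧ Sm ν' ∧ (∀ p, Ind (dM F' p) (ν' p)) ∧
      Cone F' ν' h (A ∪ ⋃ c ∈ s, disc c.2 1) ∧ ∀ p, p ∉ U → F' p = F p := by
  classical
  induction s using Finset.induction_on with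
  | empty => exact ⟨F, ν, hF, hν, hI, hC.mono (by simp), fun _ _ => rfl⟩
  | insert c s hc ih =>
    obtain ⟨F1, ν1, hF1, hν1, hI1, hC1, he1⟩ := ih fun c hc => hs c (Finset.mem_insert_of_mem hc)
    have hcl : IsClosed (A ∪ ⋃ c ∈ s, disc c.2 1) := by
      refine hA.union (isClosed_biUnion_finset fun c hc => ?_)
      exact (isCompact_disc ((hs c (Finset.mem_insert_of_mem hc)).1.mono
        (by norm_num : (1 : ℝ) ≤ 3)).sub).isClosed
    obtain ⟨hc1, hc2⟩ := hs c (Finset.mem_insert_self _ _)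
    obtain ⟨F2, ν2, hF2, hν2, hI2, hC2, he2⟩ := hglob_step hF1 hν1 hh hcl hI1 hC1 hc1
    refine ⟨F2, ν2, hF2, hν2, hI2, hC2.mono ?_, fun p hp => ?_⟩
    · rw [Finset.set_biUnion_insert, union_comm (disc c.2 1), union_assoc]
    · rw [he2 p fun h => hp (hc2 h), he1 p hp]

theorem hprin {g : M → Bil} {ι : Type*} [Fintype ι] {φ : ι → Chart M} {R : ℝ} (hP : Pat g φ R)
    {F ν : M → E4} {h : M → ℝ} (hF : Sm F) (hν : Sm ν) (hh : Sm h)
    (hI : ∀ p, Ind (dM F p) (ν p)) (hcr : ∀ p, dM h p = 0 → ∃ i, (φ i).symm 0 = p)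
    (hC : Cone F ν h (discs φ R)) :
    ∃ F' : M → E4, Sm F' ∧ Good2 F' h univ ∧ ∀ p ∈ discs φ (R / 2), F' p = F p := by
  have hR := hP.pos
  have hP2 : Pat g φ (R / 2) := hP.mono (by positivity) (by linarith)
  have hO : IsOpen (⋃ i, (φ i).source ∩ φ i ⁻¹' ball 0 R) :=
    isOpen_iUnion fun i => (φ i).isOpen_inter_preimage isOpen_ball
  have hK : IsCompact (⋃ i, (φ i).source ∩ φ i ⁻¹' ball 0 R)ᶜ := hO.isClosed_compl.isCompact
  have hU : IsOpen (discs φ (R / 2))ᶜ := (isClosed_discs hP2.sub).isOpen_compl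
  have hKU : (⋃ i, (φ i).source ∩ φ i ⁻¹' ball 0 R)ᶜ ⊆ (discs φ (R / 2))ᶜ := by
    refine compl_subset_compl.2 (iUnion_mono fun i p hp => ?_)
    obtain ⟨h1, h2⟩ := (mem_disc (hP2.sub i)).1 hp
    exact ⟨h1, mem_ball_zero_iff.2 (by linarith)⟩
  have hcr' : ∀ q ∈ (⋃ i, (φ i).source ∩ φ i ⁻¹' ball 0 R)ᶜ, dM h q ≠ 0 := by
    intro q hq h0
    obtain ⟨i, rfl⟩ := hcr q h0
    have h1 : (0 : E2) ∈ (φ i).target := hP.sub i (mem_closedBall_self hR.le)
    refine hq (mem_iUnion.2 ⟨i, (φ i).map_target h1, ?_⟩)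
    rw [mem_preimage, (φ i).right_inv h1]
    exact mem_ball_self hR
  obtain ⟨s, hs, hcov⟩ := exists_hcover hh hK hcr' hU hKU 3
  obtain ⟨F', ν', hF', -, -, hC', he⟩ := hprin_ind hF hν hh (isClosed_discs hP.sub) hI hC s hs
  refine ⟨F', hF', (hC'.mono fun p _ => ?_).good2, fun p hp => he p fun h => h hp⟩
  by_cases hp : p ∈ ⋃ i, (φ i).source ∩ φ i ⁻¹' ball 0 R
  · obtain ⟨i, h1, h2⟩ := mem_iUnion.1 hp
    exact Or.inl (mem_iUnion.2 ⟨i, (mem_disc (hP.sub i)).2 ⟨h1, (mem_ball_zero_iff.1 h2).le⟩⟩)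
  · obtain ⟨c, hc, h1, h2⟩ := hcov p hp
    refine Or.inr (mem_iUnion₂.2 ⟨c, hc, ?_⟩)
    exact (mem_disc ((hs c hc).1.mono (by norm_num : (1 : ℝ) ≤ 3)).sub).2 ⟨h1, h2.le⟩

end Vale.Agent.P205.G
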