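import Vale.Agent.P205.G.KhA

/-!
G/Kh: a bounded radial contraction. Helper lemma names end in _Kh.
exists_m: T s = Real.smoothTransition (s - 4), nn s = 1 + c s T s, m = nn ^ (-1/2) = (√ nn)⁻¹, where 0 < c ≤ 1/2 and
c s² T' s ≤ 1 (T' is continuous, vanishes off [4, 5], nonnegative since T is monotone). nn ≥ 1, nn' = c T + c s T' ≥ 0,
m' = - nn' / (2 nn √nn), m + 2 s m' = (nn - s nn') / (nn √nn) ≥ 0; s m² = s / nn ≤ 5 + 1 / c, and s / nn ≥ 1 for s ≥ 4.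
exists_kh: k u = m (‖u‖²) • u, D k u v = m v + 2 m' ⟪u, v⟫ u; ‖D k u v‖² = m² ‖v‖² + 4 m' ⟪u, v⟫² (m + s m') ≤ m² ‖v‖²,
⟪D k u v, v⟫ ≥ (m + 2 s m') ‖v‖²; m ≤ B / ‖u‖. exists_k1: k1 x = k (x • ex) 0.
-/

open scoped Manifold ContDiff Topology RealInnerProductSpace
open Set Filter Metric Function

noncomputable section

namespace Vale.Agent.P205.G

theorem fder_Kh {m : ℝ → ℝ} (hm : ContDiff ℝ ∞ m) (u v : E2) :
    fderiv ℝ (fun u : E2 => m (‖u‖ ^ 2) • u) u v =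
      m (‖u‖ ^ 2) • v + (2 * deriv m (‖u‖ ^ 2) * ⟪u, v⟫) • u := by
  have h1 : HasDerivAt m (deriv m (‖u‖ ^ 2)) (‖u‖ ^ 2) :=
    (hm.differentiable (by simp) _).hasDerivAt
  have h2 := (h1.comp_hasFDerivAt u (hasStrictFDerivAt_norm_sq u).hasFDerivAt).smul
    (hasFDerivAt_id u)
  have h3 : fderiv ℝ (fun u : E2 => m (‖u‖ ^ 2) • u) u = _ := h2.fderiv
  rw [h3]
  simp only [add_apply, smul_apply,
    ContinuousLinearMap.smulRight_apply, ContinuousLinearMap.id_apply, innerSL_apply_apply,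
    Function.comp_apply, id, smul_eq_mul, nsmul_eq_mul, Nat.cast_ofNat]
  congr 2
  ring

theorem bound_Kh {a b : ℝ} (u v : E2) (ha : 0 < a) (hb : b ≤ 0)
    (h : 0 ≤ a + 2 * ‖u‖ ^ 2 * b) :
    ‖a • v + (2 * b * ⟪u, v⟫) • u‖ ≤ a * ‖v‖ ∧ 0 ≤ ⟪a • v + (2 * b * ⟪u, v⟫) • u, v⟫ := by
  have hp : ⟪u, v⟫ ^ 2 ≤ ‖u‖ ^ 2 * ‖v‖ ^ 2 := by
    rw [← mul_pow, ← sq_abs]
    exact pow_le_pow_left₀ (abs_nonneg _) (abs_real_inner_le_norm u v) 2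
  have hs : ‖u‖ ^ 2 * b ≤ 0 := mul_nonpos_of_nonneg_of_nonpos (sq_nonneg _) hb
  constructor
  · refine le_of_sq_le_sq ?_ (by positivity)
    rw [norm_add_sq_real, norm_smul, norm_smul, real_inner_smul_left, real_inner_smul_right,
      real_inner_comm u v, mul_pow, mul_pow, Real.norm_eq_abs, Real.norm_eq_abs, sq_abs, sq_abs]
    have h1 : b * ⟪u, v⟫ ^ 2 * (a + ‖u‖ ^ 2 * b) ≤ 0 :=
      mul_nonpos_of_nonpos_of_nonneg (mul_nonpos_of_nonpos_of_nonneg hb (sq_nonneg _))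
        (by linarith)
    nlinarith
  · rw [inner_add_left, real_inner_smul_left, real_inner_smul_left, real_inner_self_eq_norm_sq]
    have h1 := mul_le_mul_of_nonpos_left hp hb
    have h2 := mul_nonneg h (sq_nonneg ‖v‖)
    nlinarith

theorem exists_kh : ∃ (k : E2 → E2) (B : ℝ), ContDiff ℝ ∞ k ∧ 0 < B ∧ (∀ u, ‖u‖ ≤ 2 → k u = u) ∧
    (∀ u, ‖k u‖ ≤ B) ∧ (∀ u, 2 ≤ ‖u‖ → ‖u‖ ≤ ⟪k u, u⟫) ∧
    (∀ u v, ‖fderiv ℝ k u v‖ ≤ ‖v‖ ∧ 0 ≤ ⟪fderiv ℝ k u v, v⟫) ∧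
    ∀ δ : ℝ, 0 < δ → ∃ L : ℝ, ∀ u, L ≤ ‖u‖ → ∀ v, ‖fderiv ℝ k u v‖ ≤ δ * ‖v‖ := by
  obtain ⟨m, B, hm, h4, hp, hd, hB, hB0, h1⟩ := exists_m
  have hmB : ∀ u : E2, m (‖u‖ ^ 2) * ‖u‖ ≤ B := fun u => by
    refine le_of_sq_le_sq ?_ hB0.le
    rw [mul_pow, mul_comm]
    exact hB _
  have hb := fun u v : E2 => bound_Kh u v (hp (‖u‖ ^ 2)).1 (hp (‖u‖ ^ 2)).2.2 (hd _ (sq_nonneg _))
  refine ⟨fun u => m (‖u‖ ^ 2) • u, B, (hm.comp (contDiff_norm_sq ℝ)).smul contDiff_id, hB0,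
    fun u hu => ?_, fun u => ?_, fun u hu => ?_, fun u v => ?_, fun δ hδ => ⟨B / δ, fun u hu v => ?_⟩⟩
  · have : ‖u‖ ^ 2 ≤ 4 := by nlinarith [norm_nonneg u]
    simp only [h4 _ this, one_smul]
  · rw [norm_smul, Real.norm_eq_abs, abs_of_pos (hp _).1]
    exact hmB u
  · have h2 : 1 ≤ m (‖u‖ ^ 2) * ‖u‖ := by
      refine le_of_sq_le_sq ?_ (mul_nonneg (hp _).1.le (norm_nonneg u))
      rw [mul_pow, mul_comm, one_pow]
      exact h1 _ (by nlinarith)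
    rw [real_inner_smul_left, real_inner_self_eq_norm_sq]
    nlinarith [mul_le_mul_of_nonneg_right h2 (norm_nonneg u)]
  · rw [fder_Kh hm]
    exact ⟨(hb u v).1.trans (mul_le_of_le_one_left (norm_nonneg v) (hp _).2.1), (hb u v).2⟩
  · rw [fder_Kh hm]
    refine (hb u v).1.trans (mul_le_mul_of_nonneg_right ?_ (norm_nonneg v))
    have h2 := (mul_le_mul_of_nonneg_left hu (hp (‖u‖ ^ 2)).1.le).trans (hmB u)
    rw [← mul_div_assoc, div_le_iff₀ hδ, mul_comm B] at h2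
    exact le_of_mul_le_mul_right h2 hB0

theorem exists_k1 : ∃ (k : ℝ → ℝ) (B : ℝ), ContDiff ℝ ∞ k ∧ 0 < B ∧ (∀ x, |x| ≤ 2 → k x = x) ∧
    (∀ x, |k x| ≤ B) ∧ ∀ x, 0 ≤ deriv k x ∧ deriv k x ≤ 1 := by
  obtain ⟨k, B, hk, hB, h2, hb, -, hd, -⟩ := exists_kh
  have hex : ‖ex‖ = 1 := by simp [ex]
  have hder : ∀ x : ℝ, deriv (fun x : ℝ => ⟪k (x • ex), ex⟫) x = ⟪fderiv ℝ k (x • ex) ex, ex⟫ := by
    intro x
    have a1 : HasDerivAt (fun x : ℝ => x • ex) ex x := by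
      simpa using (hasDerivAt_id x).smul_const ex
    have a2 := (hk.differentiable (by simp) (x • ex)).hasFDerivAt.comp_hasDerivAt x a1
    simpa using (a2.inner ℝ (hasDerivAt_const x ex)).deriv
  refine ⟨fun x => ⟪k (x • ex), ex⟫, B,
    (hk.comp (contDiff_id.smul contDiff_const)).inner ℝ contDiff_const, hB, fun x hx => ?_,
    fun x => ?_, fun x => ?_⟩
  · have : ‖x • ex‖ ≤ 2 := by rwa [norm_smul, hex, mul_one]
    simp only [h2 _ this, real_inner_smul_left, real_inner_self_eq_norm_sq, hex, one_pow, mul_one]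
  · refine (abs_real_inner_le_norm _ _).trans ?_
    rw [hex, mul_one]
    exact hb _
  · rw [hder]
    refine ⟨(hd _ _).2, (real_inner_le_norm _ _).trans ?_⟩
    rw [hex, mul_one, ← hex]
    exact (hd _ _).1

end Vale.Agent.P205.G
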