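import Vale.Agent.P205.G.Defs

/-!
G/KhA (first part of G/Kh): a bounded radial contraction. Helper lemma names end in _KhA.
exists_m: T s = Real.smoothTransition (s - 4), nn s = 1 + c s T s, m = nn ^ (-1/2) = (√ nn)⁻¹, where 0 < c ≤ 1/2 and
c s² T' s ≤ 1 (T' is continuous, vanishes off [4, 5], nonnegative since T is monotone). nn ≥ 1, nn' = c T + c s T' ≥ 0,
m' = - nn' / (2 nn √nn), m + 2 s m' = (nn - s nn') / (nn √nn) ≥ 0; s m² = s / nn ≤ 5 + 1 / c, and s / nn ≥ 1 for s ≥ 4.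
exists_kh: k u = m (‖u‖²) • u, D k u v = m v + 2 m' ⟪u, v⟫ u; ‖D k u v‖² = m² ‖v‖² + 4 m' ⟪u, v⟫² (m + s m') ≤ m² ‖v‖²,
⟪D k u v, v⟫ ≥ (m + 2 s m') ‖v‖²; m ≤ B / ‖u‖. exists_k1: k1 x = k (x • ex) 0.
-/

open scoped Manifold ContDiff Topology RealInnerProductSpace
open Set Filter Metric Function

noncomputable section

namespace Vale.Agent.P205.G

theorem trans_KhA : ∃ (T : ℝ → ℝ) (K : ℝ), ContDiff ℝ ∞ T ∧ (∀ s, s ≤ 4 → T s = 0) ∧
    (∀ s, 5 ≤ s → T s = 1) ∧ (∀ s, 0 ≤ T s ∧ T s ≤ 1) ∧ (∀ s, 0 ≤ s * deriv T s) ∧ 0 < K ∧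
    ∀ s, s ^ 2 * deriv T s ≤ K := by
  set T : ℝ → ℝ := fun s => Real.smoothTransition (s - 4) with hT
  have h1 : ContDiff ℝ ∞ T := Real.smoothTransition.contDiff.comp (contDiff_id.sub contDiff_const)
  have h2 : ∀ s, s ≤ 4 → T s = 0 := fun s hs =>
    Real.smoothTransition.zero_of_nonpos (by linarith)
  have h3 : ∀ s, 5 ≤ s → T s = 1 := fun s hs =>
    Real.smoothTransition.one_of_one_le (by linarith)
  have h4 : Monotone T := fun a b hab => Real.smoothTransition.monotone (by linarith)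
  have h5 : ∀ s, s < 4 → deriv T s = 0 := fun s hs => by
    have h : T =ᶠ[𝓝 s] fun _ => 0 := by
      filter_upwards [Iio_mem_nhds hs] with x hx using h2 x (le_of_lt hx)
    rw [h.deriv_eq, deriv_const]
  have h6 : ∀ s, 5 < s → deriv T s = 0 := fun s hs => by
    have h : T =ᶠ[𝓝 s] fun _ => 1 := by
      filter_upwards [Ioi_mem_nhds hs] with x hx using h3 x (le_of_lt hx)
    rw [h.deriv_eq, deriv_const]
  have h7 : Continuous fun s => s ^ 2 * deriv T s :=
    (continuous_pow 2).mul (h1.continuous_deriv (by simp))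
  obtain ⟨K, hK⟩ := (isCompact_Icc (a := (4 : ℝ)) (b := 5)).exists_bound_of_continuousOn
    h7.continuousOn
  refine ⟨T, max K 1, h1, h2, h3, fun s => ⟨Real.smoothTransition.nonneg _,
    Real.smoothTransition.le_one _⟩, fun s => ?_, lt_max_of_lt_right one_pos, fun s => ?_⟩
  · rcases lt_or_ge s 4 with h | h
    · rw [h5 s h, mul_zero]
    · exact mul_nonneg (by linarith) h4.deriv_nonneg
  · rcases lt_or_ge s 4 with h | h
    · rw [h5 s h, mul_zero]
      exact le_max_of_le_right zero_le_one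
    rcases lt_or_ge 5 s with h' | h'
    · rw [h6 s h', mul_zero]
      exact le_max_of_le_right zero_le_one
    · exact le_max_of_le_left ((le_abs_self _).trans (hK s ⟨h, h'⟩))

theorem exists_m : ∃ (m : ℝ → ℝ) (B : ℝ), ContDiff ℝ ∞ m ∧ (∀ s, s ≤ 4 → m s = 1) ∧
    (∀ s, 0 < m s ∧ m s ≤ 1 ∧ deriv m s ≤ 0) ∧ (∀ s, 0 ≤ s → 0 ≤ m s + 2 * s * deriv m s) ∧
    (∀ s, s * m s ^ 2 ≤ B ^ 2) ∧ 0 < B ∧ ∀ s, 4 ≤ s → 1 ≤ s * m s ^ 2 := by
  obtain ⟨T, K, h1, h2, h3, h4, h5, hK, h6⟩ := trans_KhA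
  set c : ℝ := min (1 / 2) (1 / K) with hc
  have hc0 : 0 < c := lt_min (by norm_num) (by positivity)
  have hc1 : c ≤ 1 / 2 := min_le_left _ _
  have hc2 : c * K ≤ 1 := by
    have := min_le_right (1 / 2) (1 / K)
    rwa [← hc, le_div_iff₀ hK] at this
  set n : ℝ → ℝ := fun s => 1 + c * (s * T s) with hn
  have hn1 : ∀ s, 1 ≤ n s := fun s => by
    have : 0 ≤ s * T s := by
      rcases le_total s 4 with h | h
      · rw [h2 s h, mul_zero]
      · exact mul_nonneg (by linarith) (h4 s).1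
    simp only [hn]
    nlinarith
  have hn0 : ∀ s, 0 < n s := fun s => one_pos.trans_le (hn1 s)
  have hns : ContDiff ℝ ∞ n := contDiff_const.add (contDiff_const.mul (contDiff_id.mul h1))
  have hq : ∀ s, 0 < √(n s) := fun s => Real.sqrt_pos.2 (hn0 s)
  have hd : ∀ s, HasDerivAt n (c * (T s + s * deriv T s)) s := fun s => by
    have h := (((hasDerivAt_id s).mul
      (h1.differentiable (by simp) s).hasDerivAt).const_mul c).const_add 1
    simp only [id, one_mul] at h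
    exact h
  have hm : ∀ s, deriv (fun s => (√(n s))⁻¹) s =
      -(c * (T s + s * deriv T s) / (2 * √(n s))) / √(n s) ^ 2 := fun s =>
    (((hd s).sqrt (hn0 s).ne').inv (hq s).ne').deriv
  have hsq : ∀ s, (√(n s))⁻¹ ^ 2 = (n s)⁻¹ := fun s => by
    rw [inv_pow, Real.sq_sqrt (hn0 s).le]
  refine ⟨fun s => (√(n s))⁻¹, √(5 + 1 / c),
    (hns.sqrt fun s => (hn0 s).ne').inv fun s => (hq s).ne', fun s hs => ?_,
    fun s => ⟨inv_pos.2 (hq s), inv_le_one_of_one_le₀ (Real.one_le_sqrt.2 (hn1 s)), ?_⟩,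
    fun s _ => ?_, fun s => ?_, by positivity, fun s hs => ?_⟩
  · simp [hn, h2 s hs]
  · rw [hm]
    have := hq s
    have h7 : 0 ≤ T s + s * deriv T s := add_nonneg (h4 s).1 (h5 s)
    exact div_nonpos_of_nonpos_of_nonneg (neg_nonpos.2 (by positivity)) (by positivity)
  · rw [hm]
    have h7 := hq s
    have h8 : √(n s) ^ 2 = 1 + c * (s * T s) := Real.sq_sqrt (hn0 s).le
    have e : (√(n s))⁻¹ + 2 * s * (-(c * (T s + s * deriv T s) / (2 * √(n s))) / √(n s) ^ 2) =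
        (√(n s) ^ 2 - s * (c * (T s + s * deriv T s))) / √(n s) ^ 3 := by
      field_simp
      ring
    rw [e]
    refine div_nonneg ?_ (by positivity)
    rw [h8]
    nlinarith [mul_le_mul_of_nonneg_left (h6 s) hc0.le]
  · rw [hsq, Real.sq_sqrt (by positivity), ← div_eq_mul_inv, div_le_iff₀ (hn0 s)]
    have h7 : 0 < 1 / c := by positivity
    rcases le_total s 5 with h | h
    · nlinarith [hn1 s]
    · have e : (5 + 1 / c) * n s = 5 * n s + 1 / c + s := by
        simp only [hn, h3 s h]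
        field_simp
        ring
      rw [e]
      linarith [hn0 s]
  · rw [hsq, ← div_eq_mul_inv, le_div_iff₀ (hn0 s)]
    simp only [hn]
    have h7 : s * T s ≤ s := mul_le_of_le_one_right (by linarith) (h4 s).2
    have h8 : 0 ≤ s * T s := mul_nonneg (by linarith) (h4 s).1
    nlinarith

end Vale.Agent.P205.G
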