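import Vale.Agent.P205.G.LinA

/-!
G/Lin: linear algebra of Ind and Cn. Helper lemma names end in _Lin.
isOpen_ind: Ind.exists_indQ, IndQ.perturb with ε = κ / 2, IndQ.ind.
ind_pair: pair A ξ + t (a c + b m) = 0 with m = cross (A ex) (A ey) c (inner_apply_cross, inner_cross_3, cross_ne_zero): t b = 0, then use h.
normal_span: A ex, A ey, n1, n2 are four independent vectors (n2 = cross (A ex) (A ey) c, n1 = cross (A ex) (A ey) n2; they are nonzero by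
cross_ne_zero and ind_pair, orthogonal to each other and to the range of A), so they span (basisOfLinearIndependentOfCardEqFinrank);
write v = A ξ + a n1 + b n2 and pair with A ξ.
-/

open scoped Manifold ContDiff Topology RealInnerProductSpace
open Set Filter Metric Function

noncomputable section

namespace Vale.Agent.P205.G

theorem unit_Lin {v : E4} (hv : v ≠ 0) : ∃ (o : E4) (r : ℝ), ‖o‖ = 1 ∧ 0 < r ∧ v = r • o := by
  have h : 0 < ‖v‖ := norm_pos_iff.2 hv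
  refine ⟨‖v‖⁻¹ • v, ‖v‖, ?_, h, ?_⟩
  · rw [norm_smul, norm_inv, norm_norm, inv_mul_cancel₀ h.ne']
  · rw [smul_smul, mul_inv_cancel₀ h.ne', one_smul]

theorem gs_Lin {A : E2 →L[ℝ] E4} {c : E4} (h : Ind A c) : ∃ (o1 o2 o3 : E4)
    (a11 a12 a22 c1 c2 c3 : ℝ), ‖o1‖ = 1 ∧ ‖o2‖ = 1 ∧ ‖o3‖ = 1 ∧ ⟪o1, o2⟫ = 0 ∧ ⟪o1, o3⟫ = 0 ∧
      ⟪o2, o3⟫ = 0 ∧ 0 < a11 ∧ 0 < a22 ∧ 0 < c3 ∧ A ex = a11 • o1 ∧
      A ey = a12 • o1 + a22 • o2 ∧ c = c1 • o1 + c2 • o2 + c3 • o3 ∧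
      (∃ ξ, o1 = A ξ) ∧ ∃ ξ, o2 = A ξ := by
  have h1 : A ex ≠ 0 := fun h0 => by
    have := (h ex 0 (by rw [h0, zero_smul, add_zero])).1
    have h2 := congrArg (fun v : E2 => v 0) this
    simp [ex] at h2
  obtain ⟨o1, a11, n1, p1, e1⟩ := unit_Lin h1
  have r1 : o1 = A (a11⁻¹ • ex) := by
    rw [map_smul, e1, smul_smul, inv_mul_cancel₀ p1.ne', one_smul]
  have s1 : ⟪o1, o1⟫ = (1 : ℝ) := by rw [real_inner_self_eq_norm_sq, n1]; norm_num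
  have h2 : A ey - ⟪o1, A ey⟫ • o1 ≠ 0 := fun h0 => by
    have := (h (ey - ⟪o1, A ey⟫ • a11⁻¹ • ex) 0
      (by rw [map_sub, map_smul, ← r1, h0, zero_smul, add_zero])).1
    have h2 := congrArg (fun v : E2 => v 1) this
    simp [ex, ey] at h2
  obtain ⟨o2, a22, n2, p2, e2⟩ := unit_Lin h2
  have r2 : o2 = A (a22⁻¹ • (ey - ⟪o1, A ey⟫ • a11⁻¹ • ex)) := by
    rw [map_smul, map_sub, map_smul, ← r1, e2, smul_smul, inv_mul_cancel₀ p2.ne', one_smul]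
  have s2 : ⟪o2, o2⟫ = (1 : ℝ) := by rw [real_inner_self_eq_norm_sq, n2]; norm_num
  have o12 : ⟪o1, o2⟫ = (0 : ℝ) := by
    have := congrArg (fun v => ⟪o1, v⟫) e2
    simp only [inner_sub_right, inner_smul_right, s1] at this
    have h3 : a22 * ⟪o1, o2⟫ = 0 := by linarith
    exact (mul_eq_zero.1 h3).resolve_left p2.ne'
  have o21 : ⟪o2, o1⟫ = (0 : ℝ) := by rw [real_inner_comm, o12]
  have h3 : c - ⟪o1, c⟫ • o1 - ⟪o2, c⟫ • o2 ≠ 0 := fun h0 => by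
    have := (h (-(⟪o1, c⟫ • a11⁻¹ • ex) - ⟪o2, c⟫ • a22⁻¹ • (ey - ⟪o1, A ey⟫ • a11⁻¹ • ex)) 1
      (by rw [map_sub, map_neg, map_smul, ← r1, map_smul, ← r2, one_smul, ← h0]; abel)).2
    exact one_ne_zero this
  obtain ⟨o3, c3, n3, p3, e3⟩ := unit_Lin h3
  have o13 : ⟪o1, o3⟫ = (0 : ℝ) := by
    have := congrArg (fun v => ⟪o1, v⟫) e3
    simp only [inner_sub_right, inner_smul_right, s1, o12] at this
    have h3 : c3 * ⟪o1, o3⟫ = 0 := by linarith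
    exact (mul_eq_zero.1 h3).resolve_left p3.ne'
  have o23 : ⟪o2, o3⟫ = (0 : ℝ) := by
    have := congrArg (fun v => ⟪o2, v⟫) e3
    simp only [inner_sub_right, inner_smul_right, s2, o21] at this
    have h3 : c3 * ⟪o2, o3⟫ = 0 := by linarith
    exact (mul_eq_zero.1 h3).resolve_left p3.ne'
  refine ⟨o1, o2, o3, a11, ⟪o1, A ey⟫, a22, ⟪o1, c⟫, ⟪o2, c⟫, c3, n1, n2, n3, o12, o13, o23, p1,
    p2, p3, e1, ?_, ?_, ⟨_, r1⟩, ⟨_, r2⟩⟩
  · rw [← e2]; abel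
  · rw [← e3]; abel

theorem ind_cross_Lin {A : E2 →L[ℝ] E4} {c : E4} (h : Ind A c) :
    Ind A (cross (A ex) (A ey) c) := by
  have := ind_pair h (a := 0) (b := 1) (Or.inr one_ne_zero)
  rwa [zero_smul, one_smul, zero_add] at this

theorem normal_indep {A : E2 →L[ℝ] E4} {c : E4} (h : Ind A c) (a b : ℝ)
    (hab : a • cross (A ex) (A ey) (cross (A ex) (A ey) c) + b • cross (A ex) (A ey) c = 0) :
    a = 0 ∧ b = 0 := by
  have h2 := cross_ne_zero h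
  have h1 := cross_ne_zero (ind_cross_Lin h)
  have o := inner_cross_3 (A ex) (A ey) (cross (A ex) (A ey) c)
  have o' := o
  rw [real_inner_comm] at o'
  have e1 := congrArg (fun v => ⟪cross (A ex) (A ey) (cross (A ex) (A ey) c), v⟫) hab
  have e2 := congrArg (fun v => ⟪cross (A ex) (A ey) c, v⟫) hab
  simp only [inner_add_right, inner_smul_right, o, o', inner_zero_right, mul_zero, add_zero,
    zero_add] at e1 e2
  exact ⟨(mul_eq_zero.1 e1).resolve_right (inner_self_ne_zero.2 h1),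
    (mul_eq_zero.1 e2).resolve_right (inner_self_ne_zero.2 h2)⟩

theorem normal_span {A : E2 →L[ℝ] E4} {c : E4} (h : Ind A c) {v : E4} (hv : ∀ ξ, ⟪v, A ξ⟫ = 0) :
    ∃ a b : ℝ, v = a • cross (A ex) (A ey) (cross (A ex) (A ey) c) + b • cross (A ex) (A ey) c := by
  obtain ⟨o1, o2, -, -, -, -, -, -, -, n1, n2, -, o12, -, -, -, -, -, -, -, -, ⟨ξ1, r1⟩,
    ⟨ξ2, r2⟩⟩ := gs_Lin h
  obtain ⟨m2, s2, k2, p2, e2⟩ := unit_Lin (cross_ne_zero h)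
  obtain ⟨m1, s1, k1, p1, e1⟩ := unit_Lin (cross_ne_zero (ind_cross_Lin h))
  have a2 : ∀ ξ, ⟪A ξ, m2⟫ = (0 : ℝ) := fun ξ => by
    have := inner_apply_cross A c ξ
    rw [e2, inner_smul_right] at this
    exact (mul_eq_zero.1 this).resolve_left p2.ne'
  have a1 : ∀ ξ, ⟪A ξ, m1⟫ = (0 : ℝ) := fun ξ => by
    have := inner_apply_cross A (cross (A ex) (A ey) c) ξ
    rw [e1, inner_smul_right] at this
    exact (mul_eq_zero.1 this).resolve_left p1.ne'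
  have o : ⟪m1, m2⟫ = (0 : ℝ) := by
    have := inner_cross_3 (A ex) (A ey) (cross (A ex) (A ey) c)
    rw [e1, e2, inner_smul_right, real_inner_smul_left, real_inner_comm] at this
    exact (mul_eq_zero.1 ((mul_eq_zero.1 this).resolve_left p1.ne')).resolve_left p2.ne'
  have key := span4 n1 n2 k1 k2 o12 (r1 ▸ a1 ξ1) (r1 ▸ a2 ξ1) (r2 ▸ a1 ξ2) (r2 ▸ a2 ξ2) o v
  have v1 : ⟪o1, v⟫ = (0 : ℝ) := by rw [real_inner_comm, r1]; exact hv ξ1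
  have v2 : ⟪o2, v⟫ = (0 : ℝ) := by rw [real_inner_comm, r2]; exact hv ξ2
  rw [v1, v2, zero_smul, zero_smul, zero_add, zero_add] at key
  refine ⟨⟪m1, v⟫ * s1⁻¹, ⟪m2, v⟫ * s2⁻¹, ?_⟩
  rw [e1, e2, smul_smul, smul_smul, mul_assoc, mul_assoc, inv_mul_cancel₀ p1.ne',
    inv_mul_cancel₀ p2.ne', mul_one, mul_one]
  exact key

/-- Gram-Schmidt for the three vectors `A ex`, `A ey`, `c`. -/
theorem exists_gs {A : E2 →L[ℝ] E4} {c : E4} (h : Ind A c) : ∃ (o1 o2 o3 : E4)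
    (a11 a12 a22 c1 c2 c3 : ℝ), ‖o1‖ = 1 ∧ ‖o2‖ = 1 ∧ ‖o3‖ = 1 ∧ ⟪o1, o2⟫ = 0 ∧ ⟪o1, o3⟫ = 0 ∧
      ⟪o2, o3⟫ = 0 ∧ 0 < a11 ∧ 0 < a22 ∧ 0 < c3 ∧ A ex = a11 • o1 ∧
      A ey = a12 • o1 + a22 • o2 ∧ c = c1 • o1 + c2 • o2 + c3 • o3 := by
  obtain ⟨o1, o2, o3, a11, a12, a22, c1, c2, c3, q1, q2, q3, q4, q5, q6, q7, q8, q9, q10, q11,
    q12, -⟩ := gs_Lin h
  exact ⟨o1, o2, o3, a11, a12, a22, c1, c2, c3, q1, q2, q3, q4, q5, q6, q7, q8, q9, q10, q11, q12⟩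

end Vale.Agent.P205.G
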