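import Vale.Agent.P205.G.Defs

/-!
G/LinA (first part of G/Lin): linear algebra of Ind and Cn. Helper lemma names end in _LinA.
isOpen_ind: Ind.exists_indQ, IndQ.perturb with ε = κ / 2, IndQ.ind.
ind_pair: pair A ξ + t (a c + b m) = 0 with m = cross (A ex) (A ey) c (inner_apply_cross, inner_cross_3, cross_ne_zero): t b = 0, then use h.
normal_span: A ex, A ey, n1, n2 are four independent vectors (n2 = cross (A ex) (A ey) c, n1 = cross (A ex) (A ey) n2; they are nonzero by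
cross_ne_zero and ind_pair, orthogonal to each other and to the range of A), so they span (basisOfLinearIndependentOfCardEqFinrank);
write v = A ξ + a n1 + b n2 and pair with A ξ.
-/

open scoped Manifold ContDiff Topology RealInnerProductSpace
open Set Filter Metric Function

noncomputable section

namespace Vale.Agent.P205.G

theorem ind_inj {A : E2 →L[ℝ] E4} {c : E4} (h : Ind A c) : Injective A := by
  refine (injective_iff_map_eq_zero A).2 fun ξ h1 => (h ξ 0 ?_).1
  rw [h1, zero_smul, add_zero]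

theorem ind_smul {A : E2 →L[ℝ] E4} {c : E4} (h : Ind A c) {a : ℝ} (ha : a ≠ 0) : Ind A (a • c) := by
  intro ξ t ht
  rw [smul_smul] at ht
  obtain ⟨h1, h2⟩ := h ξ _ ht
  exact ⟨h1, (mul_eq_zero.1 h2).resolve_right ha⟩

theorem ind_smul_smul {A : E2 →L[ℝ] E4} {c : E4} (h : Ind A c) {a : ℝ} (ha : a ≠ 0) :
    Ind (a • A) (a • c) := by
  intro ξ t ht
  refine h ξ t ((smul_eq_zero.1 (?_ : a • (A ξ + t • c) = 0)).resolve_left ha)
  rw [← ht, smul_add, smul_comm a t c]
  rfl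

theorem ind_comp_add {A : E2 →L[ℝ] E4} {c : E4} (h : Ind A c) {B : E2 →L[ℝ] E2}
    (hB : Injective B) (w : E2) : Ind (A.comp B) (c + A w) := by
  intro ξ t ht
  have h1 : A (B ξ + t • w) + t • c = 0 := by
    rw [← ht, map_add, map_smul, smul_add, ContinuousLinearMap.comp_apply]
    abel
  obtain ⟨h2, h3⟩ := h _ _ h1
  rw [h3, zero_smul, add_zero] at h2
  exact ⟨hB (h2.trans (map_zero B).symm), h3⟩

theorem ind_of_comp {A : E2 →L[ℝ] E4} {c : E4} {B : E2 →L[ℝ] E2} (hB : Surjective B)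
    (h : Ind (A.comp B) c) : Ind A c := by
  intro ξ t ht
  obtain ⟨η, rfl⟩ := hB ξ
  obtain ⟨h1, h2⟩ := h η t ht
  exact ⟨by rw [h1, map_zero], h2⟩

theorem isOpen_ind : IsOpen {p : (E2 →L[ℝ] E4) × E4 | Ind p.1 p.2} := by
  rw [Metric.isOpen_iff]
  rintro ⟨A, c⟩ h
  obtain ⟨κ, hκ, h1⟩ := Ind.exists_indQ h
  refine ⟨κ / 2, by positivity, fun p hp => ?_⟩
  rw [mem_ball, Prod.dist_eq, max_lt_iff, dist_eq_norm, dist_eq_norm] at hp
  exact (h1.perturb hp.1.le hp.2.le).ind (by linarith)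

theorem indQ_smul {κ s : ℝ} (hκ : 0 ≤ κ) (hs : 0 < s) {A : E2 →L[ℝ] E4} {c : E4}
    (h : IndQ κ A c) : IndQ (κ * min 1 s) A (s • c) := by
  intro ξ t
  rw [smul_smul]
  refine le_trans ?_ (h ξ (t * s))
  rw [mul_assoc, abs_mul, abs_of_pos hs]
  refine mul_le_mul_of_nonneg_left ?_ hκ
  have h1 := min_le_left 1 s
  have h2 := min_le_right 1 s
  have h3 := norm_nonneg ξ
  have h4 := abs_nonneg t
  nlinarith

theorem ind_pair {A : E2 →L[ℝ] E4} {c : E4} (h : Ind A c) {a b : ℝ} (hab : a ≠ 0 ∨ b ≠ 0) :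
    Ind A (a • c + b • cross (A ex) (A ey) c) := by
  intro ξ t ht
  have h0 := cross_ne_zero h
  set m := cross (A ex) (A ey) c with hm
  have h1 : ⟪A ξ + t • (a • c + b • m), m⟫ = 0 := by rw [ht, inner_zero_left]
  rw [inner_add_left, real_inner_smul_left, inner_add_left, real_inner_smul_left,
    real_inner_smul_left, hm, inner_apply_cross, inner_cross_3, ← hm] at h1
  have h2 : ⟪m, m⟫ ≠ 0 := by rwa [Ne, inner_self_eq_zero]
  have h3 : t * b = 0 := by
    have h4 : t * b * ⟪m, m⟫ = 0 := by linear_combination h1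
    exact (mul_eq_zero.1 h4).resolve_right h2
  have h5 : A ξ + (t * a) • c = 0 := by
    rw [← ht, smul_add, smul_smul, smul_smul, h3, zero_smul, add_zero]
  obtain ⟨h6, h7⟩ := h _ _ h5
  refine ⟨h6, ?_⟩
  rcases hab with h8 | h8
  · exact (mul_eq_zero.1 h7).resolve_right h8
  · exact (mul_eq_zero.1 h3).resolve_right h8

theorem cn_of_normal {A : E2 →L[ℝ] E4} (hA : Injective A) {n a c : E4} (hn : ∀ ξ, ⟪A ξ, n⟫ = 0)
    (ha : ⟪a, n⟫ < 0) (hc : ⟪c, n⟫ < 0) : Cn A a c := by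
  intro α β h1 h2 h3 ξ t ht
  have h4 : ⟪A ξ + t • (α • a + β • c), n⟫ = 0 := by rw [ht, inner_zero_left]
  rw [inner_add_left, real_inner_smul_left, inner_add_left, real_inner_smul_left,
    real_inner_smul_left, hn] at h4
  have h5 : α * ⟪a, n⟫ + β * ⟪c, n⟫ < 0 := by
    rcases h1.eq_or_lt with h6 | h6
    · have h7 : 0 < β := by linarith
      nlinarith
    · nlinarith
  have h6 : t = 0 := by
    rw [zero_add] at h4
    exact (mul_eq_zero.1 h4).resolve_right h5.ne
  rw [h6, zero_smul, add_zero] at ht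
  exact ⟨hA (ht.trans (map_zero A).symm), h6⟩

theorem cn_self {A : E2 →L[ℝ] E4} {c : E4} (h : Ind A c) : Cn A c c := by
  intro α β _ _ h3
  rw [← add_smul]
  exact ind_smul h h3.ne'

theorem Cn.left {A : E2 →L[ℝ] E4} {n c : E4} (h : Cn A n c) : Ind A n := by
  simpa using h 1 0 zero_le_one le_rfl (by norm_num)

theorem Cn.right {A : E2 →L[ℝ] E4} {n c : E4} (h : Cn A n c) : Ind A c := by
  simpa using h 0 1 le_rfl zero_le_one (by norm_num)

theorem Cn.smul {A : E2 →L[ℝ] E4} {n c : E4} (h : Cn A n c) {s : ℝ} (hs : 0 < s) :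
    Cn A n (s • c) := by
  intro α β h1 h2 h3
  rw [smul_smul]
  refine h α (β * s) h1 (by positivity) ?_
  rcases h1.eq_or_lt with h6 | h6
  · have h7 : 0 < β := by linarith
    have := mul_pos h7 hs
    linarith
  · have := mul_nonneg h2 hs.le
    linarith

theorem Cn.mix {A : E2 →L[ℝ] E4} {n c : E4} (h : Cn A n c) {t : ℝ} (h0 : 0 ≤ t) (h1 : t ≤ 1) :
    Cn A ((1 - t) • n + t • c) c := by
  intro α β h2 h3 h4
  have e : α • ((1 - t) • n + t • c) + β • c = (α * (1 - t)) • n + (α * t + β) • c := by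
    module
  rw [e]
  refine h _ _ (mul_nonneg h2 (by linarith)) (by positivity) ?_
  linarith

theorem Cn.comp_add {A : E2 →L[ℝ] E4} {n c : E4} (h : Cn A n c) {B : E2 →L[ℝ] E2}
    (hB : Injective B) (w : E2) : Cn (A.comp B) n (c + A w) := by
  intro α β h1 h2 h3
  have e : α • n + β • (c + A w) = (α • n + β • c) + A (β • w) := by
    rw [map_smul]
    module
  rw [e]
  exact ind_comp_add (h α β h1 h2 h3) hB _

/-- It is enough to test convex combinations. -/
theorem cn_of_convex {A : E2 →L[ℝ] E4} {n c : E4}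
    (h : ∀ t ∈ Icc (0 : ℝ) 1, Ind A ((1 - t) • n + t • c)) : Cn A n c := by
  intro α β h1 h2 h3
  have h4 := ind_smul (h (β / (α + β)) ⟨by positivity, (div_le_one h3).2 (by linarith)⟩) h3.ne'
  have e : (α + β) • ((1 - β / (α + β)) • n + (β / (α + β)) • c) = α • n + β • c := by
    rw [smul_add, smul_smul, smul_smul]
    congr 2 <;> field_simp <;> ring
  rwa [e] at h4

/-- A quantitative criterion: both vectors are close to a vector with margin `κ`. -/
theorem cn_of_indQ {κ ε : ℝ} (hε : ε < κ) {A A' : E2 →L[ℝ] E4} {b n c : E4} (h : IndQ κ A b)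
    (hA : ‖A' - A‖ ≤ ε) (hn : ‖n - b‖ ≤ ε) (hc : ‖c - b‖ ≤ ε) : Cn A' n c := by
  refine cn_of_convex fun t ht => (h.perturb hA ?_).ind (sub_pos.2 hε)
  have e : (1 - t) • n + t • c - b = (1 - t) • (n - b) + t • (c - b) := by module
  rw [e]
  refine (norm_add_le _ _).trans ?_
  rw [norm_smul, norm_smul, Real.norm_of_nonneg ht.1, Real.norm_of_nonneg (sub_nonneg.2 ht.2)]
  have h1 := mul_le_mul_of_nonneg_left hn (sub_nonneg.2 ht.2)
  have h2 := mul_le_mul_of_nonneg_left hc ht.1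
  linarith

theorem exists_unit_ker (l : E2 →L[ℝ] ℝ) : ∃ v : E2, ‖v‖ = 1 ∧ l v = 0 := by
  have h : ∃ v : E2, v ≠ 0 ∧ l v = 0 := by
    by_cases h0 : l ex = 0
    · exact ⟨ex, fun h => by simpa [ex] using congrArg (· 0) h, h0⟩
    · refine ⟨l ey • ex - l ex • ey, fun h => h0 ?_, ?_⟩
      · simpa [ex, ey] using congrArg (· 1) h
      · rw [map_sub, map_smul, map_smul, smul_eq_mul, smul_eq_mul]
        ring
  obtain ⟨v, h1, h2⟩ := h
  refine ⟨‖v‖⁻¹ • v, norm_smul_inv_norm h1, ?_⟩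
  rw [map_smul, h2, smul_zero]

end Vale.Agent.P205.G
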