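import Vale.Agent.P205.G.Kh

/-!
G/Psi: the blow-up map. Helper lemma names end in _Psi.
k, B from exists_kh; β : ContDiffBump (0 : E2) with rIn = R / 4, rOut = R / 2, ‖fderiv β‖ ≤ D everywhere (continuous with compact support).
ρ > 0 with 3 ρ ≤ R, ρ B ≤ R / 2, ρ B D ≤ 1 / 2. ψ z = z + ((1 - ε) * ρ * β z) • k ((ε ρ)⁻¹ • z), 0 < ε ≤ 1. With u = (ε ρ)⁻¹ • z:
D ψ v = v + ((1 - ε) β / ε) • D k u v + ((1 - ε) ρ Dβ v) • k u, so ⟪D ψ v, v⟫ ≥ ‖v‖² / 2 (injective).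
L = ρ max (L0, 2), L0 from exists_kh for δ / 2; ε L < R / 4 makes β = 1 near z in the first two ranges. Middle range:
ψ z = ρ (ε u + (1 - ε) k u), ⟪ψ z, u⟫ ≥ ρ ‖u‖. Last range: ε ‖D ψ v‖ ≤ (ε + δ / 2 + ε / 2) ‖v‖.
-/

open scoped Manifold ContDiff Topology RealInnerProductSpace
open Set Filter Metric Function

noncomputable section

namespace Vale.Agent.P205.G

theorem fder_Psi {k : E2 → E2} {β : E2 → ℝ} (hk : ContDiff ℝ ∞ k) (hβ : ContDiff ℝ ∞ β)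
    (a b : ℝ) (z v : E2) : fderiv ℝ (fun z => z + (a * β z) • k (b • z)) z v =
      v + ((a * β z * b) • fderiv ℝ k (b • z) v + (a * fderiv ℝ β z v) • k (b • z)) := by
  have h1 := (hk.differentiable (by simp) (b • z)).hasFDerivAt.comp z
    ((hasFDerivAt_id z).const_smul b)
  have h2 := ((hβ.differentiable (by simp) z).hasFDerivAt.const_mul a).smul h1
  have h3 : fderiv ℝ (fun z => z + (a * β z) • k (b • z)) z = _ :=
    ((hasFDerivAt_id z).add h2).fderiv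
  rw [h3]
  simp [smul_smul]

theorem exists_psi {R : ℝ} (hR : 0 < R) : ∃ ρ : ℝ, 0 < ρ ∧ 3 * ρ ≤ R ∧ ∀ δ : ℝ, 0 < δ →
    ∃ L : ℝ, 0 < L ∧ ∀ᶠ ε in 𝓝[>] (0 : ℝ), ∃ ψ : E2 → E2, ContDiff ℝ ∞ ψ ∧
      (∀ z, R / 2 ≤ ‖z‖ → ψ z = z) ∧ (∀ z, ‖z‖ < R → ‖ψ z‖ < R) ∧
      (∀ z, Injective (fderiv ℝ ψ z)) ∧
      (∀ z, ‖z‖ < 2 * ε * ρ → ψ z = ε⁻¹ • z ∧ ∀ v, fderiv ℝ ψ z v = ε⁻¹ • v) ∧
      (∀ z, 2 * ε * ρ ≤ ‖z‖ → ‖z‖ ≤ ε * L → ρ ≤ ‖ψ z‖ ∧ ∀ v, ε * ‖fderiv ℝ ψ z v‖ ≤ ‖v‖) ∧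
      ∀ z, ε * L ≤ ‖z‖ → ∀ v, ε * ‖fderiv ℝ ψ z v‖ ≤ δ * ‖v‖ := by
  obtain ⟨k, B, hk, hB, k2, kB, kin, kd, kL⟩ := exists_kh
  let β : ContDiffBump (0 : E2) := ⟨R / 4, R / 2, by positivity, by linarith⟩
  have hβ : ContDiff ℝ ∞ β := β.contDiff
  obtain ⟨D0, hD0⟩ := (hβ.continuous_fderiv (by simp)).bounded_above_of_compact_support
    (β.hasCompactSupport.fderiv ℝ)
  obtain ⟨D, hD, hD'⟩ : ∃ D : ℝ, 0 < D ∧ ∀ z v, |fderiv ℝ β z v| ≤ D * ‖v‖ :=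
    ⟨|D0| + 1, by positivity, fun z v => ((fderiv ℝ β z).le_opNorm v).trans
      (mul_le_mul_of_nonneg_right (by linarith [hD0 z, le_abs_self D0]) (norm_nonneg v))⟩
  obtain ⟨ρ, hρ, r1, r2, r3⟩ : ∃ ρ : ℝ, 0 < ρ ∧ 3 * ρ ≤ R ∧ ρ * B ≤ R / 2 ∧ ρ * (B * D) ≤ 1 / 2 := by
    refine ⟨min (R / 3) (min (R / 2 / B) (1 / 2 / (B * D))), by positivity, ?_, ?_, ?_⟩
    · linarith [min_le_left (R / 3) (min (R / 2 / B) (1 / 2 / (B * D)))]
    · exact (le_div_iff₀ hB).1 ((min_le_right _ _).trans (min_le_left _ _))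
    · exact (le_div_iff₀ (by positivity)).1 ((min_le_right _ _).trans (min_le_right _ _))
  refine ⟨ρ, hρ, r1, fun δ hδ => ?_⟩
  obtain ⟨L0, hL0⟩ := kL (δ / 2) (by positivity)
  obtain ⟨L1, l1, l2⟩ : ∃ L1 : ℝ, L0 ≤ L1 ∧ 2 ≤ L1 := ⟨max L0 2, le_max_left _ _, le_max_right _ _⟩
  have hL : 0 < ρ * L1 := by positivity
  refine ⟨ρ * L1, hL, ?_⟩
  filter_upwards [Ioo_mem_nhdsGT (show (0 : ℝ) < min 1 (min (δ / 3) (R / 4 / (ρ * L1))) by
    positivity)] with ε hε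
  obtain ⟨e0, e1⟩ := hε
  simp only [lt_min_iff] at e1
  obtain ⟨e1, e2, e3⟩ := e1
  rw [lt_div_iff₀ hL] at e3
  have er : 0 < ε * ρ := by positivity
  have nu : ∀ z : E2, ε * ρ * ‖(ε * ρ)⁻¹ • z‖ = ‖z‖ := fun z => by
    rw [norm_smul, norm_inv, Real.norm_of_nonneg er.le]; field_simp
  have b1 : ∀ z : E2, ‖z‖ < R / 4 → β z = 1 ∧ fderiv ℝ β z = 0 := fun z hz =>
    ⟨β.one_of_mem_closedBall (mem_closedBall_zero_iff.2 hz.le), by
      rw [(β.eventuallyEq_one_of_mem_ball (mem_ball_zero_iff.2 hz)).fderiv_eq]; simp⟩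
  have b0 : ∀ z : E2, R / 2 ≤ ‖z‖ → β z = 0 := fun z hz =>
    β.zero_of_le_dist (by simpa using hz)
  have c0 : ∀ z, 0 ≤ (1 - ε) * ρ * β z := fun z =>
    mul_nonneg (mul_nonneg (by linarith) hρ.le) β.nonneg
  have c1 : ∀ z, (1 - ε) * ρ * β z ≤ ρ := fun z => by
    have h1 : β z ≤ 1 := β.le_one
    have h2 : 0 ≤ β z := β.nonneg
    nlinarith [mul_nonneg er.le h2]
  have c2 : ∀ z, ε * ((1 - ε) * ρ * β z * (ε * ρ)⁻¹) = (1 - ε) * β z := fun z => by field_simp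
  have c3 : ∀ z v u : E2, ‖((1 - ε) * ρ * fderiv ℝ β z v) • k u‖ ≤ 1 / 2 * ‖v‖ := fun z v u => by
    rw [norm_smul, Real.norm_eq_abs, abs_mul, abs_of_nonneg (mul_nonneg (by linarith) hρ.le)]
    calc _ ≤ ρ * (D * ‖v‖) * B := by
          gcongr
          · nlinarith
          · exact hD' z v
          · exact kB u
      _ = ρ * (B * D) * ‖v‖ := by ring
      _ ≤ _ := by gcongr
  have c4 : ∀ z v w : E2, ε * ‖((1 - ε) * ρ * β z * (ε * ρ)⁻¹) • w‖ = (1 - ε) * β z * ‖w‖ :=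
    fun z v w => by
      rw [norm_smul, Real.norm_of_nonneg (mul_nonneg (c0 z) (by positivity)), ← mul_assoc, c2]
  refine ⟨fun z => z + ((1 - ε) * ρ * β z) • k ((ε * ρ)⁻¹ • z),
    contDiff_id.add ((contDiff_const.mul hβ).smul (hk.comp (contDiff_id.const_smul _))),
    fun z hz => by simp [b0 z hz], fun z hz => ?_, fun z => ?_, fun z hz => ?_,
    fun z hz hz' => ?_, fun z hz v => ?_⟩
  · by_cases h : R / 2 ≤ ‖z‖
    · simpa [b0 z h] using hz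
    · refine (norm_add_le _ _).trans_lt ?_
      rw [norm_smul, Real.norm_of_nonneg (c0 z)]
      have := mul_le_mul (c1 z) (kB ((ε * ρ)⁻¹ • z)) (norm_nonneg _) hρ.le
      linarith
  · refine (injective_iff_map_eq_zero _).2 fun v hv => ?_
    rw [fder_Psi hk hβ] at hv
    have h1 := congrArg (fun w => ⟪w, v⟫) hv
    simp only [inner_add_left, inner_zero_left, real_inner_self_eq_norm_sq] at h1
    rw [real_inner_smul_left] at h1
    have h2 := mul_nonneg (mul_nonneg (c0 z) (inv_nonneg.2 er.le)) (kd ((ε * ρ)⁻¹ • z) v).2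
    have h3 := (abs_le.1 ((abs_real_inner_le_norm _ v).trans
      (mul_le_mul_of_nonneg_right (c3 z v ((ε * ρ)⁻¹ • z)) (norm_nonneg v)))).1
    exact norm_eq_zero.1 (by nlinarith [norm_nonneg v])
  · have h1 : ‖(ε * ρ)⁻¹ • z‖ < 2 := by nlinarith [nu z]
    obtain ⟨h2, h3⟩ := b1 z (by nlinarith)
    have h4 : fderiv ℝ k ((ε * ρ)⁻¹ • z) = ContinuousLinearMap.id ℝ E2 := by
      have : k =ᶠ[𝓝 ((ε * ρ)⁻¹ • z)] id := by
        filter_upwards [(isOpen_lt continuous_norm continuous_const).mem_nhds h1] with u hu using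
          k2 u hu.le
      rw [this.fderiv_eq, fderiv_id]
    have h5 : ε⁻¹ = 1 + (1 - ε) * ρ * 1 * (ε * ρ)⁻¹ := by field_simp; ring
    refine ⟨?_, fun v => ?_⟩
    · simp only [k2 _ h1.le, h2, smul_smul]
      rw [h5, add_smul, one_smul]
    · rw [fder_Psi hk hβ, h2, h3, h4, h5, add_smul, one_smul]
      simp
  · have h1 : 2 ≤ ‖(ε * ρ)⁻¹ • z‖ := by nlinarith [nu z]
    obtain ⟨h2, h3⟩ := b1 z (by linarith)
    refine ⟨?_, fun v => ?_⟩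
    · have h4 := real_inner_le_norm (z + ((1 - ε) * ρ * β z) • k ((ε * ρ)⁻¹ • z)) ((ε * ρ)⁻¹ • z)
      have h5 : ⟪z, (ε * ρ)⁻¹ • z⟫ = ‖z‖ * ‖(ε * ρ)⁻¹ • z‖ := by
        rw [real_inner_smul_right, real_inner_self_eq_norm_sq, norm_smul, norm_inv,
          Real.norm_of_nonneg er.le]
        ring
      rw [inner_add_left, real_inner_smul_left, h5] at h4
      have h6 := mul_le_mul_of_nonneg_left (kin _ h1) (c0 z)
      refine le_of_mul_le_mul_right (le_trans ?_ h4) (by linarith : 0 < ‖(ε * ρ)⁻¹ • z‖)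
      rw [h2] at h6 ⊢
      have h7 := mul_le_mul_of_nonneg_right hz (norm_nonneg ((ε * ρ)⁻¹ • z))
      nlinarith [mul_nonneg er.le (norm_nonneg ((ε * ρ)⁻¹ • z))]
    · rw [fder_Psi hk hβ, h3]
      simp only [ContinuousLinearMap.zero_apply, mul_zero, zero_smul, add_zero]
      have h4 := mul_le_mul_of_nonneg_left (norm_add_le v
        (((1 - ε) * ρ * β z * (ε * ρ)⁻¹) • fderiv ℝ k ((ε * ρ)⁻¹ • z) v)) e0.le
      rw [mul_add, c4 z v, h2] at h4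
      rw [h2]
      nlinarith [(kd ((ε * ρ)⁻¹ • z) v).1]
  · have h1 : L0 ≤ ‖(ε * ρ)⁻¹ • z‖ := l1.trans (by nlinarith [nu z])
    rw [fder_Psi hk hβ]
    have h4 := mul_le_mul_of_nonneg_left ((norm_add_le v _).trans (add_le_add_right (norm_add_le
      (((1 - ε) * ρ * β z * (ε * ρ)⁻¹) • fderiv ℝ k ((ε * ρ)⁻¹ • z) v)
      (((1 - ε) * ρ * fderiv ℝ β z v) • k ((ε * ρ)⁻¹ • z))) _)) e0.le
    rw [mul_add, mul_add, c4 z v] at h4
    have h5 := mul_le_mul_of_nonneg_left (c3 z v ((ε * ρ)⁻¹ • z)) e0.le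
    have h6 : (1 - ε) * β z ≤ 1 := by
      have a1 : β z ≤ 1 := β.le_one
      have a2 : 0 ≤ β z := β.nonneg
      nlinarith
    have h7 := mul_le_mul h6 (hL0 _ h1 v) (norm_nonneg _) zero_le_one
    nlinarith [norm_nonneg v]

end Vale.Agent.P205.G
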