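import Vale.Agent.P205.G.StepIA
import Vale.Agent.P205.G.Psi

/-!
G/StepI: a short map which is isometric near the centres. Helper lemma names end in _StepI.
ρ from exists_psi, τ, C from stepIA, c > 0 with c ‖v‖² ≤ trep (φ i) g z v v on closedBall 0 R for all i (IsMetric.lower, finitely many i),
δ with 2 δ² ≤ c, L from exists_psi; ε small: ε² C ≤ 1 and trep (φ i) g z v v ≥ (1 - τ / 2) ‖v‖² for ‖z‖ ≤ ε L (near_euc). reparam.
For p ∈ disc (φ i) (R / 2) use le_of_trep and the three ranges of ‖φ i p‖ (bilinearity: ε² T (ε⁻¹ v) (ε⁻¹ v) = T v v, ε • ε⁻¹ • z = z).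
Equality on the neighbourhood (φ i).source ∩ {‖φ i q‖ < ε ρ / 2} of (φ i).symm 0: diagonal values agree (apply_eq_trep), polarise
(symmetry of both tensors at the point, as in eq_of_diag).
-/

open scoped Manifold ContDiff Topology RealInnerProductSpace
open Set Filter Metric Function

noncomputable section

namespace Vale.Agent.P205.G

variable {M : Type*} [TopologicalSpace M] [ChartedSpace E2 M] [IsManifold I2 ∞ M]
  [T2Space M] [CompactSpace M]

theorem near_euc {g : M → Bil} (hg : IsMetric g) {ι : Type*} [Fintype ι] {φ : ι → Chart M} {R : ℝ}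
    (hP : Pat g φ R) {τ : ℝ} (hτ : 0 < τ) :
    ∃ δ : ℝ, 0 < δ ∧ ∀ i z, ‖z‖ ≤ δ → ∀ v, (1 - τ) * ‖v‖ ^ 2 ≤ trep (φ i) g z v v := by
  have key : ∀ i, ∀ᶠ z in 𝓝 (0 : E2), ∀ v, (1 - τ) * ‖v‖ ^ 2 ≤ trep (φ i) g z v v := by
    intro i
    have h0 : (0 : E2) ∈ (φ i).target := hP.sub i (mem_closedBall_self hP.pos.le)
    have hc := ((hg.1 _ (hP.ch i)).contDiffAt ((φ i).open_target.mem_nhds h0)).continuousAt
    filter_upwards [(tendsto_iff_norm_sub_tendsto_zero.1 hc).eventually (ge_mem_nhds hτ)]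
      with z hz v
    have h1 := (trep (φ i) g z - trep (φ i) g 0).le_opNorm₂ v v
    rw [sub_apply, sub_apply, hP.nor, real_inner_self_eq_norm_sq, Real.norm_eq_abs] at h1
    have h2 := (abs_le.1 h1).1
    have h3 : ‖trep (φ i) g z - trep (φ i) g 0‖ * ‖v‖ * ‖v‖ ≤ τ * ‖v‖ * ‖v‖ := by
      gcongr
    nlinarith
  obtain ⟨δ, hδ, h1⟩ := Metric.eventually_nhds_iff.1 (eventually_all.2 key)
  refine ⟨δ / 2, by positivity, fun i z hz v => h1 ?_ i v⟩
  rw [dist_zero_right]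
  linarith

theorem stepI {g : M → Bil} (hg : IsMetric g) {ι : Type*} [Fintype ι] {φ : ι → Chart M} {R : ℝ}
    (hP : Pat g φ R) {F : M → E4} {h : M → ℝ} (hF : Sm F) (hh : Sm h) (hG : Good2 F h univ)
    (hG0 : Good2 F (fun _ => 0) (discs φ R))
    (hE : ∀ i z, ‖z‖ ≤ R → ∀ v, trep (φ i) (pull F) z v v = ‖v‖ ^ 2) :
    ∃ F' : M → E4, Sm F' ∧ Good2 F' h univ ∧ (∀ p v, pull F' p v v ≤ g p v v) ∧
      ∀ i, ∀ᶠ q in 𝓝 ((φ i).symm 0), pull F' q = g q := by
  have hR := hP.pos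
  obtain ⟨ρ, hρ, hρR, hψ⟩ := exists_psi hR
  obtain ⟨τ, C, hτ0, hτ1, hC, hA⟩ := stepIA hg hP hF hh hG hG0 hE hρ hρR
  obtain ⟨c, hc, hlow⟩ : ∃ c : ℝ, 0 < c ∧ ∀ i, ∀ z ∈ closedBall (0 : E2) R, ∀ v,
      c * ‖v‖ ^ 2 ≤ trep (φ i) g z v v := by
    have key : ∀ i, ∀ᶠ c in 𝓝[>] (0 : ℝ), ∀ z ∈ closedBall (0 : E2) R, ∀ v,
        c * ‖v‖ ^ 2 ≤ trep (φ i) g z v v := fun i => by
      obtain ⟨c, hc, h1⟩ := hg.lower (hP.ch i) (isCompact_closedBall 0 R) (hP.sub i)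
      filter_upwards [Ioo_mem_nhdsGT hc] with c' hc' z hz v
      exact (mul_le_mul_of_nonneg_right hc'.2.le (sq_nonneg _)).trans (h1 z hz v)
    obtain ⟨c, h1, h2⟩ := ((eventually_all.2 key).and self_mem_nhdsWithin).exists
    exact ⟨c, h2, h1⟩
  obtain ⟨L, hL, hψ'⟩ := hψ √(c / 2) (Real.sqrt_pos.2 (by positivity))
  obtain ⟨δ, hδ, hnear⟩ := near_euc hg hP (τ := τ / 2) (by positivity)
  have hm : (0 : ℝ) < min (min 1 C⁻¹) (δ / L) := by positivity
  obtain ⟨ε, ⟨F2, a1, a2, a3, a4, a5⟩, ⟨ψ, b1, b2, b3, b4, b5, b6, b7⟩, hε, hεm⟩ :=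
    (hA.and (hψ'.and (Ioo_mem_nhdsGT hm))).exists
  have hε1 : ε ≤ 1 := hεm.le.trans ((min_le_left _ _).trans (min_le_left _ _))
  have hεC : ε * C ≤ 1 := by
    have : ε ≤ C⁻¹ := hεm.le.trans ((min_le_left _ _).trans (min_le_right _ _))
    calc ε * C ≤ C⁻¹ * C := by gcongr
      _ = 1 := inv_mul_cancel₀ hC.ne'
  have hεL : ε * L ≤ δ := (le_div_iff₀ hL).1 (hεm.le.trans (min_le_right _ _))
  obtain ⟨F', c1, c2, c3, c4⟩ := reparam hP a1 hh a2 a3 b1 b2 b3 b4 hε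
  have hscale : ∀ (T : Bil) (v : E2), ε ^ 2 * T (ε⁻¹ • v) (ε⁻¹ • v) = T v v := fun T v => by
    simp only [map_smul, smul_apply, smul_eq_mul]
    field_simp
  have hnorm : ∀ z : E2, ‖ε⁻¹ • z‖ = ‖z‖ / ε := fun z => by
    rw [norm_smul, norm_inv, Real.norm_of_nonneg hε.le, inv_mul_eq_div]
  have hin : ∀ i z, ‖z‖ < 2 * ε * ρ → ∀ v, trep (φ i) (pull F') z v v =
      trep (φ i) (pull F2) (ε⁻¹ • z) v v := fun i z hz v => by
    rw [c3 i z (by nlinarith) v, (b5 z hz).1, (b5 z hz).2, hscale]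
  refine ⟨F', c1, c2, fun p v => ?_, fun i => ?_⟩
  · by_cases hp : p ∈ discs φ (R / 2)
    · obtain ⟨i, hi⟩ := mem_iUnion.1 hp
      obtain ⟨hs, hz⟩ := (mem_disc ((hP.mono (by positivity) (by linarith)).sub i)).1 hi
      refine le_of_trep (hP.ch i) hs (fun v => ?_) v
      set z := φ i p
      have hzR : ‖z‖ < R := by linarith
      by_cases h1 : ‖z‖ < 2 * ε * ρ
      · rw [hin i z h1]
        have := (a5 i (ε⁻¹ • z) v).2.1 (by
          rw [hnorm, div_le_iff₀ hε]; linarith)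
        rwa [smul_inv_smul₀ hε.ne'] at this
      · rw [c3 i z hzR]
        have hw : ε ^ 2 * ‖fderiv ℝ ψ z v‖ ^ 2 = (ε * ‖fderiv ℝ ψ z v‖) ^ 2 := by ring
        by_cases h2 : ‖z‖ ≤ ε * L
        · obtain ⟨d1, d2⟩ := b6 z (not_lt.1 h1) h2
          have d3 := (a5 i (ψ z) (fderiv ℝ ψ z v)).2.2.1 d1 (b3 z hzR).le
          have d4 : (ε * ‖fderiv ℝ ψ z v‖) ^ 2 ≤ ‖v‖ ^ 2 :=
            pow_le_pow_left₀ (by positivity) (d2 v) 2
          refine le_trans ?_ (hnear i z (h2.trans hεL) v)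
          calc _ ≤ ε ^ 2 * ((1 - τ / 2) * ‖fderiv ℝ ψ z v‖ ^ 2) := by gcongr
            _ = (1 - τ / 2) * (ε * ‖fderiv ℝ ψ z v‖) ^ 2 := by ring
            _ ≤ _ := mul_le_mul_of_nonneg_left d4 (by linarith)
        · have d2 := b7 z (not_le.1 h2).le v
          have d3 := (a5 i (ψ z) (fderiv ℝ ψ z v)).2.2.2 (b3 z hzR).le
          have d4 : (ε * ‖fderiv ℝ ψ z v‖) ^ 2 ≤ (√(c / 2) * ‖v‖) ^ 2 :=
            pow_le_pow_left₀ (by positivity) d2 2
          rw [mul_pow √(c / 2), Real.sq_sqrt (by positivity)] at d4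
          refine le_trans ?_ (hlow i z (mem_closedBall_zero_iff.2 hzR.le) v)
          calc _ ≤ ε ^ 2 * (2 * ‖fderiv ℝ ψ z v‖ ^ 2) := by gcongr
            _ = 2 * (ε * ‖fderiv ℝ ψ z v‖) ^ 2 := by ring
            _ ≤ _ := by linarith
    · rw [c4 p hp, smul_apply, smul_apply, smul_eq_mul]
      have d1 : 0 ≤ g p v v := by
        by_cases hv : v = 0
        · simp [hv]
        · exact (hg.2.2 p v hv).le
      calc ε ^ 2 * pull F2 p v v ≤ ε ^ 2 * (C * g p v v) := by gcongr; exact a4 p v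
        _ = ε * (ε * C) * g p v v := by ring
        _ ≤ 1 * 1 * g p v v := by gcongr
        _ = _ := by ring
  · have h0 : (0 : E2) ∈ (φ i).target := hP.sub i (mem_closedBall_self hP.pos.le)
    have hs := (φ i).map_target h0
    have e1 : ∀ᶠ q in 𝓝 ((φ i).symm 0), φ i q ∈ ball (0 : E2) (ε * ρ / 2) := by
      refine ((φ i).continuousAt hs).eventually ?_
      rw [(φ i).right_inv h0]
      exact ball_mem_nhds _ (by positivity)
    filter_upwards [e1, (φ i).open_source.mem_nhds hs] with q h1 h2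
    rw [mem_ball_zero_iff] at h1
    have hd : ∀ v, pull F' q v v = g q v v := fun v => by
      rw [apply_eq_trep (hP.ch i) _ h2, apply_eq_trep (hP.ch i) g h2,
        hin i _ (by nlinarith [mul_pos hε hρ]), (a5 i _ _).1 (by
          rw [hnorm, div_le_iff₀ hε]; linarith), smul_inv_smul₀ hε.ne']
    exact congrFun (eq_of_diag (M := M) (S := fun _ => pull F' q) (T := fun _ => g q)
      (fun _ => symT_pull F' q) (fun _ => hg.2.1 q) fun _ => hd) q

end Vale.Agent.P205.G
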