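import Vale.Agent.P205.G.StepIIA

/-!
G/StepII: closing the gap. Helper lemma names end in _StepII.
chart_step: P from exists_ext for trep φ D on closedBall 0 1 (symmetric, positive: dS is injective by dM_dS), dec, m from div_wt, stepH_sum with
ε = η m, E = wt² A / r² - e, div_wt, HCh.half, stepK in the half chart. Final identity pointwise: pushT_smul_trep (wt z ≠ 0 gives ‖z‖ < 1),
HCh.pushT_dxx, additivity of push and pushT (unfold, split_ifs), (2 : ℝ) • (2 : ℝ)⁻¹ • z = z.
stepII: σ = g - pull F, K = closure {p | σ p ≠ 0} compact without critical points; exists_hcover with U = univ, ρ = 4;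
vH = ∑ push wt ^ 2 > 0 on K, vK = ∑ push (wt (2⁻¹ •)) ^ 2 (sm_push; supports in closedBall 0 1, closedBall 0 2); θ smooth, 0 on K, 1 on {vH = 0}
(exists_contMDiffMap_zero_one_of_isClosed), u = (vH + θ)⁻¹, vH * u • σ = σ everywhere. perturb_dir with S = ∅, T = vH • g + vK • pull h gives η, F2.
D = u • σ + η • g is a metric; charts_step; add up.
-/

open scoped Manifold ContDiff Topology RealInnerProductSpace
open Set Filter Metric Function

noncomputable section

namespace Vale.Agent.P205.G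

variable {M : Type*} [TopologicalSpace M] [ChartedSpace E2 M] [IsManifold I2 ∞ M]
  [T2Space M] [CompactSpace M]

omit [CompactSpace M] in
theorem sm_sum_StepII (s : Finset (ℝ × Chart M)) {U : E2 → ℝ} (hU : ContDiff ℝ ∞ U) {ρ : ℝ}
    (hs : ∀ c ∈ s, IsCh c.2 ∧ closedBall 0 ρ ⊆ c.2.target) (h0 : ∀ z, ρ ≤ ‖z‖ → U z = 0) :
    Sm (fun p => ∑ c ∈ s, push c.2 U p ^ 2) := by
  refine contMDiff_finsetSum fun c hc => ?_
  have h : Sm (push c.2 U) := sm_push (hs c hc).1 hU.contDiffOn (isCompact_closedBall 0 ρ)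
    (hs c hc).2 fun z hz => by
      rw [mem_closedBall_zero_iff]
      by_contra h
      exact hz (h0 z (not_le.1 h).le)
  exact ContMDiff.pow h 2

theorem stepII {g : M → Bil} (hg : IsMetric g) {F : M → E4} {h : M → ℝ} (hF : Sm F) (hh : Sm h)
    (hG : Good2 F h univ) (hle : ∀ p v, pull F p v v ≤ g p v v)
    (hcr : ∀ p, dM h p = 0 → ∀ᶠ q in 𝓝 p, pull F q = g q) :
    ∃ F' : M → E4, Sm F' ∧ pull F' = g := by
  set σ : M → Bil := fun p => g p - pull F p with hσ
  have hσs : SmT σ := hg.1.sub hF.smT_pull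
  set K : Set M := closure {p | σ p ≠ 0} with hK
  have hKc : IsCompact K := isClosed_closure.isCompact
  have hKcr : ∀ q ∈ K, dM h q ≠ 0 := fun q hq h0 => by
    obtain ⟨p, hp1, hp2⟩ := (mem_closure_iff_frequently.1 hq).and_eventually (hcr q h0) |>.exists
    exact hp1 (sub_eq_zero.2 hp2.symm)
  obtain ⟨s, hs, hcov⟩ := exists_hcover hh hKc hKcr isOpen_univ (subset_univ _) 4
  set vH : M → ℝ := fun p => ∑ c ∈ s, push c.2 wt p ^ 2 with hvH
  set vK : M → ℝ := fun p => ∑ c ∈ s, push c.2 (fun z => wt ((2 : ℝ)⁻¹ • z)) p ^ 2 with hvK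
  have hHs : Sm vH := sm_sum_StepII s contDiff_wt (ρ := 1)
    (fun c hc => ⟨(hs c hc).1.ch, ((hs c hc).1.mono (by norm_num)).sub⟩) fun z hz => wt_zero hz
  have hKs : Sm vK := sm_sum_StepII s (contDiff_wt.comp (contDiff_const_smul _)) (ρ := 2)
    (fun c hc => ⟨(hs c hc).1.ch, ((hs c hc).1.mono (by norm_num)).sub⟩) fun z hz => wt_zero (by
      rw [norm_smul, norm_inv, Real.norm_of_nonneg (by norm_num : (0 : ℝ) ≤ 2)]
      linarith)
  have hH0 : ∀ p, 0 ≤ vH p := fun p => Finset.sum_nonneg fun c _ => sq_nonneg _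
  have hHK : ∀ p ∈ K, 0 < vH p := fun p hp => by
    obtain ⟨c, hc, h1, h2⟩ := hcov p hp
    refine Finset.sum_pos' (fun c _ => sq_nonneg _) ⟨c, hc, pow_pos ?_ 2⟩
    rw [push, if_pos h1]
    exact wt_pos h2
  obtain ⟨θ, hθ0, hθ1, hθ⟩ := exists_contMDiffMap_zero_one_of_isClosed (n := ⊤) I2
    (s := K) (t := {p | vH p = 0}) isClosed_closure
    (isClosed_eq (ContMDiff.continuous hHs) continuous_const)
    (disjoint_left.2 fun p hp h0 => (hHK p hp).ne' h0)
  have hpos : ∀ p, 0 < vH p + θ p := fun p => by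
    rcases (hH0 p).lt_or_eq with h1 | h1
    · linarith [(hθ p).1]
    · have h2 : θ p = 1 := hθ1 h1.symm
      linarith
  set u : M → ℝ := fun p => (vH p + θ p)⁻¹ with hu
  have hus : Sm u := ContMDiff.inv₀ (ContMDiff.add hHs θ.contMDiff) fun p => (hpos p).ne'
  have hkey : ∀ p, (vH p * u p) • σ p = σ p := fun p => by
    by_cases hp : p ∈ K
    · have h2 : θ p = 0 := hθ0 hp
      have h3 : vH p * u p = 1 := by
        simp only [hu, h2, add_zero]
        exact mul_inv_cancel₀ (hHK p hp).ne'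
      rw [h3, one_smul]
    · have h2 : σ p = 0 := by
        by_contra h3
        exact hp (subset_closure h3)
      rw [h2]
      ext v w <;> simp
  have hT : SmT fun p => vH p • g p + vK p • pull h p :=
    (SmT.smul hHs hg.1).add (SmT.smul hKs hh.smT_pull)
  have hT' : SymT fun p => vH p • g p + vK p • pull h p := fun p v w => by
    simp only [add_apply, smul_apply, hg.2.1 p v w,
      symT_pull h p v w]
  obtain ⟨η, ⟨F2, hF2, hG2, -, hp2⟩, hη⟩ := ((perturb_dir hF hh isClosed_empty hG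
    (fun φ _ z _ hz => hz.elim) hT hT').and self_mem_nhdsWithin).exists
  have hη' : 0 < η := hη
  have hD : IsMetric fun p => u p • σ p + η • g p := by
    refine ⟨(SmT.smul hus hσs).add (SmT.smul (sm_const η) hg.1), fun p v w => ?_, fun p v hv => ?_⟩
    · simp only [hσ, add_apply, smul_apply,
        sub_apply, hg.2.1 p v w, symT_pull F p v w]
    · have h1 := hg.2.2 p v hv
      have h2 := hle p v
      have h3 : 0 < u p := inv_pos.2 (hpos p)
      simp only [hσ, add_apply, smul_apply,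
        sub_apply, smul_eq_mul]
      nlinarith [mul_nonneg h3.le (sub_nonneg.2 h2), mul_pos hη' h1]
  obtain ⟨F', hF', -, hp'⟩ := charts_step hF2 hh hG2 s (fun c hc => (hs c hc).1) hD hη'
  refine ⟨F', hF', funext fun p => ?_⟩
  have e1 : pull F' p = pull F2 p + (vH p • (u p • σ p + η • g p) + (η * vK p) • pull h p) :=
    congrFun hp' p
  have e2 : pull F2 p = pull F p - η • (vH p • g p + vK p • pull h p) := congrFun hp2 p
  refine ContinuousLinearMap.ext fun v => ContinuousLinearMap.ext fun w => ?_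
  have e3 : ((vH p * u p) • σ p) v w = σ p v w := by rw [hkey p]
  rw [e1, e2]
  simp only [hσ, add_apply, smul_apply, sub_apply, smul_eq_mul] at e3 ⊢
  linear_combination e3

end Vale.Agent.P205.G
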