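import Vale.Agent.P205.G.Crit
import Vale.Agent.P205.G.Hprin
import Vale.Agent.P205.G.StepI
import Vale.Agent.P205.G.StepII

/-!
Part G (global assembly). Statement FROZEN. See notes/P205.md.
-/

open scoped Manifold ContDiff Topology RealInnerProductSpace
open Set Filter Metric Function

noncomputable section

namespace Vale.Agent.P205

variable {M : Type*} [TopologicalSpace M] [ChartedSpace E2 M] [IsManifold I2 ∞ M]
  [T2Space M] [CompactSpace M]

theorem glob {g : M → Bil} (hg : IsMetric g) {f ν : M → E4} (hf : Sm f) (hν : Sm ν)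
    (hI : ∀ p, Ind (dM f p) (ν p)) : ∃ F : M → E4, Sm F ∧ pull F = g := by
  obtain ⟨h, hh, hfin⟩ := G.exists_crit hf hν hI
  obtain ⟨φ, r, hP, hc⟩ := G.exists_pat hg hfin
  have := hfin.fintype
  have hcr : ∀ p, dM h p = 0 → ∃ i, (φ i).symm 0 = p := fun p hp => ⟨⟨p, hp⟩, hc _⟩
  obtain ⟨R, F1, hR, hRr, h1, h2, h3, h4⟩ := G.start hP hf hν hh hI hcr
  obtain ⟨F2, k1, k2, k3, k4⟩ := G.stepI hg (hP.mono hR hRr) h1 hh h2 h3 h4
  refine G.stepII hg k1 hh k2 k3 fun p hp => ?_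
  obtain ⟨i, rfl⟩ := hcr p hp
  exact k4 i

end Vale.Agent.P205
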