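import Vale.Agent.P205.G.Lin
import Vale.Agent.P205.G.Kh

/-!
G/PatchA: make the differential at the origin isometric. Helper lemma names end in _PatchA.
A = fderiv F 0, exists_gs. For (s, t) ∈ [0,1]² let A s t = A + s • (proj 0).smulRight (o1 - A ex) + t • (proj 1).smulRight (o2 - A ey);
Ind (A s t) (N 0) (triangular with positive diagonal: pair with o3, o2, o1), so IndQ κ uniformly (exists_indQ_compact on Icc ×ˢ Icc).
r1 ≤ r / 2 with ‖fderiv F z - A‖, ‖N z - N 0‖ ≤ κ / 4 on closedBall 0 r1; β bump (rIn r1 / 2, rOut r1), ‖fderiv β‖ ≤ D; k, B from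
exists_k1, kρ x = ρ k (x / ρ). U z = β z • (kρ (z 0) • (o1 - A ex) + kρ (z 1) • (o2 - A ey)),
fderiv (F + U) z = A (β k') (β k') + (fderiv F z - A) + (fderiv β z).smulRight (..), the last term is at most
D ρ B (‖o1 - A ex‖ + ‖o2 - A ey‖) ≤ κ / 4 for small ρ; IndQ.perturb. Off closedBall 0 r1, U vanishes nearby.
-/

open scoped Manifold ContDiff Topology RealInnerProductSpace
open Set Filter Metric Function

noncomputable section

namespace Vale.Agent.P205.G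

theorem orth_PatchA {o1 o2 o3 : E4} (h1 : ‖o1‖ = 1) (h2 : ‖o2‖ = 1) (h3 : ‖o3‖ = 1)
    (h12 : ⟪o1, o2⟫ = 0) (h13 : ⟪o1, o3⟫ = 0) (h23 : ⟪o2, o3⟫ = 0) (x y z : ℝ) :
    ⟪x • o1 + y • o2 + z • o3, o1⟫ = x ∧ ⟪x • o1 + y • o2 + z • o3, o2⟫ = y ∧
      ⟪x • o1 + y • o2 + z • o3, o3⟫ = z := by
  have h21 : ⟪o2, o1⟫ = 0 := by rw [real_inner_comm, h12]
  have h31 : ⟪o3, o1⟫ = 0 := by rw [real_inner_comm, h13]
  have h32 : ⟪o3, o2⟫ = 0 := by rw [real_inner_comm, h23]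
  simp only [inner_add_left, real_inner_smul_left, real_inner_self_eq_norm_sq, h1, h2, h3, h12, h13,
    h23, h21, h31, h32]
  norm_num

/-- The interpolating linear maps. -/
def lin_PatchA (d1 d2 : E4) (s t : ℝ) : E2 →L[ℝ] E4 :=
  s • (EuclideanSpace.proj (0 : Fin 2) : E2 →L[ℝ] ℝ).smulRight d1 +
    t • (EuclideanSpace.proj (1 : Fin 2) : E2 →L[ℝ] ℝ).smulRight d2

theorem app_PatchA (d1 d2 : E4) (s t : ℝ) (ξ : E2) :
    lin_PatchA d1 d2 s t ξ = (s * ξ 0) • d1 + (t * ξ 1) • d2 := by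
  simp [lin_PatchA, smul_smul]

theorem ind_PatchA {A : E2 →L[ℝ] E4} {c o1 o2 o3 : E4} {a11 a12 a22 c1 c2 c3 : ℝ}
    (h1 : ‖o1‖ = 1) (h2 : ‖o2‖ = 1) (h3 : ‖o3‖ = 1) (h12 : ⟪o1, o2⟫ = 0) (h13 : ⟪o1, o3⟫ = 0)
    (h23 : ⟪o2, o3⟫ = 0) (p1 : 0 < a11) (p2 : 0 < a22) (p3 : 0 < c3) (e1 : A ex = a11 • o1)
    (e2 : A ey = a12 • o1 + a22 • o2) (e3 : c = c1 • o1 + c2 • o2 + c3 • o3) {s t : ℝ}
    (hs : s ∈ Icc (0 : ℝ) 1) (ht : t ∈ Icc (0 : ℝ) 1) :
    Ind (A + lin_PatchA (o1 - A ex) (o2 - A ey) s t) c := by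
  intro ξ τ h
  have e : (A + lin_PatchA (o1 - A ex) (o2 - A ey) s t) ξ + τ • c =
      (ξ 0 * (a11 * (1 - s) + s) + ξ 1 * a12 * (1 - t) + τ * c1) • o1 +
        (ξ 1 * (a22 * (1 - t) + t) + τ * c2) • o2 + (τ * c3) • o3 := by
    have hA : A ξ = ξ 0 • A ex + ξ 1 • A ey := by
      conv_lhs => rw [eq_ex_ey ξ, map_add, map_smul, map_smul]
    rw [add_apply, app_PatchA, hA, e1, e2, e3]
    module
  obtain ⟨k1, k2, k3⟩ := orth_PatchA h1 h2 h3 h12 h13 h23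
    (ξ 0 * (a11 * (1 - s) + s) + ξ 1 * a12 * (1 - t) + τ * c1)
    (ξ 1 * (a22 * (1 - t) + t) + τ * c2) (τ * c3)
  rw [← e, h, inner_zero_left] at k1 k2 k3
  have pos : ∀ {a u : ℝ}, 0 < a → u ∈ Icc (0 : ℝ) 1 → 0 < a * (1 - u) + u := fun {a u} ha hu => by
    rcases hu.1.eq_or_lt with h | h
    · rw [← h]; simpa using ha
    · have := mul_nonneg ha.le (sub_nonneg.2 hu.2)
      linarith
  have t0 : τ = 0 := (mul_eq_zero.1 k3.symm).resolve_right p3.ne'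
  rw [t0, zero_mul, add_zero] at k1 k2
  have x1 : ξ 1 = 0 := (mul_eq_zero.1 k2.symm).resolve_right (pos p2 ht).ne'
  rw [x1, zero_mul, zero_mul, add_zero] at k1
  have x0 : ξ 0 = 0 := (mul_eq_zero.1 k1.symm).resolve_right (pos p1 hs).ne'
  refine ⟨?_, t0⟩
  rw [eq_ex_ey ξ, x0, x1, zero_smul, zero_smul, add_zero]

theorem k_PatchA {ε : ℝ} (hε : 0 < ε) : ∃ k : ℝ → ℝ, ContDiff ℝ ∞ k ∧ (∀ x, |k x| ≤ ε) ∧
    (∀ x, deriv k x ∈ Icc (0 : ℝ) 1) ∧ k 0 = 0 ∧ deriv k 0 = 1 := by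
  obtain ⟨k, B, hk, hB, h2, hb, hd⟩ := exists_k1
  have hρ : 0 < ε / B := div_pos hε hB
  have hder : ∀ x, deriv (fun x => ε / B * k (x / (ε / B))) x = deriv k (x / (ε / B)) := fun x => by
    have a1 := ((hk.differentiable (by simp) (x / (ε / B))).hasDerivAt.comp x
      ((hasDerivAt_id x).div_const (ε / B))).const_mul (ε / B)
    have a2 : deriv (fun x => ε / B * k (x / (ε / B))) x = _ := a1.deriv
    rw [a2]
    field_simp
  refine ⟨fun x => ε / B * k (x / (ε / B)), contDiff_const.mul (hk.comp (contDiff_id.div_const _)),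
    fun x => ?_, fun x => ?_, ?_, ?_⟩
  · rw [abs_mul, abs_of_pos hρ]
    exact (mul_le_mul_of_nonneg_left (hb _) hρ.le).trans_eq (div_mul_cancel₀ _ hB.ne')
  · rw [hder]
    exact hd _
  · simp [h2 0 (by simp)]
  · rw [hder, zero_div]
    have : k =ᶠ[𝓝 0] fun x => x := by
      filter_upwards [closedBall_mem_nhds (0 : ℝ) two_pos] with x hx
      exact h2 x (by simpa using hx)
    rw [this.deriv_eq]
    simp

theorem der_PatchA {k : ℝ → ℝ} (hk : ContDiff ℝ ∞ k) (d1 d2 : E4) (z : E2) :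
    HasFDerivAt (fun z : E2 => k (z 0) • d1 + k (z 1) • d2)
      (lin_PatchA d1 d2 (deriv k (z 0)) (deriv k (z 1))) z := by
  have a : ∀ i : Fin 2, HasFDerivAt (fun z : E2 => k (z i))
      (deriv k (z i) • (EuclideanSpace.proj i : E2 →L[ℝ] ℝ)) z := fun i =>
    (hk.differentiable (by simp) (z i)).hasDerivAt.comp_hasFDerivAt z
      (EuclideanSpace.proj i : E2 →L[ℝ] ℝ).hasFDerivAt
  refine (((a 0).smul_const d1).add ((a 1).smul_const d2)).congr_fderiv ?_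
  ext1 ξ
  simp [app_PatchA]

theorem patchA {F N : E2 → E4} (hF : ContDiff ℝ ∞ F) (hN : Continuous N)
    (hI : Ind (fderiv ℝ F 0) (N 0)) {r : ℝ} (hr : 0 < r) :
    ∃ (U : E2 → E4) (o1 o2 o3 : E4), ‖o1‖ = 1 ∧ ‖o2‖ = 1 ∧ ‖o3‖ = 1 ∧ ⟪o1, o2⟫ = 0 ∧
      ⟪o1, o3⟫ = 0 ∧ ⟪o2, o3⟫ = 0 ∧ 0 < ⟪N 0, o3⟫ ∧ ContDiff ℝ ∞ U ∧ support U ⊆ ball 0 r ∧
      (∀ z, Ind (fderiv ℝ F z) (N z) → Ind (fderiv ℝ (F + U) z) (N z)) ∧
      fderiv ℝ (F + U) 0 ex = o1 ∧ fderiv ℝ (F + U) 0 ey = o2 := by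
  obtain ⟨o1, o2, o3, a11, a12, a22, c1, c2, c3, h1, h2, h3, h12, h13, h23, p1, p2, p3, e1, e2,
    e3⟩ := exists_gs hI
  have hc3 : 0 < ⟪N 0, o3⟫ := by
    rw [e3, (orth_PatchA h1 h2 h3 h12 h13 h23 c1 c2 c3).2.2]
    exact p3
  have hind := fun s t => ind_PatchA h1 h2 h3 h12 h13 h23 p1 p2 p3 e1 e2 e3 (s := s) (t := t)
  generalize hd1 : o1 - fderiv ℝ F 0 ex = d1 at hind
  generalize hd2 : o2 - fderiv ℝ F 0 ey = d2 at hind
  obtain ⟨κ, hκ, hQ⟩ := exists_indQ_compact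
    ((isCompact_Icc (a := (0 : ℝ)) (b := 1)).prod (isCompact_Icc (a := (0 : ℝ)) (b := 1)))
    (A := fun q => fderiv ℝ F 0 + lin_PatchA d1 d2 q.1 q.2) (c := fun _ => N 0)
    (Continuous.continuousOn (by unfold lin_PatchA; fun_prop)) continuousOn_const
    (fun q hq => hind q.1 q.2 hq.1 hq.2)
  have hnear : ∀ᶠ z in 𝓝 (0 : E2), ‖fderiv ℝ F z - fderiv ℝ F 0‖ ≤ κ / 4 ∧ ‖N z - N 0‖ ≤ κ / 2 := by
    have b1 := (hF.continuous_fderiv (by simp)).continuousAt (x := 0)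
      (closedBall_mem_nhds _ (by positivity : 0 < κ / 4))
    have b2 := hN.continuousAt (x := 0) (closedBall_mem_nhds _ (by positivity : 0 < κ / 2))
    filter_upwards [b1, b2] with z z1 z2
    exact ⟨mem_closedBall_iff_norm.1 z1, mem_closedBall_iff_norm.1 z2⟩
  obtain ⟨r0, hr0, hb0⟩ := nhds_basis_closedBall.eventually_iff.1 hnear
  have hr1 : 0 < min r0 r := lt_min hr0 hr
  let β : ContDiffBump (0 : E2) := ⟨min r0 r / 2, min r0 r, by positivity, by linarith⟩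
  have hβ : ContDiff ℝ ∞ β := β.contDiff
  obtain ⟨D, hD⟩ := (hβ.continuous_fderiv (by simp)).bounded_above_of_compact_support
    (β.hasCompactSupport.fderiv ℝ)
  have hD0 : 0 ≤ D := (norm_nonneg _).trans (hD 0)
  have hS : 0 < (D + 1) * (‖d1‖ + ‖d2‖ + 1) := by positivity
  obtain ⟨k, hk, kb, kd, k0, k1⟩ := k_PatchA (ε := κ / 4 / ((D + 1) * (‖d1‖ + ‖d2‖ + 1)))
    (by positivity)
  have hpr : ∀ i : Fin 2, ContDiff ℝ ∞ fun z : E2 => k (z i) := fun i =>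
    hk.comp (EuclideanSpace.proj i : E2 →L[ℝ] ℝ).contDiff
  have hder : ∀ z, fderiv ℝ (F + fun z => β z • (k (z 0) • d1 + k (z 1) • d2)) z =
      fderiv ℝ F z + (lin_PatchA d1 d2 (β z * deriv k (z 0)) (β z * deriv k (z 1)) +
        (fderiv ℝ β z).smulRight (k (z 0) • d1 + k (z 1) • d2)) := fun z => by
    have a1 := (hF.differentiable (by simp) z).hasFDerivAt.add
      ((hβ.differentiable (by simp) z).hasFDerivAt.smul (der_PatchA hk d1 d2 z))
    refine a1.fderiv.trans ?_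
    congr 2
    ext1 ξ
    simp only [smul_apply, app_PatchA, smul_add, smul_smul, mul_assoc]
  refine ⟨fun z => β z • (k (z 0) • d1 + k (z 1) • d2), o1, o2, o3, h1, h2, h3, h12, h13, h23, hc3,
    hβ.smul (((hpr 0).smul contDiff_const).add ((hpr 1).smul contDiff_const)), fun z hz => ?_,
    fun z hz => ?_, ?_, ?_⟩
  · have : z ∈ support β := fun h0 => hz (by simp only [h0, zero_smul])
    rw [β.support_eq] at this
    exact ball_subset_ball (min_le_right _ _) this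
  · rw [hder]
    by_cases hzb : z ∈ closedBall (0 : E2) (min r0 r)
    · obtain ⟨n1, n2⟩ := hb0 (closedBall_subset_closedBall (min_le_left _ _) hzb)
      have mem : ∀ x, β z * deriv k x ∈ Icc (0 : ℝ) 1 := fun x =>
        ⟨mul_nonneg β.nonneg (kd x).1, mul_le_one₀ β.le_one (kd x).1 (kd x).2⟩
      refine ((hQ (β z * deriv k (z 0), β z * deriv k (z 1)) ⟨mem _, mem _⟩).perturb
        (ε := κ / 2) ?_ n2).ind (by linarith)
      have n3 : ‖(fderiv ℝ β z).smulRight (k (z 0) • d1 + k (z 1) • d2)‖ ≤ κ / 4 := by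
        rw [ContinuousLinearMap.norm_smulRight_apply]
        have n4 : ‖k (z 0) • d1 + k (z 1) • d2‖ ≤
            κ / 4 / ((D + 1) * (‖d1‖ + ‖d2‖ + 1)) * (‖d1‖ + ‖d2‖ + 1) := by
          refine (norm_add_le _ _).trans ?_
          rw [norm_smul, norm_smul, mul_add, mul_add]
          refine le_add_of_le_of_nonneg (add_le_add ?_ ?_) (by positivity)
          · exact mul_le_mul_of_nonneg_right (kb _) (norm_nonneg _)
          · exact mul_le_mul_of_nonneg_right (kb _) (norm_nonneg _)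
        refine (mul_le_mul ((hD z).trans (le_add_of_nonneg_right zero_le_one)) n4 (norm_nonneg _)
          (by positivity)).trans (le_of_eq ?_)
        field_simp
      have e : fderiv ℝ F z + (lin_PatchA d1 d2 (β z * deriv k (z 0)) (β z * deriv k (z 1)) +
          (fderiv ℝ β z).smulRight (k (z 0) • d1 + k (z 1) • d2)) -
          (fderiv ℝ F 0 + lin_PatchA d1 d2 (β z * deriv k (z 0)) (β z * deriv k (z 1))) =
          (fderiv ℝ F z - fderiv ℝ F 0) +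
            (fderiv ℝ β z).smulRight (k (z 0) • d1 + k (z 1) • d2) := by abel
      rw [e]
      exact (norm_add_le _ _).trans (by linarith)
    · have hz' : z ∉ tsupport β := by rwa [β.tsupport_eq]
      have e : lin_PatchA d1 d2 (β z * deriv k (z 0)) (β z * deriv k (z 1)) +
          (fderiv ℝ β z).smulRight (k (z 0) • d1 + k (z 1) • d2) = 0 := by
        rw [image_eq_zero_of_notMem_tsupport hz', fderiv_of_notMem_tsupport ℝ hz']
        ext1 ξ
        simp [app_PatchA]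
      rwa [e, add_zero]
  · have b0 : β 0 = 1 := β.one_of_mem_closedBall (mem_closedBall_self β.rIn_pos.le)
    rw [hder, sub_eq_iff_eq_add.1 hd1]
    simp [app_PatchA, b0, k0, k1, ex, add_comm]
  · have b0 : β 0 = 1 := β.one_of_mem_closedBall (mem_closedBall_self β.rIn_pos.le)
    rw [hder, sub_eq_iff_eq_add.1 hd2]
    simp [app_PatchA, b0, k0, k1, ey, add_comm]

end Vale.Agent.P205.G
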