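import Vale.Agent.P205.G.PatchA
import Vale.Agent.P205.G.Clif
import Vale.Agent.P205.G.Ext

/-!
G/PatchB0 (first part of G/PatchB): the Clifford patch in the plane and on M. Helper lemma names end in _PatchB0.
patchB: F1 = F + U1 from patchA, G from exists_clif, E z = G z - G 0 + F1 0 - F1 z has E 0 = 0 and fderiv E 0 = 0 (eq_ex_ey).
IndQ κ (fderiv F1 0) (N 0); on a small closed ball (radius r1 < r) fderiv F1 and N are κ / 4 close to their values at 0; small_cut with ε = κ / 4 and r1;
U = U1 + β • E. For ‖z‖ < r1 use IndQ.perturb, for other z the support of β lies in ball 0 r1: take small_cut at radius r1 / 2 so that β • E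
vanishes near z. On ball 0 R (R ≤ ρ, and ⟪N z, G z⟫ < 0 there by continuity) F + U = G + const near z; cn_of_normal with n = G z.
patch_glob: exists_ext for f ∘ symm and ν ∘ symm on closedBall 0 r, patchB at radius r / 2, F = f + ∑ push; add_sum_push_symm,
add_sum_push_off, ind_dM_iff, dM_congr, D2_congr; R = a common lower bound (Finite.exists_le or eventually in 𝓝[>] 0).
-/

open scoped Manifold ContDiff Topology RealInnerProductSpace
open Set Filter Metric Function

noncomputable section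

namespace Vale.Agent.P205.G

theorem patchB {F N : E2 → E4} (hF : ContDiff ℝ ∞ F) (hN : Continuous N)
    (hI : Ind (fderiv ℝ F 0) (N 0)) {r : ℝ} (hr : 0 < r) :
    ∃ (U : E2 → E4) (R : ℝ), ContDiff ℝ ∞ U ∧ support U ⊆ ball 0 r ∧
      (∀ z, Ind (fderiv ℝ F z) (N z) → Ind (fderiv ℝ (F + U) z) (N z)) ∧ 0 < R ∧
      ∀ z, ‖z‖ < R → (∀ v, ‖fderiv ℝ (F + U) z v‖ = ‖v‖) ∧
        ∀ v, v ≠ 0 → Cn (fderiv ℝ (F + U) z) (N z) (D2 (F + U) z v) := by
  obtain ⟨U1, o1, o2, o3, n1, n2, n3, h12, h13, h23, hN3, hU1, hs1, hI1, e1, e2⟩ :=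
    patchA hF hN hI hr
  obtain ⟨G, hG, g1, g2, g0, hG'⟩ := exists_clif n1 n2 n3 h12 h13 h23
  obtain ⟨F1, hF1e⟩ : ∃ F1, F1 = F + U1 := ⟨_, rfl⟩
  rw [← hF1e] at hI1 e1 e2
  have hF1 : ContDiff ℝ ∞ F1 := hF1e ▸ hF.add hU1
  have dG : Differentiable ℝ G := hG.differentiable (by simp)
  have dF1 : Differentiable ℝ F1 := hF1.differentiable (by simp)
  obtain ⟨E, hEe⟩ : ∃ E : E2 → E4, E = fun z => G z - F1 z + (F1 0 - G 0) := ⟨_, rfl⟩
  have hE : ContDiff ℝ ∞ E := hEe ▸ (hG.sub hF1).add contDiff_const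
  have hE0 : E 0 = 0 := by rw [hEe]; simp
  have hE1 : fderiv ℝ E 0 = 0 := by
    rw [hEe, fderiv_add_const, fderiv_fun_sub (dG 0) (dF1 0)]
    ext1 v
    rw [eq_ex_ey v]
    simp only [sub_apply, map_add, map_smul, g1, g2, e1, e2, sub_self,
      smul_zero, add_zero, zero_apply]
  obtain ⟨κ, hκ, hQ⟩ := (hI1 0 hI).exists_indQ
  have c1 : ∀ᶠ z in 𝓝 (0 : E2), ‖fderiv ℝ F1 z - fderiv ℝ F1 0‖ ≤ κ / 4 := by
    have hc : Continuous fun z => ‖fderiv ℝ F1 z - fderiv ℝ F1 0‖ :=
      ((hF1.continuous_fderiv (by simp)).sub continuous_const).norm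
    exact (hc.continuousAt.eventually_lt continuousAt_const (by simpa using hκ)).mono
      fun z hz => hz.le
  have c2 : ∀ᶠ z in 𝓝 (0 : E2), ‖N z - N 0‖ ≤ κ / 2 := by
    have hc : Continuous fun z => ‖N z - N 0‖ := (hN.sub continuous_const).norm
    exact (hc.continuousAt.eventually_lt continuousAt_const (by simpa using hκ)).mono
      fun z hz => hz.le
  have c3 : ∀ᶠ z in 𝓝 (0 : E2), ⟪N z, G z⟫ < 0 := by
    have hc : Continuous fun z => ⟪N z, G z⟫ := hN.inner hG.continuous
    refine hc.continuousAt.eventually_lt continuousAt_const ?_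
    rw [g0, inner_neg_right, real_inner_smul_right, neg_lt_zero]
    positivity
  obtain ⟨r1, hr1, hb⟩ := Metric.eventually_nhds_iff_ball.1 (c1.and (c2.and c3))
  have hr3 : 0 < min r r1 := lt_min hr hr1
  obtain ⟨β, ρ, hβ, hρ, hβ1, hβs, hβe⟩ := small_cut hE hE0 hE1 (ε := κ / 4) (r := min r r1 / 2)
    (by positivity) (by positivity)
  have hW : ContDiff ℝ ∞ fun x => β x • E x := hβ.smul hE
  have hsum : F + (U1 + fun x => β x • E x) = F1 + fun x => β x • E x := by
    rw [hF1e, add_assoc]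
  refine ⟨U1 + fun x => β x • E x, min ρ r1, hU1.add hW, ?_, ?_, lt_min hρ hr1, ?_⟩
  · refine (support_add _ _).trans (union_subset hs1 ?_)
    refine (support_smul_subset_left _ _).trans (hβs.trans (ball_subset_ball ?_))
    linarith [min_le_left r r1]
  · intro z hz
    rw [hsum]
    by_cases hz1 : ‖z‖ < min r r1
    · obtain ⟨b1, b2, -⟩ := hb z (mem_ball_zero_iff.2 (hz1.trans_le (min_le_right _ _)))
      refine (hQ.perturb (ε := κ / 2) ?_ b2).ind (by linarith)
      rw [fderiv_add (dF1 z) (hW.differentiable (by simp) z), add_sub_right_comm]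
      exact (norm_add_le _ _).trans (by linarith [hβe z])
    · have hev : (F1 + fun x => β x • E x) =ᶠ[𝓝 z] F1 := by
        have h1 : ∀ᶠ x in 𝓝 z, min r r1 / 2 < ‖x‖ :=
          continuousAt_const.eventually_lt continuous_norm.continuousAt (by linarith)
        filter_upwards [h1] with x hx
        have h2 : β x = 0 := by
          by_contra h3
          have := mem_ball_zero_iff.1 (hβs h3)
          linarith
        simp [h2]
      rw [hev.fderiv_eq]
      exact hI1 z hz
  · intro z hz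
    rw [hsum]
    have hev : (F1 + fun x => β x • E x) =ᶠ[𝓝 z] fun x => G x + (F1 0 - G 0) := by
      have h1 : ∀ᶠ x in 𝓝 z, ‖x‖ < ρ :=
        continuous_norm.continuousAt.eventually_lt continuousAt_const
          (hz.trans_le (min_le_left _ _))
      filter_upwards [h1] with x hx
      simp only [Pi.add_apply, hβ1 x hx.le, one_smul, hEe]
      abel
    have hd : (fderiv ℝ fun x => G x + (F1 0 - G 0)) = fderiv ℝ G := by
      funext x; rw [fderiv_add_const]
    have hD : ∀ v, D2 (F1 + fun x => β x • E x) z v = D2 G z v := fun v => by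
      rw [D2_congr hev]
      unfold D2
      rw [hd]
    rw [hev.fderiv_eq, hd]
    refine ⟨fun v => (hG' z v).1, fun v hv => ?_⟩
    rw [hD]
    refine cn_of_normal (n := G z) ?_ (fun ξ => (hG' z ξ).2.1)
      (hb z (mem_ball_zero_iff.2 (hz.trans_le (min_le_right _ _)))).2.2 ?_
    · rw [injective_iff_map_eq_zero]
      intro ξ hξ
      have := (hG' z ξ).1
      rw [hξ, norm_zero] at this
      exact norm_eq_zero.1 this.symm
    · rw [(hG' z v).2.2, neg_lt_zero]
      positivity

end Vale.Agent.P205.G
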