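import Vale.Agent.P205.G.Cone

/-!
G/Pert: small perturbations of the metric of a fixed map. Helper lemma names end in _Pert.
perturb_const: γ0 = pull F (good2_metric), n from perturb, lam ε = ε ^ (-(1 / (n + 1) : ℝ)) tends to atTop, (lam ε)⁻¹ ^ (n + 1) = ε, so
C ε ≤ (lam ε)⁻¹ ^ n once lam ε ≥ C. bd_const, bdT_const, bdT_mono, BdT.add, Good1.ug1, Good2.ug2, UG2.good2 (twice).
perturb_dir: T ε = (-ε) • T0; BdT.smul with the constant functions -ε (iteratedFDeriv of a constant: iteratedFDeriv_const_of_ne,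
norm_iteratedFDeriv_zero), or directly iteratedFDeriv_const_smul_apply; SmT.le_metric.
-/

open scoped Manifold ContDiff Topology RealInnerProductSpace
open Set Filter Metric Function

noncomputable section

namespace Vale.Agent.P205.G

variable {M : Type*} [TopologicalSpace M] [ChartedSpace E2 M] [IsManifold I2 ∞ M]
  [T2Space M] [CompactSpace M]

theorem bdT_mono {ι : Type} {l : Filter ι} {lam : ι → ℝ} {T : ι → M → Bil}
    (h : BdT l (fun _ => 1) T) (h1 : ∀ᶠ i in l, 1 ≤ lam i) : BdT l lam T := by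
  intro φ hφ K hKt hK j
  obtain ⟨C, hC⟩ := h φ hφ K hKt hK j
  refine ⟨|C|, ?_⟩
  filter_upwards [hC, h1] with i hi hl z hz
  have h2 := hi z hz
  rw [one_pow, mul_one] at h2
  exact h2.trans ((le_abs_self C).trans (le_mul_of_one_le_right (abs_nonneg C) (one_le_pow₀ hl)))

theorem perturb_const {F : M → E4} {h : M → ℝ} {S : Set M} (hF : Sm F) (hh : Sm h)
    (hS : IsClosed S) (hG : Good2 F h univ) (hG0 : Good2 F (fun _ => 0) S) {T : ℝ → M → Bil}
    (hT : ∀ᶠ ε in 𝓝[>] (0 : ℝ), SmT (T ε) ∧ SymT (T ε)) (hb : BdT (𝓝[>] (0 : ℝ)) (fun _ => 1) T)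
    {C : ℝ} (hs : ∀ᶠ ε in 𝓝[>] (0 : ℝ), ∀ p v, |T ε p v v| ≤ C * ε * pull F p v v) :
    ∀ᶠ ε in 𝓝[>] (0 : ℝ), ∃ F' : M → E4, Sm F' ∧ Good2 F' h univ ∧ Good2 F' (fun _ => 0) S ∧
      pull F' = fun p => pull F p + T ε p := by
  have hm := good2_metric hF hG
  obtain ⟨n, hn⟩ := perturb hm
  have hneg : (-(((n + 1 : ℕ) : ℝ)⁻¹)) < 0 := neg_lt_zero.2 (by positivity)
  have hl := tendsto_rpow_neg_nhdsGT_zero hneg
  have h1 := hl.eventually_ge_atTop 1
  have hnn : ∀ p v, 0 ≤ pull F p v v := fun p v => by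
    rw [pull_apply]
    exact real_inner_self_nonneg
  have hz : Sm fun _ : M => (0 : ℝ) := contMDiff_const
  have hF' : ∀ᶠ _ε in 𝓝[>] (0 : ℝ), Sm F := Eventually.of_forall fun _ => hF
  have hsm : ∀ᶠ ε in 𝓝[>] (0 : ℝ), C * ε ≤ 1 / 100 := by
    have h2 : Tendsto (fun ε : ℝ => C * ε) (𝓝 0) (𝓝 (C * 0)) := tendsto_id.const_mul C
    rw [mul_zero] at h2
    exact (h2.eventually (eventually_le_nhds (by norm_num))).filter_mono nhdsWithin_le_nhds
  obtain ⟨F', k1, k2⟩ := hn (𝓝[>] (0 : ℝ)) (fun ε => ε ^ (-(((n + 1 : ℕ) : ℝ)⁻¹))) (fun _ => F)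
    (fun ε p => pull F p + T ε p) hl
    (hT.mono fun ε hε => ⟨hF, hm.1.add hε.1, fun p v w => by
      simp only [add_apply]
      rw [hm.2.1 p v w, hε.2 p v w]⟩)
    (bd_const h1 hF)
    ((bdT_const h1 hm.1).add (bdT_mono hb h1) (Eventually.of_forall fun _ => hm.1)
      (hT.mono fun _ hε => hε.1))
    ((good2_good1 hG).ug1 hF)
    (by
      filter_upwards [hs, hsm] with ε h2 h3 p v
      simp only [add_apply, add_sub_cancel_left]
      have := mul_le_mul_of_nonneg_right h3 (hnn p v)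
      linarith [h2 p v])
    (by
      filter_upwards [hs, hl.eventually_ge_atTop C, self_mem_nhdsWithin] with ε h2 h3 h4 p v
      have h0 : 0 < ε := h4
      simp only [add_apply, sub_add_cancel_left, abs_neg]
      refine (h2 p v).trans (mul_le_mul_of_nonneg_right ?_ (hnn p v))
      have hp : 0 < ε ^ (-(((n + 1 : ℕ) : ℝ)⁻¹)) := Real.rpow_pos_of_pos h0 _
      have e : (ε ^ (-(((n + 1 : ℕ) : ℝ)⁻¹)))⁻¹ ^ (n + 1) = ε := by
        rw [Real.rpow_neg h0.le, inv_inv, Real.rpow_inv_natCast_pow h0.le (Nat.succ_ne_zero n)]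
      generalize ε ^ (-(((n + 1 : ℕ) : ℝ)⁻¹)) = lam at h3 hp e
      rw [← e, pow_succ, mul_comm, mul_assoc]
      refine mul_le_of_le_one_right (by positivity) ?_
      rw [inv_mul_le_iff₀ hp, mul_one]
      exact h3)
  have hF'' := k1.mono fun _ hε => hε.1
  filter_upwards [k1, (hG.ug2 isClosed_univ hF hh).good2 hF' hF'' hh k2,
    (hG0.ug2 hS hF hz).good2 hF' hF'' hz k2] with ε a1 a2 a3
  exact ⟨F' ε, a1.1, a2, a3, a1.2⟩

theorem perturb_dir {F : M → E4} {h : M → ℝ} {S : Set M} (hF : Sm F) (hh : Sm h)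
    (hS : IsClosed S) (hG : Good2 F h univ) (hG0 : Good2 F (fun _ => 0) S) {T : M → Bil}
    (hT : SmT T) (hT' : SymT T) :
    ∀ᶠ ε in 𝓝[>] (0 : ℝ), ∃ F' : M → E4, Sm F' ∧ Good2 F' h univ ∧ Good2 F' (fun _ => 0) S ∧
      pull F' = fun p => pull F p - ε • T p := by
  obtain ⟨C, -, hC⟩ := hT.le_metric (good2_metric hF hG)
  have hc : ∀ ε : ℝ, Sm fun _ : M => -ε := fun _ => contMDiff_const
  have hb : Bd (𝓝[>] (0 : ℝ)) (fun _ => 1) (fun (ε : ℝ) (_ : M) => -ε) := by
    intro φ _ K _ _ j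
    refine ⟨1, ?_⟩
    filter_upwards [Ioo_mem_nhdsGT (zero_lt_one' ℝ)] with ε hε z _
    have e : ((fun _ : M => -ε) ∘ φ.symm) = fun _ => -ε := rfl
    rw [e, one_pow, mul_one]
    rcases Nat.eq_zero_or_pos j with rfl | hj
    · rw [norm_iteratedFDeriv_zero, norm_neg, Real.norm_of_nonneg hε.1.le]
      exact hε.2.le
    · rw [iteratedFDeriv_const_of_ne hj.ne']
      simp
  have key := perturb_const hF hh hS hG hG0 (T := fun ε p => (-ε) • T p)
    (Eventually.of_forall fun ε => ⟨SmT.smul (hc ε) hT, fun p v w => by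
      simp only [smul_apply]
      rw [hT' p v w]⟩)
    (BdT.smul hb (bdT_const (Eventually.of_forall fun _ => le_rfl) hT) (Eventually.of_forall hc)
      (Eventually.of_forall fun _ => hT)) (C := C) (by
      filter_upwards [self_mem_nhdsWithin] with ε hε p v
      have h0 : 0 < ε := hε
      simp only [smul_apply, smul_eq_mul]
      rw [abs_mul, abs_neg, abs_of_pos h0, mul_comm C, mul_assoc]
      exact mul_le_mul_of_nonneg_left (hC p v) h0.le)
  refine key.mono ?_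
  rintro ε ⟨F', a1, a2, a3, a4⟩
  refine ⟨F', a1, a2, a3, a4.trans (funext fun p => ?_)⟩
  refine ContinuousLinearMap.ext fun v => ContinuousLinearMap.ext fun w => ?_
  simp only [add_apply, sub_apply, smul_apply, smul_eq_mul]
  ring

end Vale.Agent.P205.G
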