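import Vale.Agent.P205.G.Defs

/-!
G/Sard: for almost every v only finitely many planes of a two parameter family contain v. Helper lemma names end in _Sard.
Θ x = x 2 • n1 (π x) + x 3 • n2 (π x), π x = !₂[x 0, x 1], on the open set W = π ⁻¹' U of E4. By
MeasureTheory.addHaar_image_eq_zero_of_det_fderivWithin_eq_zero the image of {x ∈ W | det (fderiv Θ x) = 0} is null. For v outside:
Z = {x | π x ∈ K, Θ x = v} is compact (closed; bounded because (a, b) ↦ a n1 z + b n2 z is bounded below on K × unit circle,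
e.g. IsCompact.exists_isMinOn) and every point is isolated (HasFDerivAt.eventually_ne with the inverse linear map, or
HasStrictFDerivAt.eventually_left_inverse), so finite (IsCompact.finite); the set is contained in π '' Z.
-/

open scoped Manifold ContDiff Topology RealInnerProductSpace
open Set Filter Metric Function

noncomputable section

namespace Vale.Agent.P205.G

theorem fin_range {U : Set E2} (hU : IsOpen U) {n1 n2 : E2 → E4} (h1 : ContDiffOn ℝ ∞ n1 U)
    (h2 : ContDiffOn ℝ ∞ n2 U)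
    (hi : ∀ z ∈ U, ∀ a b : ℝ, a • n1 z + b • n2 z = 0 → a = 0 ∧ b = 0) :
    ∀ᵐ v : E4, ∀ K ⊆ U, IsCompact K → {z ∈ K | ∃ a b : ℝ, v = a • n1 z + b • n2 z}.Finite := by
  have e : E4 ≃L[ℝ] E2 × ℝ × ℝ := ContinuousLinearEquiv.ofFinrankEq (by simp)
  set Θ' : E2 × ℝ × ℝ → E4 := fun y => y.2.1 • n1 y.1 + y.2.2 • n2 y.1 with hΘ'
  have hd' : ∀ y : E2 × ℝ × ℝ, y.1 ∈ U → DifferentiableAt ℝ Θ' y := fun y hy => by
    have a1 := ((h1.contDiffAt (hU.mem_nhds hy)).differentiableAt (by simp)).comp y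
      differentiableAt_fst
    have a2 := ((h2.contDiffAt (hU.mem_nhds hy)).differentiableAt (by simp)).comp y
      differentiableAt_fst
    have a3 : DifferentiableAt ℝ (fun y : E2 × ℝ × ℝ => y.2.1) y := by fun_prop
    have a4 : DifferentiableAt ℝ (fun y : E2 × ℝ × ℝ => y.2.2) y := by fun_prop
    exact (a3.smul a1).add (a4.smul a2)
  have hd : ∀ x : E4, (e x).1 ∈ U → HasFDerivAt (Θ' ∘ e) (fderiv ℝ (Θ' ∘ e) x) x := fun x hx =>
    ((hd' _ hx).comp x e.differentiableAt).hasFDerivAt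
  have hnull := MeasureTheory.addHaar_image_eq_zero_of_det_fderivWithin_eq_zero
    (MeasureTheory.volume : MeasureTheory.Measure E4)
    (s := {x | (e x).1 ∈ U ∧ (fderiv ℝ (Θ' ∘ e) x).det = 0}) (f := Θ' ∘ e)
    (f' := fun x => fderiv ℝ (Θ' ∘ e) x) (fun x hx => (hd x hx.1).hasFDerivWithinAt)
    fun x hx => hx.2
  filter_upwards [MeasureTheory.measure_eq_zero_iff_ae_notMem.1 hnull] with v hv K hKU hK
  have hc : ContinuousOn Θ' (K ×ˢ univ) := fun y hy =>
    (hd' y (hKU hy.1)).continuousAt.continuousWithinAt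
  obtain ⟨c, hc0, hlow⟩ := (hK.prod (isCompact_sphere (0 : ℝ × ℝ) 1)).exists_forall_le'
    (f := fun y => ‖Θ' y‖) (hc.mono (prod_mono Subset.rfl (subset_univ _))).norm (a := 0)
    fun y hy => norm_pos_iff.2 fun h0 => by
      obtain ⟨a1, a2⟩ := hi y.1 (hKU hy.1) _ _ h0
      have a3 := mem_sphere_zero_iff_norm.1 hy.2
      rw [Prod.norm_def, a1, a2] at a3
      simp at a3
  have hbd : ∀ z ∈ K, ∀ t : ℝ × ℝ, Θ' (z, t) = v → ‖t‖ ≤ ‖v‖ / c := by
    intro z hz t ht
    by_cases h0 : t = 0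
    · rw [h0, norm_zero]; positivity
    · have hp : 0 < ‖t‖ := norm_pos_iff.2 h0
      have a1 := hlow (z, ‖t‖⁻¹ • t) ⟨hz, mem_sphere_zero_iff_norm.2 (norm_smul_inv_norm h0)⟩
      have a2 : Θ' (z, ‖t‖⁻¹ • t) = ‖t‖⁻¹ • v := by
        rw [← ht]; simp [hΘ', mul_smul]
      rw [a2, norm_smul, norm_inv, norm_norm, le_inv_mul_iff₀ hp] at a1
      rwa [le_div_iff₀ hc0]
  have hZ' : IsCompact ((K ×ˢ closedBall (0 : ℝ × ℝ) (‖v‖ / c)) ∩ Θ' ⁻¹' {v}) := by
    have a1 := hK.prod (isCompact_closedBall (0 : ℝ × ℝ) (‖v‖ / c))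
    exact a1.of_isClosed_subset ((hc.mono (prod_mono Subset.rfl
      (subset_univ _))).preimage_isClosed_of_isClosed a1.isClosed isClosed_singleton)
      inter_subset_left
  have hZ := e.toHomeomorph.isCompact_preimage.2 hZ'
  have hfin := hZ.finite (isDiscrete_iff_nhdsNE.2 fun x hx => by
    have hxU : (e x).1 ∈ U := hKU hx.1.1
    have hdet : (fderiv ℝ (Θ' ∘ e) x).det ≠ 0 := fun h0 => hv ⟨x, ⟨hxU, h0⟩, hx.2⟩
    have a1 := (hd x hxU).eventually_ne (c := v)
      ⟨_, ((fderiv ℝ (Θ' ∘ e) x).toContinuousLinearEquivOfDetNeZero hdet).antilipschitz⟩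
    rw [inf_principal_eq_bot]
    filter_upwards [a1] with y hy hy'
    exact hy hy'.2)
  refine (hfin.image fun x => (e x).1).subset ?_
  rintro z ⟨hz, a, b, hab⟩
  refine ⟨e.symm (z, a, b), ?_, by simp⟩
  have a1 : Θ' (z, a, b) = v := hab.symm
  rw [mem_preimage, ContinuousLinearEquiv.coe_toHomeomorph, e.apply_symm_apply]
  exact ⟨⟨hz, mem_closedBall_zero_iff.2 (hbd z hz _ a1)⟩, a1⟩

end Vale.Agent.P205.G
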