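import Vale.Agent.P205.G.StepH0

/-!
G/StepH: exact step in a direction transversal to dh. Helper lemma names end in _StepH.
R from exists_rot, N² = 1 + s², ψ from affine_ch with L = R.symm, b = 0 (ψ p = R.symm (φ p), ψ.symm z = φ.symm (R z)); in ψ:
h (ψ.symm z) = c + r * R z 0, so the kernel of dh is spanned by w = ex + s • ey. bigH with q = s, amplitude √(N² * a (R z)),
T0 z = (wt z ^ 2 * (N² * a (R z))) • dxx, T lam z = T0 z + e lam z • sqs (-s) (iter_bd, iter_smul_const, iteratedFDeriv_add_apply; order zero bound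
of e lam gives both the closeness to T0 and |e| ≤ ε). Back in φ with x = dM φ p v, y = R.symm x (dM_linear): s x 0 + x 1 = N y 0,
y 1 - s y 0 = -N x 0, wt (R.symm z) = wt z; e z = N² / r² * e lam (R.symm z); HCh.pull_eq.
stepH_sum: Finset.induction_on t generalising ε (ε / 2 twice); pushT and push are additive (unfold, split_ifs).
-/

open scoped Manifold ContDiff Topology RealInnerProductSpace
open Set Filter Metric Function

noncomputable section

namespace Vale.Agent.P205.G

variable {M : Type*} [TopologicalSpace M] [ChartedSpace E2 M] [IsManifold I2 ∞ M]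
  [T2Space M] [CompactSpace M]

theorem stepH_sum {F : M → E4} {h : M → ℝ} (hF : Sm F) (hh : Sm h) (hG : Good2 F h univ) {r : ℝ}
    {φ : Chart M} (hφ : HCh h r 2 φ) (t : Finset ℝ) {a : ℝ → E2 → ℝ}
    (ha : ∀ s, ContDiff ℝ ∞ (a s) ∧ ∀ z, 0 < a s z) {ε : ℝ} (hε : 0 < ε) :
    ∃ (F' : M → E4) (e : E2 → ℝ), Sm F' ∧ Good2 F' h univ ∧ ContDiff ℝ ∞ e ∧
      support e ⊆ closedBall 0 1 ∧ (∀ z, |e z| ≤ ε) ∧ pull F' = fun p => pull F p +
        pushT φ (fun z => wt z ^ 2 • ∑ s ∈ t, a s z • sqs s) p + push φ e p • pull h p := by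
  induction t using Finset.induction_on generalizing ε with
  | empty =>
    refine ⟨F, fun _ => 0, hF, hG, contDiff_const, by simp, fun z => by simpa using hε.le, ?_⟩
    funext p
    refine ContinuousLinearMap.ext fun v => ContinuousLinearMap.ext fun w => ?_
    by_cases hp : p ∈ φ.source
    · simp only [add_apply, pushT_apply_Core _ hp, smul_apply, smul_eq_mul, push, if_pos hp,
        Finset.sum_empty, zero_apply]
      ring
    · simp only [pushT, push, if_neg hp, add_apply, smul_apply, zero_apply, smul_eq_mul]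
      ring
  | insert s t hs ih =>
    obtain ⟨F1, e1, a1, a2, a3, a4, a5, a6⟩ := ih (half_pos hε)
    obtain ⟨F2, e2, b1, b2, b3, b4, b5, b6⟩ := stepH a1 hh a2 hφ s (ha s).1 (ha s).2 (half_pos hε)
    refine ⟨F2, fun z => e1 z + e2 z, b1, b2, a3.add b3, fun z hz => ?_, fun z => ?_, ?_⟩
    · by_contra hne
      have c1 : e1 z = 0 := by by_contra h1; exact hne (a4 h1)
      have c2 : e2 z = 0 := by by_contra h1; exact hne (b4 h1)
      exact hz (by simp [c1, c2])
    · linarith [abs_add_le (e1 z) (e2 z), a5 z, b5 z]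
    · rw [b6, a6]
      funext p
      refine ContinuousLinearMap.ext fun v => ContinuousLinearMap.ext fun w => ?_
      by_cases hp : p ∈ φ.source
      · simp only [add_apply, pushT_apply_Core _ hp, smul_apply, smul_eq_mul, push, if_pos hp,
          Finset.sum_insert hs]
        ring
      · simp only [pushT, push, if_neg hp, add_apply, smul_apply, zero_apply, smul_eq_mul]
        ring

end Vale.Agent.P205.G
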