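import Vale.Agent.P205.G.StepK

/-!
G/StepH0 (first part of G/StepH): exact step in a direction transversal to dh. Helper lemma names end in _StepH0.
R from exists_rot, N² = 1 + s², ψ from affine_ch with L = R.symm, b = 0 (ψ p = R.symm (φ p), ψ.symm z = φ.symm (R z)); in ψ:
h (ψ.symm z) = c + r * R z 0, so the kernel of dh is spanned by w = ex + s • ey. bigH with q = s, amplitude √(N² * a (R z)),
T0 z = (wt z ^ 2 * (N² * a (R z))) • dxx, T lam z = T0 z + e lam z • sqs (-s) (iter_bd, iter_smul_const, iteratedFDeriv_add_apply; order zero bound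
of e lam gives both the closeness to T0 and |e| ≤ ε). Back in φ with x = dM φ p v, y = R.symm x (dM_linear): s x 0 + x 1 = N y 0,
y 1 - s y 0 = -N x 0, wt (R.symm z) = wt z; e z = N² / r² * e lam (R.symm z); HCh.pull_eq.
stepH_sum: Finset.induction_on t generalising ε (ε / 2 twice); pushT and push are additive (unfold, split_ifs).
-/

open scoped Manifold ContDiff Topology RealInnerProductSpace
open Set Filter Metric Function

noncomputable section

namespace Vale.Agent.P205.G

variable {M : Type*} [TopologicalSpace M] [ChartedSpace E2 M] [IsManifold I2 ∞ M]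
  [T2Space M] [CompactSpace M]

theorem cd_StepH0 {f : E2 → ℝ} (hf : ContDiff ℝ ∞ f) (B : Bil) :
    ContDiff ℝ ∞ fun z => f z • B :=
  contDiffOn_univ.1 (ten_cd_smul hf.contDiffOn contDiffOn_const)

theorem supp_StepH0 {f : E2 → ℝ} {K : Set E2} (hf : support f ⊆ K) (B : Bil) :
    support (fun z => f z • B) ⊆ K := fun z hz => by
  by_contra hne
  have : f z = 0 := by by_contra h; exact hne (hf h)
  apply hz
  ext v w; all_goals simp [this]

theorem stepH {F : M → E4} {h : M → ℝ} (hF : Sm F) (hh : Sm h) (hG : Good2 F h univ) {r : ℝ}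
    {φ : Chart M} (hφ : HCh h r 2 φ) (s : ℝ) {a : E2 → ℝ} (ha : ContDiff ℝ ∞ a)
    (hpos : ∀ z, 0 < a z) {ε : ℝ} (hε : 0 < ε) :
    ∃ (F' : M → E4) (e : E2 → ℝ), Sm F' ∧ Good2 F' h univ ∧ ContDiff ℝ ∞ e ∧
      support e ⊆ closedBall 0 1 ∧ (∀ z, |e z| ≤ ε) ∧ pull F' = fun p => pull F p +
        pushT φ (fun z => (wt z ^ 2 * a z) • sqs s) p + push φ e p • pull h p := by
  obtain ⟨R, hR⟩ := exists_rot s
  set N := √(1 + s ^ 2) with hN
  have hN0 : 0 < N := Real.sqrt_pos.2 (by positivity)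
  have hN2 : N ^ 2 = 1 + s ^ 2 := Real.sq_sqrt (by positivity)
  have hr := hφ.pos
  obtain ⟨ψ, hψ, hsrc, hfun, hsymm, htgt⟩ := affine_ch hφ.ch R.symm.toContinuousLinearEquiv 0
  have hfun' : ∀ p, ψ p = R.symm (φ p) := fun p => by rw [hfun, add_zero]; rfl
  have hsymm' : ∀ z, ψ.symm z = φ.symm (R z) := fun z => by rw [hsymm, sub_zero]; rfl
  have htgt' : ∀ z, z ∈ ψ.target ↔ R z ∈ φ.target := fun z => by
    rw [htgt, mem_ofPred_eq, sub_zero]; rfl
  have hsub : closedBall 0 2 ⊆ ψ.target := fun z hz => (htgt' z).2 (hφ.sub (by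
    rw [mem_closedBall_zero_iff] at hz ⊢
    rwa [R.norm_map]))
  have hder : ∀ z ∈ ψ.target, ∀ v, fderiv ℝ (h ∘ ψ.symm) z v = r * R v 0 := by
    intro z hz v
    have e1 : h ∘ ψ.symm = (h ∘ φ.symm) ∘ R := by
      ext y; simp [hsymm']
    have hz' := (htgt' z).1 hz
    have e2 : HasFDerivAt R (R.toContinuousLinearEquiv : E2 →L[ℝ] E2) z :=
      R.toContinuousLinearEquiv.hasFDerivAt
    rw [e1, (((hh.contDiffAt hφ.ch hz').differentiableAt (by simp)).hasFDerivAt.comp z e2).fderiv,
      ContinuousLinearMap.comp_apply]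
    exact hφ.fderiv_eq hz' _
  have hw0 : (ex + s • ey : E2) 0 = 1 := by simp [ex, ey]
  have hw1 : (ex + s • ey : E2) 1 = s := by simp [ex, ey]
  have hw : (ex + s • ey : E2) ≠ 0 := fun h0 => by
    rw [h0] at hw0
    simp at hw0
  have hker : ∀ z ∈ ψ.target, ∀ v, fderiv ℝ (h ∘ ψ.symm) z v = 0 →
      ∃ t : ℝ, v = t • (ex + s • ey) := by
    intro z hz v hv
    rw [hder z hz, (hR v).1] at hv
    have h1 : s * v 0 - v 1 = 0 := by
      rcases mul_eq_zero.1 hv with h | h
      · exact absurd h hr.ne'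
      · exact (div_eq_zero_iff.1 h).resolve_right hN0.ne'
    refine ⟨v 0, ?_⟩
    ext i
    fin_cases i
    · simp [ex, ey]
    · simp [ex, ey]; linarith
  obtain ⟨Ft, hFts, hFt⟩ := exists_ext ψ.open_target (hF.contDiffOn hψ)
    (isCompact_closedBall 0 2) hsub
  have haR : ContDiff ℝ ∞ fun z => N ^ 2 * a (R z) :=
    contDiff_const.mul (ha.comp R.toContinuousLinearEquiv.contDiff)
  have haR0 : ∀ z, 0 < N ^ 2 * a (R z) := fun z => mul_pos (by positivity) (hpos _)
  have hT0 : ContDiff ℝ ∞ fun z => (wt z ^ 2 * (N ^ 2 * a (R z))) • dxx :=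
    cd_StepH0 ((contDiff_wt.pow 2).mul haR) _
  have hT0s : support (fun z => (wt z ^ 2 * (N ^ 2 * a (R z))) • dxx) ⊆ closedBall 0 1 :=
    supp_StepH0 (fun z hz => by
      by_contra hne
      have : wt z = 0 := wt_zero (by
        rw [mem_closedBall_zero_iff, not_le] at hne
        exact hne.le)
      exact hz (by simp [this])) _
  obtain ⟨n, hn⟩ := step_core hF hh hG hψ hsub hw hker hFt hT0 hT0s
    (fun z v v' => by simp only [smul_apply, dxx_apply]; ring)
    (fun z v => by
      simp only [smul_apply, dxx_apply, smul_eq_mul]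
      exact mul_nonneg (mul_nonneg (sq_nonneg _) (haR0 z).le) (mul_self_nonneg _))
  obtain ⟨U, e, hU, he, hb, ⟨C, hC⟩, hκ⟩ := bigH s hFts (haR.sqrt fun z => (haR0 z).ne')
    (fun z _ => Real.sqrt_pos.2 (haR0 z)) (fun z hz => by
      have hz1 : ‖z‖ ≤ 1 := mem_closedBall_zero_iff.1 hz
      have hzt : z ∈ ψ.target := hsub (mem_closedBall_zero_iff.2 (by linarith))
      have e1 : Ft =ᶠ[𝓝 z] F ∘ ψ.symm := eventuallyEq_of_ball hFt (by linarith)
      rw [e1.fderiv_eq, D2_congr e1]
      refine hG ψ hψ z hzt (mem_univ _) _ hw ?_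
      rw [hder z hzt, (hR _).1, hw0, hw1]
      simp) n
  have he1 : ∀ lam, support (e lam) ⊆ closedBall 0 1 := fun lam =>
    (he lam).2.trans ball_subset_closedBall
  obtain ⟨C0, hC0⟩ := hb 0
  have hE : ∀ᶠ lam : ℝ in atTop, ∀ z, |e lam z| ≤ C0 * lam⁻¹ := by
    filter_upwards [hC0] with lam h1 z
    have := (h1 z).2
    rwa [norm_iteratedFDeriv_zero, pow_zero, mul_one, Real.norm_eq_abs] at this
  have hone : ∀ᶠ lam : ℝ in atTop, 1 ≤ lam := eventually_ge_atTop 1
  have key := hn U (fun lam => (fun z => (wt z ^ 2 * (N ^ 2 * a (R z))) • dxx) +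
      fun z => e lam z • sqs (-s)) hU
    (fun lam => ⟨hT0.add (cd_StepH0 (he lam).1 _), fun z hz => by
      by_contra hne
      have e1 : (wt z ^ 2 * (N ^ 2 * a (R z))) • dxx = 0 := by
        by_contra h1; exact hne (hT0s h1)
      have e2 : e lam z • sqs (-s) = 0 := by
        by_contra h1; exact hne (supp_StepH0 (he1 lam) _ h1)
      apply hz
      refine ContinuousLinearMap.ext fun v => ContinuousLinearMap.ext fun w => ?_
      simp only [Pi.add_apply, e1, e2, add_apply, zero_apply]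
      ring, fun z v v' => by
      simp only [Pi.add_apply, add_apply, smul_apply, dxx_apply, sqs_apply]; ring⟩)
    (fun j => by
      obtain ⟨C1, h1⟩ := hb j
      exact ⟨C1, h1.mono fun lam h2 z => (h2 z).1⟩)
    (fun j => by
      obtain ⟨C1, h1⟩ := hb j
      obtain ⟨C2, h20, h2⟩ := iter_bd hT0 hT0s j
      obtain ⟨C3, h3⟩ := bd_add (l := atTop) (lam := fun lam : ℝ => lam) (j := j)
        (f := fun _ z => (wt z ^ 2 * (N ^ 2 * a (R z))) • dxx)
        (g := fun lam z => e lam z • sqs (-s)) isOpen_univ Subset.rfl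
        (Eventually.of_forall fun _ => hT0.contDiffOn)
        (Eventually.of_forall fun lam => (cd_StepH0 (he lam).1 _).contDiffOn)
        ⟨C2, hone.mono fun lam h4 z _ => (h2 z).trans
          (le_mul_of_one_le_right h20 (one_le_pow₀ h4))⟩
        ⟨‖sqs (-s)‖ * |C1|, by
          filter_upwards [h1, hone] with lam h4 h5 z _
          refine (iter_smul_const (he lam).1 _ j z).trans ?_
          rw [mul_assoc]
          refine mul_le_mul_of_nonneg_left ((h4 z).2.trans ?_) (sqs (-s)).opNorm_nonneg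
          have h6 : lam⁻¹ ≤ 1 := inv_le_one_of_one_le₀ h5
          have h7 : 0 ≤ lam⁻¹ := by positivity
          have h8 : 0 ≤ lam ^ j := by positivity
          calc C1 * lam ^ j * lam⁻¹ ≤ |C1| * lam ^ j * lam⁻¹ := by
                gcongr; exact le_abs_self _
            _ ≤ |C1| * lam ^ j * 1 := by gcongr
            _ = _ := mul_one _⟩
      exact ⟨C3, h3.mono fun lam h4 z => h4 z (mem_univ _)⟩)
    ⟨|C0| * ‖sqs (-s)‖, by
      filter_upwards [hE, hone] with lam h1 h2 z v
      simp only [Pi.add_apply, add_apply, add_sub_cancel_left, smul_apply, smul_eq_mul, abs_mul]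
      have h3 : |sqs (-s) v v| ≤ ‖sqs (-s)‖ * ‖v‖ * ‖v‖ := (sqs (-s)).le_opNorm₂ v v
      have h4 : |e lam z| ≤ |C0| * lam⁻¹ := (h1 z).trans (by gcongr; exact le_abs_self _)
      calc |e lam z| * |sqs (-s) v v| ≤ (|C0| * lam⁻¹) * (‖sqs (-s)‖ * ‖v‖ * ‖v‖) := by gcongr
        _ = _ := by ring⟩
    ⟨C, hC.mono fun lam h1 z v => by
      have h2 := h1 z v
      simp only [mul_pow, Real.sq_sqrt (haR0 z).le] at h2
      simp only [Pi.add_apply, add_apply, smul_apply, smul_eq_mul, dxx_apply, sqs_apply]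
      refine le_of_eq_of_le (congrArg _ ?_) h2
      ring⟩ hκ
  obtain ⟨lam, ⟨F', k1, k2, k3⟩, k4, k5⟩ :=
    (key.and (hE.and (small_Core (N ^ 2 / r ^ 2 * C0) hε))).exists
  refine ⟨F', fun z => N ^ 2 / r ^ 2 * e lam (R.symm z), k1, k2,
    contDiff_const.mul ((he lam).1.comp R.symm.toContinuousLinearEquiv.contDiff),
    fun z hz => ?_, fun z => ?_, ?_⟩
  · have := he1 lam (right_ne_zero_of_mul hz)
    rw [mem_closedBall_zero_iff] at this ⊢
    rwa [R.symm.norm_map] at this
  · rw [abs_mul, abs_of_nonneg (by positivity)]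
    refine le_trans ?_ k5
    rw [mul_assoc]
    exact mul_le_mul_of_nonneg_left (k4 _) (by positivity)
  · rw [k3]
    funext p
    refine ContinuousLinearMap.ext fun v => ContinuousLinearMap.ext fun w => ?_
    by_cases hp : p ∈ φ.source
    · have hp' : p ∈ ψ.source := hsrc ▸ hp
      have hd : ∀ u, dM ψ p u = R.symm (dM φ p u) := fun u =>
        dM_linear hφ.ch (R.symm.toContinuousLinearEquiv : E2 →L[ℝ] E2) hfun' hp u
      have hx : ∀ x : E2, s * x 0 + x 1 = N * R.symm x 0 ∧
          -s * R.symm x 0 + R.symm x 1 = -N * x 0 := fun x => by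
        obtain ⟨a1, a2⟩ := hR (R.symm x)
        rw [R.apply_symm_apply] at a1 a2
        rw [a1, a2]
        constructor
        · field_simp
          rw [hN2]; ring
        · field_simp
          ring
      have hwt : wt (R.symm (φ p)) = wt (φ p) := by simp only [wt, R.symm.norm_map]
      simp only [add_apply, pushT_apply_Core _ hp, pushT_apply_Core _ hp', smul_apply, smul_eq_mul,
        Pi.add_apply, dxx_apply, sqs_apply, hd, hfun', hwt, R.apply_symm_apply, (hx _).1,
        (hx _).2, hφ.pull_eq hh hp, push, if_pos hp]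
      field_simp
      ring
    · have hp' : p ∉ ψ.source := hsrc ▸ hp
      simp only [pushT, push, if_neg hp, if_neg hp', add_apply, smul_apply, zero_apply,
        smul_eq_mul]
      ring

end Vale.Agent.P205.G
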