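import Vale.Agent.P205.G.StepIA0

/-!
G/StepIA: the two perturbations of Step I, and reparametrisation. Helper lemma names end in _StepIA.
stepIA: θ p = 1 - ∑ push (φ i) b p with b bump (rIn ρ / 2, rOut ρ), values in [0, 1] (sum_push_symm; off the sources all terms vanish);
perturb_dir with T = θ • pull F gives τ ∈ (0, 1) and F1 with pull F1 = (1 - τ θ) pull F; zoom for F1; C from SmT.le_metric;
for small ε, 1 + C ε ≤ 2 and (1 + C ε) (1 - τ) ≤ 1 - τ / 2.
reparam: U i z = if ‖z‖ < R then F (symm (ψ z)) - F (symm z) else 0 is smooth on the target (it vanishes for ‖z‖ ≥ R / 2) with support in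
closedBall 0 (R / 2); G = F + ∑ push (φ i) (U i) (Pat.mono to R / 2), F' = ε • G. For ‖z‖ < R, G ∘ symm = (F ∘ symm) ∘ ψ near z: ind_comp with
hG0 (ψ z ∈ closedBall 0 R), good2_of_local, good2_smul, pull_smul, trep_pull, fderiv_comp; off the discs add_sum_push_off.
-/

open scoped Manifold ContDiff Topology RealInnerProductSpace
open Set Filter Metric Function

noncomputable section

namespace Vale.Agent.P205.G

variable {M : Type*} [TopologicalSpace M] [ChartedSpace E2 M] [IsManifold I2 ∞ M]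
  [T2Space M] [CompactSpace M]

theorem reparam {g : M → Bil} {ι : Type*} [Fintype ι] {φ : ι → Chart M} {R : ℝ}
    (hP : Pat g φ R) {F : M → E4} {h : M → ℝ} (hF : Sm F) (hh : Sm h) (hG : Good2 F h univ)
    (hG0 : Good2 F (fun _ => 0) (discs φ R)) {ψ : E2 → E2} (hψ : ContDiff ℝ ∞ ψ)
    (h1 : ∀ z, R / 2 ≤ ‖z‖ → ψ z = z) (h2 : ∀ z, ‖z‖ < R → ‖ψ z‖ < R)
    (h3 : ∀ z, Injective (fderiv ℝ ψ z)) {ε : ℝ} (hε : 0 < ε) :
    ∃ F' : M → E4, Sm F' ∧ Good2 F' h univ ∧
      (∀ i z, ‖z‖ < R → ∀ v, trep (φ i) (pull F') z v v =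
        ε ^ 2 * trep (φ i) (pull F) (ψ z) (fderiv ℝ ψ z v) (fderiv ℝ ψ z v)) ∧
      ∀ p, p ∉ discs φ (R / 2) → pull F' p = ε ^ 2 • pull F p := by
  have hR := hP.pos
  have hP' : Pat g φ (R / 2) := hP.mono (by linarith) (by linarith)
  have hb : ∀ i z, ‖z‖ < R → z ∈ (φ i).target := fun i z hz =>
    hP.sub i (mem_closedBall_zero_iff.2 hz.le)
  have hψt : ∀ i, ∀ z ∈ (φ i).target, ψ z ∈ (φ i).target := fun i z hz => by
    rcases lt_or_ge ‖z‖ R with h4 | h4
    · exact hb i _ (h2 z h4)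
    · rwa [h1 z (by linarith)]
  set U : ι → E2 → E4 := fun i => (F ∘ (φ i).symm) ∘ ψ - F ∘ (φ i).symm with hU
  have hUc : ∀ i, ContDiffOn ℝ ∞ (U i) (φ i).target := fun i z hz =>
    (((hF.contDiffAt (hP.ch i) (hψt i z hz)).comp z hψ.contDiffAt).sub
      (hF.contDiffAt (hP.ch i) hz)).contDiffWithinAt
  have hUs : ∀ i, support (U i) ⊆ closedBall 0 (R / 2) := fun i z hz => by
    rw [mem_closedBall_zero_iff]
    by_contra h4
    apply hz
    simp only [hU, Pi.sub_apply, comp_apply, h1 z (not_le.1 h4).le, sub_self]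
  set G : M → E4 := F + fun p => ∑ j, push (φ j) (U j) p with hGd
  have hGs : Sm G := sm_add hF (sm_sum_push hP' hUc hUs)
  have key : ∀ i, ∀ z ∈ (φ i).target, G ∘ (φ i).symm =ᶠ[𝓝 z] (F ∘ (φ i).symm) ∘ ψ :=
    fun i z hz => by
      have h4 := add_sum_push_symm hP F U i hz
      rwa [hU, add_sub_cancel] at h4
  have off : ∀ p, p ∉ discs φ (R / 2) → G =ᶠ[𝓝 p] F := fun p hp =>
    add_sum_push_off hP' F hUs hp
  have hGG : Good2 G h univ := good2_of_local hGs hh fun p _ => by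
    by_cases hp : p ∈ discs φ (R / 2)
    · obtain ⟨i, hi⟩ := mem_iUnion.1 hp
      obtain ⟨hps, hn⟩ := (mem_disc (hP'.sub i)).1 hi
      have hz : ‖φ i p‖ < R := by linarith
      have hzt := hb i _ hz
      refine ⟨φ i, hP.ch i, hps, fun v hv _ => ?_⟩
      rw [(key i _ hzt).fderiv_eq, D2_congr (key i _ hzt)]
      refine ind_comp (hF.contDiffAt (hP.ch i) (hψt i _ hzt)) hψ.contDiffAt (h3 _) ?_
      refine hG0 (φ i) (hP.ch i) _ (hψt i _ hzt)
        (mem_iUnion.2 ⟨i, ψ (φ i p), mem_closedBall_zero_iff.2 (h2 _ hz).le, rfl⟩) _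
        (fun h5 => hv (h3 _ (by rw [h5, map_zero]))) ?_
      have e : ((fun _ : M => (0 : ℝ)) ∘ (φ i).symm) = fun _ => 0 := rfl
      rw [e, fderiv_fun_const]
      rfl
    · have hs := mem_chart_source E2 p
      have ht := (chartAt E2 p).map_source hs
      have e : G ∘ (chartAt E2 p).symm =ᶠ[𝓝 (chartAt E2 p p)] F ∘ (chartAt E2 p).symm :=
        comp_symm_congr ht (by rw [(chartAt E2 p).left_inv hs]; exact off p hp)
      refine ⟨chartAt E2 p, isCh_chartAt p, hs, fun v hv h0 => ?_⟩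
      rw [e.fderiv_eq, D2_congr e]
      exact hG _ (isCh_chartAt p) _ ht (mem_univ _) v hv h0
  refine ⟨ε • G, sm_const_smul hGs ε, good2_smul hGs hGG hε.ne', fun i z hz v => ?_,
    fun p hp => by rw [pull_smul hGs, pull_congr (off p hp)]⟩
  have hzt := hb i z hz
  have e1 : trep (φ i) (pull (ε • G)) z v v = ε ^ 2 * trep (φ i) (pull G) z v v := by
    simp only [trep, ContinuousLinearMap.bilinearComp_apply, pull_smul hGs,
      _root_.smul_apply, smul_eq_mul]
  rw [e1, trep_pull hGs (hP.ch i) hzt, trep_pull hF (hP.ch i) (hψt i z hzt), (key i z hzt).fderiv_eq,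
    fderiv_comp z ((hF.contDiffAt (hP.ch i) (hψt i z hzt)).differentiableAt (by simp))
      (hψ.differentiable (by simp) z)]
  rfl

end Vale.Agent.P205.G
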