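import Vale.Agent.P205.G.Zoom

/-!
G/StepIA0 (first part of G/StepIA): the two perturbations of Step I, and reparametrisation. Helper lemma names end in _StepIA0.
stepIA: θ p = 1 - ∑ push (φ i) b p with b bump (rIn ρ / 2, rOut ρ), values in [0, 1] (sum_push_symm; off the sources all terms vanish);
perturb_dir with T = θ • pull F gives τ ∈ (0, 1) and F1 with pull F1 = (1 - τ θ) pull F; zoom for F1; C from SmT.le_metric;
for small ε, 1 + C ε ≤ 2 and (1 + C ε) (1 - τ) ≤ 1 - τ / 2.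
reparam: U i z = if ‖z‖ < R then F (symm (ψ z)) - F (symm z) else 0 is smooth on the target (it vanishes for ‖z‖ ≥ R / 2) with support in
closedBall 0 (R / 2); G = F + ∑ push (φ i) (U i) (Pat.mono to R / 2), F' = ε • G. For ‖z‖ < R, G ∘ symm = (F ∘ symm) ∘ ψ near z: ind_comp with
hG0 (ψ z ∈ closedBall 0 R), good2_of_local, good2_smul, pull_smul, trep_pull, fderiv_comp; off the discs add_sum_push_off.
-/

open scoped Manifold ContDiff Topology RealInnerProductSpace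
open Set Filter Metric Function

noncomputable section

namespace Vale.Agent.P205.G

variable {M : Type*} [TopologicalSpace M] [ChartedSpace E2 M] [IsManifold I2 ∞ M]
  [T2Space M] [CompactSpace M]

theorem stepIA {g : M → Bil} (hg : IsMetric g) {ι : Type*} [Fintype ι] {φ : ι → Chart M} {R : ℝ}
    (hP : Pat g φ R) {F : M → E4} {h : M → ℝ} (hF : Sm F) (hh : Sm h) (hG : Good2 F h univ)
    (hG0 : Good2 F (fun _ => 0) (discs φ R))
    (hE : ∀ i z, ‖z‖ ≤ R → ∀ v, trep (φ i) (pull F) z v v = ‖v‖ ^ 2) {ρ : ℝ} (hρ : 0 < ρ)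
    (hρR : 3 * ρ ≤ R) : ∃ τ C : ℝ, 0 < τ ∧ τ < 1 ∧ 0 < C ∧ ∀ᶠ ε in 𝓝[>] (0 : ℝ), ∃ F' : M → E4,
      Sm F' ∧ Good2 F' h univ ∧ Good2 F' (fun _ => 0) (discs φ R) ∧
      (∀ p v, pull F' p v v ≤ C * g p v v) ∧ ∀ i z v,
        (‖z‖ ≤ ρ / 2 → trep (φ i) (pull F') z v v = trep (φ i) g (ε • z) v v) ∧
        (‖z‖ ≤ 2 * ρ → trep (φ i) (pull F') z v v ≤ trep (φ i) g (ε • z) v v) ∧
        (ρ ≤ ‖z‖ → ‖z‖ ≤ R → trep (φ i) (pull F') z v v ≤ (1 - τ / 2) * ‖v‖ ^ 2) ∧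
        (‖z‖ ≤ R → trep (φ i) (pull F') z v v ≤ 2 * ‖v‖ ^ 2) := by
  let b : ContDiffBump (0 : E2) := ⟨ρ / 2, ρ, half_pos hρ, half_lt_self hρ⟩
  have hb : support b ⊆ closedBall 0 R := by
    rw [b.support_eq]
    exact ball_subset_closedBall.trans (closedBall_subset_closedBall (by change ρ ≤ R; linarith))
  have hθ : Sm fun p => 1 - ∑ i, push (φ i) b p :=
    ContMDiff.sub contMDiff_const
      (sm_sum_push hP (U := fun _ => b) (fun _ => b.contDiff.contDiffOn) fun _ => hb)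
  have hS := isClosed_discs hP.sub
  obtain ⟨τ, ⟨F₁, hF₁, a1, a2, a3⟩, hτ0, hτ1⟩ := ((perturb_dir hF hh hS hG hG0
    (SmT.smul hθ hF.smT_pull) (fun p v w => by
      simp only [smul_apply, symT_pull F p v w])).and
    (Ioo_mem_nhdsGT one_pos)).exists
  obtain ⟨C₀, hz⟩ := zoom hg hP hF₁ hh hS a1 a2 hρ hρR
  obtain ⟨C₁, hC₁, hle⟩ := hF₁.smT_pull.le_metric hg
  have hap : ∀ (i : ι) (T : M → Bil) (z v : E2), trep (φ i) T z v v =
      T ((φ i).symm z) (dS (φ i) z v) (dS (φ i) z v) := fun i T z v => by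
    rw [trep, ContinuousLinearMap.bilinearComp_apply]
  have k1 : ∀ i z, ‖z‖ ≤ R → ∀ v,
      trep (φ i) (pull F₁) z v v = (1 - τ * (1 - b z)) * ‖v‖ ^ 2 := fun i z hz v => by
    rw [← hE i z hz v, hap, hap, a3]
    simp only [sub_apply, smul_apply, smul_eq_mul,
      sum_push_symm hP (fun _ => b) i (hP.sub i (mem_closedBall_zero_iff.2 hz))]
    ring
  have k2 : ∀ p v, 0 ≤ pull F₁ p v v := fun p v => by
    rw [pull_apply]
    exact real_inner_self_nonneg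
  have hε : ∀ᶠ ε in 𝓝[>] (0 : ℝ), C₀ * ε < τ / 2 := nhdsWithin_le_nhds
    ((continuous_const_mul C₀).continuousAt.eventually_lt continuousAt_const (by simpa using hτ0))
  refine ⟨τ, 2 * C₁, hτ0, hτ1, by positivity, ?_⟩
  filter_upwards [hz, hε] with ε ⟨F', b1, b2, b3, b4, b5⟩ hε
  have k3 : ∀ p v, pull F' p v v ≤ (1 + τ / 2) * pull F₁ p v v := fun p v =>
    (b4 p v).trans (mul_le_mul_of_nonneg_right (by linarith) (k2 p v))
  have k4 : ∀ i z, ‖z‖ ≤ R → ∀ v, trep (φ i) (pull F') z v v ≤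
      (1 + τ / 2) * ((1 - τ * (1 - b z)) * ‖v‖ ^ 2) := fun i z hz v => by
    rw [← k1 i z hz v, hap, hap]
    exact k3 _ _
  refine ⟨F', b1, b2, b3, fun p v => (k3 p v).trans ?_, fun i z v => ?_⟩
  · nlinarith [k2 p v, (le_abs_self _).trans (hle p v)]
  have h0 : 0 ≤ τ * (1 - b z) * ‖v‖ ^ 2 :=
    mul_nonneg (mul_nonneg hτ0.le (sub_nonneg.2 b.le_one)) (sq_nonneg _)
  refine ⟨fun hz => ?_, fun hz => ?_, fun hz hz' => (k4 i z hz' v).trans ?_,
    fun hz => (k4 i z hz v).trans ?_⟩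
  · rw [b5 i z (by linarith) v, k1 i z (by linarith) v,
      b.one_of_mem_closedBall (mem_closedBall_zero_iff.2 hz)]
    ring
  · rw [b5 i z hz v, k1 i z (by linarith) v]
    linarith
  · rw [b.zero_of_le_dist (by rwa [dist_zero_right])]
    nlinarith [mul_nonneg (sq_nonneg τ) (sq_nonneg ‖v‖)]
  · nlinarith [mul_nonneg hτ0.le h0, mul_nonneg (sub_nonneg.2 hτ1.le) (sq_nonneg ‖v‖),
      sq_nonneg ‖v‖]

end Vale.Agent.P205.G
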