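import Vale.Agent.P205.G.StepH
import Vale.Agent.P205.G.Pert

/-!
G/StepIIA (first part of G/StepII): closing the gap. Helper lemma names end in _StepIIA.
chart_step: P from exists_ext for trep φ D on closedBall 0 1 (symmetric, positive: dS is injective by dM_dS), dec, m from div_wt, stepH_sum with
ε = η m, E = wt² A / r² - e, div_wt, HCh.half, stepK in the half chart. Final identity pointwise: pushT_smul_trep (wt z ≠ 0 gives ‖z‖ < 1),
HCh.pushT_dxx, additivity of push and pushT (unfold, split_ifs), (2 : ℝ) • (2 : ℝ)⁻¹ • z = z.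
stepII: σ = g - pull F, K = closure {p | σ p ≠ 0} compact without critical points; exists_hcover with U = univ, ρ = 4;
vH = ∑ push wt ^ 2 > 0 on K, vK = ∑ push (wt (2⁻¹ •)) ^ 2 (sm_push; supports in closedBall 0 1, closedBall 0 2); θ smooth, 0 on K, 1 on {vH = 0}
(exists_contMDiffMap_zero_one_of_isClosed), u = (vH + θ)⁻¹, vH * u • σ = σ everywhere. perturb_dir with S = ∅, T = vH • g + vK • pull h gives η, F2.
D = u • σ + η • g is a metric; charts_step; add up.
-/

open scoped Manifold ContDiff Topology RealInnerProductSpace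
open Set Filter Metric Function

noncomputable section

namespace Vale.Agent.P205.G

variable {M : Type*} [TopologicalSpace M] [ChartedSpace E2 M] [IsManifold I2 ∞ M]
  [T2Space M] [CompactSpace M]

theorem chart_step {F : M → E4} {h : M → ℝ} (hF : Sm F) (hh : Sm h) (hG : Good2 F h univ) {r : ℝ}
    {φ : Chart M} (hφ : HCh h r 4 φ) {D : M → Bil} (hD : IsMetric D) {η : ℝ} (hη : 0 < η) :
    ∃ F' : M → E4, Sm F' ∧ Good2 F' h univ ∧ pull F' = fun p => pull F p +
      (push φ wt p ^ 2 • D p + (η * push φ (fun z => wt ((2 : ℝ)⁻¹ • z)) p ^ 2) • pull h p) := by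
  have hr := hφ.pos
  have hφ2 : HCh h r 2 φ := hφ.mono (by norm_num)
  have hK1 : closedBall (0 : E2) 1 ⊆ φ.target := (hφ.mono (by norm_num : (1 : ℝ) ≤ 4)).sub
  obtain ⟨P, hPs, hP⟩ := exists_ext φ.open_target (hD.1 φ hφ.ch) (isCompact_closedBall 0 1) hK1
  have hP' : ∀ z, ‖z‖ ≤ 1 → P z = trep φ D z := fun z hz => hP z (mem_closedBall_zero_iff.2 hz)
  obtain ⟨t, a, A, ha, hA, hA0, hdec⟩ := dec hPs
    (fun z hz v w => by rw [hP' z hz]; exact hD.2.1 _ _ _)
    fun z hz v hv => by
      rw [hP' z hz]; exact Met_pos hD hφ.ch (hK1 (mem_closedBall_zero_iff.2 hz)) hv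
  obtain ⟨m, hm, hdiv⟩ := div_wt
  obtain ⟨F1, e, b1, b2, b3, b4, b5, b6⟩ := stepH_sum hF hh hG hφ2 t ha (mul_pos hη hm)
  have hw1 : ∀ z, wt z ≠ 0 → ‖z‖ ≤ 1 := fun z hz => by
    by_contra hne
    exact hz (wt_zero (not_le.1 hne).le)
  obtain ⟨A', c1, c2, c3⟩ := hdiv η hη (fun z => wt z ^ 2 * A z / r ^ 2 - e z)
    ((((contDiff_wt.pow 2).mul hA).div_const _).sub b3)
    (fun z hz => by
      by_contra hne
      have e1 : e z = 0 := by by_contra h1; exact hne (b4 h1)
      have e2 : wt z = 0 := by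
        by_contra h1; exact hne (mem_closedBall_zero_iff.2 (hw1 z h1))
      exact hz (by simp [e1, e2]))
    fun z => by
      have e1 := (abs_le.1 (b5 z)).2
      have e2 : 0 ≤ wt z ^ 2 * A z / r ^ 2 := by have := hA0 z; positivity
      linarith
  obtain ⟨ψ, hψ, hpush⟩ := hφ.half
  obtain ⟨F2, d1, d2, d3⟩ := stepK b1 hh b2 hψ c1 c2
  refine ⟨F2, d1, d2, ?_⟩
  rw [d3, b6]
  funext p
  rw [hpush]
  refine ContinuousLinearMap.ext fun v => ContinuousLinearMap.ext fun w => ?_
  by_cases hp : p ∈ φ.source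
  · have e1 : D p v w = trep φ D (φ p) (dM φ p v) (dM φ p w) := apply_eq_trep hφ.ch D hp v w
    simp only [add_apply, smul_apply, smul_eq_mul, pushT_apply_Core _ hp, push, if_pos hp, c3,
      smul_inv_smul₀ (two_ne_zero (α := ℝ)), hφ.pull_eq hh hp, e1]
    by_cases h0 : wt (φ p) = 0
    · rw [h0]; ring
    · rw [← hP' _ (hw1 _ h0), hdec _ (hw1 _ h0)]
      simp only [add_apply, smul_apply, smul_eq_mul, dxx_apply]
      field_simp
      ring
  · simp only [pushT, push, if_neg hp, add_apply, smul_apply, zero_apply, smul_eq_mul]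
    ring

theorem charts_step {F : M → E4} {h : M → ℝ} (hF : Sm F) (hh : Sm h) (hG : Good2 F h univ)
    (s : Finset (ℝ × Chart M)) (hs : ∀ c ∈ s, HCh h c.1 4 c.2) {D : M → Bil} (hD : IsMetric D)
    {η : ℝ} (hη : 0 < η) :
    ∃ F' : M → E4, Sm F' ∧ Good2 F' h univ ∧ pull F' = fun p => pull F p +
      ((∑ c ∈ s, push c.2 wt p ^ 2) • D p +
        (η * ∑ c ∈ s, push c.2 (fun z => wt ((2 : ℝ)⁻¹ • z)) p ^ 2) • pull h p) := by
  classical
  induction s using Finset.induction_on with
  | empty =>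
    refine ⟨F, hF, hG, ?_⟩
    funext p
    refine ContinuousLinearMap.ext fun v => ContinuousLinearMap.ext fun w => ?_
    simp only [Finset.sum_empty, add_apply, smul_apply, smul_eq_mul]
    ring
  | insert c s hc ih =>
    obtain ⟨F1, a1, a2, a3⟩ := ih fun c hc => hs c (Finset.mem_insert_of_mem hc)
    obtain ⟨F2, b1, b2, b3⟩ := chart_step a1 hh a2 (hs c (Finset.mem_insert_self c s)) hD hη
    refine ⟨F2, b1, b2, ?_⟩
    rw [b3, a3]
    funext p
    refine ContinuousLinearMap.ext fun v => ContinuousLinearMap.ext fun w => ?_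
    simp only [Finset.sum_insert hc, add_apply, smul_apply, smul_eq_mul]
    ring

end Vale.Agent.P205.G
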