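import Vale.Agent.P205.G.StepKA

/-!
G/StepK: exact step in the direction dh, and tools for StepH. Helper lemma names end in _StepK.
stepK: Ft from exists_ext on closedBall 0 2, a = r √A (ContDiff.sqrt), T0 z = (r ^ 2 * (wt z ^ 2 * A z)) • dxx, w = ey (HCh.ker), the
hypothesis of bigK from hG (HCh.fderiv_eq, eventuallyEq_of_ball, D2_congr), step_core with T lam = T0 (iter_bd), HCh.pushT_dxx.
iter_bd: continuous with compact support (ContDiff.continuous_iteratedFDeriv, HasCompactSupport.iteratedFDeriv, Continuous.bounded_above_of_compact_support).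
iter_smul_const: z ↦ e z • B is the composition of e with ContinuousLinearMap.toSpanSingleton; ContinuousLinearMap.norm_iteratedFDeriv_comp_left.
exists_rot: LinearIsometryEquiv from the explicit linear map (LinearIsometry.toLinearIsometryEquiv with equal finrank), norm by
EuclideanSpace.real_norm_sq_eq / norm_eq and Fin.sum_univ_two.
-/

open scoped Manifold ContDiff Topology RealInnerProductSpace
open Set Filter Metric Function

noncomputable section

namespace Vale.Agent.P205.G

variable {M : Type*} [TopologicalSpace M] [ChartedSpace E2 M] [IsManifold I2 ∞ M]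
  [T2Space M] [CompactSpace M]

theorem stepK {F : M → E4} {h : M → ℝ} (hF : Sm F) (hh : Sm h) (hG : Good2 F h univ) {r : ℝ}
    {φ : Chart M} (hφ : HCh h r 2 φ) {A : E2 → ℝ} (hA : ContDiff ℝ ∞ A) (hpos : ∀ z, 0 < A z) :
    ∃ F' : M → E4, Sm F' ∧ Good2 F' h univ ∧
      pull F' = fun p => pull F p + push φ (fun z => wt z ^ 2 * A z) p • pull h p := by
  have hr := hφ.pos
  have hw : (ey : E2) ≠ 0 := fun h0 => by
    have := congrArg (fun v : E2 => v 1) h0
    simp [ey] at this
  obtain ⟨Ft, hFts, hFt⟩ := exists_ext φ.open_target (hF.contDiffOn hφ.ch)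
    (isCompact_closedBall 0 2) hφ.sub
  have hT0 : ContDiff ℝ ∞ fun z => (r ^ 2 * (wt z ^ 2 * A z)) • dxx :=
    contDiffOn_univ.1 (ten_cd_smul (contDiff_const.mul ((contDiff_wt.pow 2).mul hA)).contDiffOn
      contDiffOn_const)
  have hT0s : support (fun z => (r ^ 2 * (wt z ^ 2 * A z)) • dxx) ⊆ closedBall 0 1 := by
    intro z hz
    by_contra hne
    have : wt z = 0 := wt_zero (by
      rw [mem_closedBall_zero_iff, not_le] at hne
      exact hne.le)
    apply hz
    refine ContinuousLinearMap.ext fun v => ContinuousLinearMap.ext fun w => ?_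
    simp [this]
  have hy : ∀ z v v', ((r ^ 2 * (wt z ^ 2 * A z)) • dxx) v v' =
      ((r ^ 2 * (wt z ^ 2 * A z)) • dxx) v' v := fun z v v' => by
    simp only [smul_apply, dxx_apply]; ring
  obtain ⟨n, hn⟩ := step_core hF hh hG hφ.ch hφ.sub hw (fun z hz v hv => ⟨_, hφ.ker hz hv⟩) hFt
    hT0 hT0s hy (fun z v => by
      simp only [smul_apply, dxx_apply, smul_eq_mul]
      exact mul_nonneg (mul_nonneg (sq_nonneg _) (mul_nonneg (sq_nonneg _) (hpos z).le))
        (mul_self_nonneg _))
  obtain ⟨U, hU, hb, ⟨C, hC⟩, hκ⟩ := bigK hFts (a := fun z => r * √(A z))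
    (contDiff_const.mul (hA.sqrt fun z => (hpos z).ne'))
    (fun z _ => mul_pos hr (Real.sqrt_pos.2 (hpos z))) (fun z hz => by
      have hz1 : ‖z‖ ≤ 1 := mem_closedBall_zero_iff.1 hz
      have hzt : z ∈ φ.target := hφ.sub (mem_closedBall_zero_iff.2 (by linarith))
      have e1 : Ft =ᶠ[𝓝 z] F ∘ φ.symm := eventuallyEq_of_ball hFt (by linarith)
      rw [e1.fderiv_eq, D2_congr e1]
      refine hG φ hφ.ch z hzt (mem_univ _) _ hw ?_
      rw [hφ.fderiv_eq hzt]
      simp [ey]) n
  have hone : ∀ᶠ lam : ℝ in atTop, 1 ≤ lam := eventually_ge_atTop 1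
  have key := hn U (fun _ z => (r ^ 2 * (wt z ^ 2 * A z)) • dxx) hU (fun _ => ⟨hT0, hT0s, hy⟩) hb
    (fun j => by
      obtain ⟨C2, h20, h2⟩ := iter_bd hT0 hT0s j
      exact ⟨C2, hone.mono fun lam h4 z => (h2 z).trans
        (le_mul_of_one_le_right h20 (one_le_pow₀ h4))⟩)
    ⟨0, Eventually.of_forall fun lam z v => by simp⟩
    ⟨C, hC.mono fun lam h1 z v => by
      have h2 := h1 z v
      simp only [mul_pow, Real.sq_sqrt (hpos z).le] at h2
      simp only [smul_apply, smul_eq_mul, dxx_apply]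
      refine le_of_eq_of_le (congrArg _ ?_) h2
      ring⟩ hκ
  obtain ⟨lam, F', k1, k2, k3⟩ := key.exists
  refine ⟨F', k1, k2, ?_⟩
  rw [k3]
  funext p
  rw [hφ.pushT_dxx hh (fun z => wt z ^ 2 * A z) p]

end Vale.Agent.P205.G
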