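import Vale.Agent.P205.G.Core
import Vale.Agent.P205.G.HCh
import Vale.Agent.P205.G.Dec

/-!
G/StepKA (first part of G/StepK): exact step in the direction dh, and tools for StepH. Helper lemma names end in _StepKA.
stepK: Ft from exists_ext on closedBall 0 2, a = r √A (ContDiff.sqrt), T0 z = (r ^ 2 * (wt z ^ 2 * A z)) • dxx, w = ey (HCh.ker), the
hypothesis of bigK from hG (HCh.fderiv_eq, eventuallyEq_of_ball, D2_congr), step_core with T lam = T0 (iter_bd), HCh.pushT_dxx.
iter_bd: continuous with compact support (ContDiff.continuous_iteratedFDeriv, HasCompactSupport.iteratedFDeriv, Continuous.bounded_above_of_compact_support).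
iter_smul_const: z ↦ e z • B is the composition of e with ContinuousLinearMap.toSpanSingleton; ContinuousLinearMap.norm_iteratedFDeriv_comp_left.
exists_rot: LinearIsometryEquiv from the explicit linear map (LinearIsometry.toLinearIsometryEquiv with equal finrank), norm by
EuclideanSpace.real_norm_sq_eq / norm_eq and Fin.sum_univ_two.
-/

open scoped Manifold ContDiff Topology RealInnerProductSpace
open Set Filter Metric Function

noncomputable section

namespace Vale.Agent.P205.G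

theorem bd_StepKA {W : Type} [NormedAddCommGroup W] [NormedSpace ℝ W] {T : E2 → W}
    (hT : ContDiff ℝ ∞ T) (hs : support T ⊆ closedBall 0 1) (j : ℕ) :
    ∃ C : ℝ, 0 ≤ C ∧ ∀ z, ‖iteratedFDeriv ℝ j T z‖ ≤ C := by
  have hc : HasCompactSupport T :=
    HasCompactSupport.of_support_subset_isCompact (isCompact_closedBall 0 1) hs
  obtain ⟨C, hC⟩ := (hc.iteratedFDeriv j).exists_bound_of_continuous
    (hT.continuous_iteratedFDeriv (by exact_mod_cast le_top))
  exact ⟨C, (norm_nonneg _).trans (hC 0), hC⟩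

theorem smul_StepKA {W : Type} [NormedAddCommGroup W] [NormedSpace ℝ W] {e : E2 → ℝ}
    (he : ContDiff ℝ ∞ e) (B : W) (j : ℕ) (z : E2) :
    ‖iteratedFDeriv ℝ j (fun x => e x • B) z‖ ≤ ‖B‖ * ‖iteratedFDeriv ℝ j e z‖ := by
  have h := (ContinuousLinearMap.toSpanSingleton ℝ B).norm_iteratedFDeriv_comp_left
    (he.contDiffAt (x := z)) (n := j) (by exact_mod_cast le_top)
  rw [ContinuousLinearMap.norm_toSpanSingleton] at h
  exact h

theorem iter_bd {T : E2 → Bil} (hT : ContDiff ℝ ∞ T) (hs : support T ⊆ closedBall 0 1) (j : ℕ) :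
    ∃ C : ℝ, 0 ≤ C ∧ ∀ z, ‖iteratedFDeriv ℝ j T z‖ ≤ C := by
  exact bd_StepKA (W := Bil) hT hs j

theorem iter_smul_const {e : E2 → ℝ} (he : ContDiff ℝ ∞ e) (B : Bil) (j : ℕ) (z : E2) :
    ‖iteratedFDeriv ℝ j (fun x => e x • B) z‖ ≤ ‖B‖ * ‖iteratedFDeriv ℝ j e z‖ := by
  exact smul_StepKA (W := Bil) he B j z

/-- The rotation as a linear map. -/
def rot_StepKA (a b : ℝ) : E2 →ₗ[ℝ] E2 where
  toFun v := !₂[a * v 0 - b * v 1, b * v 0 + a * v 1]
  map_add' v w := by
    ext i
    fin_cases i <;> simp <;> ring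
  map_smul' c v := by
    ext i
    fin_cases i <;> simp <;> ring

theorem exists_rot (s : ℝ) : ∃ R : E2 ≃ₗᵢ[ℝ] E2, ∀ v : E2,
    R v 0 = (s * v 0 - v 1) / √(1 + s ^ 2) ∧ R v 1 = (v 0 + s * v 1) / √(1 + s ^ 2) := by
  have hN : 0 < √(1 + s ^ 2) := Real.sqrt_pos.2 (by positivity)
  have hN2 : √(1 + s ^ 2) ^ 2 = 1 + s ^ 2 := Real.sq_sqrt (by positivity)
  generalize √(1 + s ^ 2) = N at hN hN2
  have e0 : ∀ v : E2, rot_StepKA (s / N) (1 / N) v 0 = (s * v 0 - v 1) / N := fun v => by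
    show s / N * v 0 - 1 / N * v 1 = _
    ring
  have e1 : ∀ v : E2, rot_StepKA (s / N) (1 / N) v 1 = (v 0 + s * v 1) / N := fun v => by
    show 1 / N * v 0 + s / N * v 1 = _
    ring
  have hn : ∀ v : E2, ‖rot_StepKA (s / N) (1 / N) v‖ = ‖v‖ := fun v => by
    refine (pow_left_inj₀ (norm_nonneg _) (norm_nonneg _) two_ne_zero).1 ?_
    rw [EuclideanSpace.real_norm_sq_eq, EuclideanSpace.real_norm_sq_eq, Fin.sum_univ_two,
      Fin.sum_univ_two, e0, e1, div_pow, div_pow, hN2]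
    field_simp
    ring
  exact ⟨LinearIsometry.toLinearIsometryEquiv ⟨rot_StepKA (s / N) (1 / N), hn⟩ rfl,
    fun v => ⟨e0 v, e1 v⟩⟩

end Vale.Agent.P205.G
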