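import Vale.Agent.P205.G.ZoomA

/-!
G/Zoom: put the zoomed metric on the patches. Helper lemma names end in _Zoom.
zoom_bd: Leibniz (norm_iteratedFDeriv_smul_le), iteratedFDeriv of z ↦ G (ε • z) is ε ^ j times that of G
(ContinuousLinearMap.iteratedFDeriv_comp_right or iteratedFDeriv_comp_const_smul), bounds on the compact closedBall 0 r where χ lives;
off it the function vanishes nearby. Order zero: mean value inequality on closedBall 0 r.
zoom: G i from exists_ext for trep (φ i) g on closedBall 0 R, G i 0 = euc (Pat.nor); χ bump (rIn 2 ρ, rOut 3 ρ);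
T ε = ∑ pushT (φ i) (χ • (G i (ε •) - euc)); symmetric because G i is symmetric on closedBall 0 R and χ z ≠ 0 forces ‖ε • z‖ ≤ R;
bdT_pushT and an induction with BdT.add (bdT_sum); smallness in the chart with IsMetric.lower for pull F (le_of_trep, trep_sum_pushT,
sum_pushT_off); perturb_const.
-/

open scoped Manifold ContDiff Topology RealInnerProductSpace
open Set Filter Metric Function

noncomputable section

namespace Vale.Agent.P205.G

variable {M : Type*} [TopologicalSpace M] [ChartedSpace E2 M] [IsManifold I2 ∞ M]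
  [T2Space M] [CompactSpace M]

theorem metric_Zoom {F : M → E4} {h : M → ℝ} (hF : Sm F) (hG : Good2 F h univ) :
    IsMetric (pull F) := by
  refine Good1.isMetric hF fun φ hφ z hz => ?_
  obtain ⟨v, hv, hv'⟩ := exists_unit_ker (fderiv ℝ (h ∘ φ.symm) z)
  refine ⟨v, hG φ hφ z hz (mem_univ _) v ?_ hv'⟩
  rintro rfl
  simp at hv

theorem bil_Zoom (B : Bil) (v : E2) : |B v v| ≤ ‖B‖ * ‖v‖ ^ 2 := by
  have h := B.le_opNorm₂ v v
  rw [Real.norm_eq_abs] at h
  calc |B v v| ≤ ‖B‖ * ‖v‖ * ‖v‖ := h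
    _ = ‖B‖ * ‖v‖ ^ 2 := by ring

theorem trep_add_Zoom (φ : Chart M) (S T : M → Bil) (z v w : E2) :
    trep φ (fun p => S p + T p) z v w = trep φ S z v w + trep φ T z v w := by
  simp [trep]

theorem zoom {g : M → Bil} (hg : IsMetric g) {ι : Type*} [Fintype ι] {φ : ι → Chart M} {R : ℝ}
    (hP : Pat g φ R) {F : M → E4} {h : M → ℝ} {S : Set M} (hF : Sm F) (hh : Sm h)
    (hS : IsClosed S) (hG : Good2 F h univ) (hG0 : Good2 F (fun _ => 0) S) {ρ : ℝ} (hρ : 0 < ρ)
    (hρR : 3 * ρ ≤ R) : ∃ C : ℝ, ∀ᶠ ε in 𝓝[>] (0 : ℝ), ∃ F' : M → E4, Sm F' ∧ Good2 F' h univ ∧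
      Good2 F' (fun _ => 0) S ∧ (∀ p v, pull F' p v v ≤ (1 + C * ε) * pull F p v v) ∧
      ∀ i z, ‖z‖ ≤ 2 * ρ → ∀ v, trep (φ i) (pull F') z v v =
        trep (φ i) (pull F) z v v + (trep (φ i) g (ε • z) v v - ‖v‖ ^ 2) := by
  classical
  have hm : IsMetric (pull F) := metric_Zoom hF hG
  have hKc : IsCompact (closedBall (0 : E2) R) := isCompact_closedBall _ _
  have hG' : ∀ i, ∃ G : E2 → Bil, ContDiff ℝ ∞ G ∧ ∀ z ∈ closedBall (0 : E2) R,
      G z = trep (φ i) g z := fun i =>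
    exists_ext (φ i).open_target (hg.1 (φ i) (hP.ch i)) hKc (hP.sub i)
  choose G hGs hGe using hG'
  let χ : ContDiffBump (0 : E2) := ⟨2 * ρ, 3 * ρ, by positivity, by linarith⟩
  have hχs : support χ ⊆ closedBall 0 (3 * ρ) := by
    rw [χ.support_eq]
    exact ball_subset_closedBall
  have hχR : support χ ⊆ closedBall 0 R := hχs.trans (closedBall_subset_closedBall hρR)
  let U : ι → ℝ → E2 → Bil := fun i ε x => χ x • (G i (ε • x) - G i 0)
  have hUs : ∀ i ε, support (U i ε) ⊆ closedBall 0 R := by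
    intro i ε z hz
    refine hχR fun h0 => hz ?_
    ext v w
    simp [U, h0]
  have hUc : ∀ i ε, ContDiff ℝ ∞ (U i ε) := by
    intro i ε
    have h1 : ContDiff ℝ ∞ fun x : E2 => G i (ε • x) - G i 0 :=
      ((hGs i).comp (contDiff_id.const_smul ε)).sub contDiff_const
    exact contDiffOn_univ.1 (ten_cd_smul χ.contDiff.contDiffOn h1.contDiffOn)
  have hbd := fun i => zoom_bd (hGs i) (χ.contDiff (n := ⊤)) hχs
  choose C1 hC1 using fun i => (hbd i).2
  choose c hc hc' using fun i => hm.lower (hP.ch i) hKc (hP.sub i)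
  have hε : ∀ᶠ ε in 𝓝[>] (0 : ℝ), ε ∈ Icc (0 : ℝ) 1 := by
    filter_upwards [Ioo_mem_nhdsGT (zero_lt_one' ℝ)] with ε h using ⟨h.1.le, h.2.le⟩
  have hin : ∀ ε ∈ Icc (0 : ℝ) 1, ∀ z ∈ closedBall (0 : E2) R, ε • z ∈ closedBall (0 : E2) R := by
    intro ε he z hz
    rw [mem_closedBall_zero_iff] at hz ⊢
    rw [norm_smul, Real.norm_of_nonneg he.1]
    exact (mul_le_of_le_one_left (norm_nonneg _) he.2).trans hz
  have h0R : (0 : E2) ∈ closedBall (0 : E2) R := mem_closedBall_self hP.pos.le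
  have hsym : ∀ i, ∀ z ∈ closedBall (0 : E2) R, ∀ v w, G i z v w = G i z w v := by
    intro i z hz v w
    rw [hGe i z hz]
    exact hg.2.1 _ _ _
  have hUa : ∀ i ε z v w, U i ε z v w = χ z * (G i (ε • z) v w - G i 0 v w) := by
    intro i ε z v w
    simp [U]
  have hUsym : ∀ i, ∀ ε ∈ Icc (0 : ℝ) 1, ∀ z v w, U i ε z v w = U i ε z w v := by
    intro i ε he z v w
    rw [hUa, hUa]
    by_cases h0 : χ z = 0
    · rw [h0, zero_mul, zero_mul]
    · rw [hsym i _ (hin ε he z (hχR h0)) v w, hsym i 0 h0R v w]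
  let T : ℝ → M → Bil := fun ε p => ∑ i, pushT (φ i) (U i ε) p
  have hTs : ∀ i ε, SmT (pushT (φ i) (U i ε)) := fun i ε =>
    smT_pushT (hP.ch i) (hUc i ε).contDiffOn hKc (hP.sub i) (hUs i ε)
  have hT : ∀ᶠ ε in 𝓝[>] (0 : ℝ), SmT (T ε) ∧ SymT (T ε) := by
    filter_upwards [hε] with ε he
    refine ⟨smT_sum _ fun i _ => hTs i ε, fun p v w => ?_⟩
    simp only [T, ContinuousLinearMap.sum_apply]
    exact Finset.sum_congr rfl fun i _ => symT_pushT (φ i) (hUsym i ε he) p v w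
  have hb : BdT (𝓝[>] (0 : ℝ)) (fun _ => 1) T := by
    refine bdT_sum Finset.univ (T := fun i ε => pushT (φ i) (U i ε))
      (Eventually.of_forall fun _ => le_rfl) (fun i _ => ?_)
      fun i _ => Eventually.of_forall fun ε => hTs i ε
    refine bdT_pushT (hP.ch i) hKc (hP.sub i) (Eventually.of_forall fun _ => le_rfl)
      (Eventually.of_forall fun ε => ⟨hUc i ε, hUs i ε⟩) fun j => ?_
    obtain ⟨C, hC⟩ := (hbd i).1 j
    refine ⟨C, ?_⟩
    filter_upwards [hε] with ε he z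
    rw [one_pow, mul_one]
    exact hC ε he z
  have hnn : ∀ p v, 0 ≤ pull F p v v := fun p v => by
    rw [pull_apply]
    exact real_inner_self_nonneg
  set C : ℝ := ∑ i, |C1 i| / c i with hCd
  have hCi : ∀ i, |C1 i| / c i ≤ C := fun i =>
    Finset.single_le_sum (f := fun i => |C1 i| / c i)
      (fun j _ => div_nonneg (abs_nonneg _) (hc j).le) (Finset.mem_univ i)
  have hC0 : 0 ≤ C := Finset.sum_nonneg fun j _ => div_nonneg (abs_nonneg _) (hc j).le
  have hs : ∀ᶠ ε in 𝓝[>] (0 : ℝ), ∀ p v, |T ε p v v| ≤ C * ε * pull F p v v := by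
    filter_upwards [hε] with ε he p v
    by_cases hp : p ∈ discs φ R
    · obtain ⟨i, hi⟩ := mem_iUnion.1 hp
      obtain ⟨hp1, hp2⟩ := (mem_disc (hP.sub i)).1 hi
      have hz : φ i p ∈ closedBall (0 : E2) R := mem_closedBall_zero_iff.2 hp2
      rw [apply_eq_trep (hP.ch i) (T ε) hp1, apply_eq_trep (hP.ch i) (pull F) hp1,
        trep_sum_pushT hP (fun i => U i ε) i (hP.sub i hz)]
      set w := dM (φ i) p v
      have h1 := bil_Zoom (U i ε (φ i p)) w
      have h2 : ‖U i ε (φ i p)‖ ≤ |C1 i| * ε :=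
        (hC1 i ε he (φ i p)).trans (mul_le_mul_of_nonneg_right (le_abs_self _) he.1)
      have h3 := hc' i _ hz w
      have h4 : |C1 i| * ε * ‖w‖ ^ 2 = |C1 i| / c i * ε * (c i * ‖w‖ ^ 2) := by
        have := (hc i).ne'
        field_simp
      calc |U i ε (φ i p) w w| ≤ |C1 i| * ε * ‖w‖ ^ 2 :=
            h1.trans (mul_le_mul_of_nonneg_right h2 (sq_nonneg _))
        _ = |C1 i| / c i * ε * (c i * ‖w‖ ^ 2) := h4
        _ ≤ C * ε * trep (φ i) (pull F) (φ i p) w w :=
            mul_le_mul (mul_le_mul_of_nonneg_right (hCi i) he.1) h3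
              (mul_nonneg (hc i).le (sq_nonneg _)) (mul_nonneg hC0 he.1)
    · have h0 : T ε p = 0 := sum_pushT_off hP (fun i => hUs i ε) hp
      rw [h0]
      simpa using mul_nonneg (mul_nonneg hC0 he.1) (hnn p v)
  refine ⟨C, ?_⟩
  filter_upwards [perturb_const hF hh hS hG hG0 hT hb hs, hs, hε] with ε h1 h2 he
  obtain ⟨F', hF', g1, g2, hp⟩ := h1
  refine ⟨F', hF', g1, g2, fun p v => ?_, fun i z hz v => ?_⟩
  · have h3 : pull F' p v v = pull F p v v + T ε p v v := by
      rw [hp]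
      rfl
    have h4 := (le_abs_self _).trans (h2 p v)
    rw [h3]
    linarith
  · have hzR : z ∈ closedBall (0 : E2) R := mem_closedBall_zero_iff.2 (by linarith)
    have h1 : χ z = 1 := χ.one_of_mem_closedBall (mem_closedBall_zero_iff.2 hz)
    rw [hp, trep_add_Zoom, trep_sum_pushT hP (fun i => U i ε) i (hP.sub i hzR), hUa, h1, one_mul,
      hGe i _ (hin ε he z hzR), hGe i 0 h0R, hP.nor, real_inner_self_eq_norm_sq]

end Vale.Agent.P205.G
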