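import Vale.Agent.P205.G.Pert

/-!
G/ZoomA (first part of G/Zoom): put the zoomed metric on the patches. Helper lemma names end in _ZoomA.
zoom_bd: Leibniz (norm_iteratedFDeriv_smul_le), iteratedFDeriv of z ↦ G (ε • z) is ε ^ j times that of G
(ContinuousLinearMap.iteratedFDeriv_comp_right or iteratedFDeriv_comp_const_smul), bounds on the compact closedBall 0 r where χ lives;
off it the function vanishes nearby. Order zero: mean value inequality on closedBall 0 r.
zoom: G i from exists_ext for trep (φ i) g on closedBall 0 R, G i 0 = euc (Pat.nor); χ bump (rIn 2 ρ, rOut 3 ρ);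
T ε = ∑ pushT (φ i) (χ • (G i (ε •) - euc)); symmetric because G i is symmetric on closedBall 0 R and χ z ≠ 0 forces ‖ε • z‖ ≤ R;
bdT_pushT and an induction with BdT.add (bdT_sum); smallness in the chart with IsMetric.lower for pull F (le_of_trep, trep_sum_pushT,
sum_pushT_off); perturb_const.
-/

open scoped Manifold ContDiff Topology RealInnerProductSpace
open Set Filter Metric Function

noncomputable section

namespace Vale.Agent.P205.G

theorem par_ZoomA {W : Type} [NormedAddCommGroup W] [NormedSpace ℝ W] {Φ : ℝ × E2 → W}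
    (hΦ : ContDiff ℝ ∞ Φ) (j : ℕ) (ε : ℝ) (z : E2) :
    ‖iteratedFDeriv ℝ j (fun x => Φ (ε, x)) z‖ ≤ ‖iteratedFDeriv ℝ j Φ (ε, z)‖ := by
  have h1 : ContDiff ℝ ∞ fun p : ℝ × E2 => Φ ((ε, 0) + p) :=
    hΦ.comp (contDiff_const.add contDiff_id)
  have h2 := (ContinuousLinearMap.inr ℝ ℝ E2).iteratedFDeriv_comp_right h1 z (i := j)
    (by exact_mod_cast le_top)
  have e : (fun p : ℝ × E2 => Φ ((ε, 0) + p)) ∘ ContinuousLinearMap.inr ℝ ℝ E2 =
      fun x => Φ (ε, x) := by
    funext x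
    simp
  rw [e, iteratedFDeriv_comp_add_left] at h2
  rw [h2]
  refine (ContinuousMultilinearMap.norm_compContinuousLinearMap_le _ _).trans ?_
  have e2 : ((ε, 0) : ℝ × E2) + ContinuousLinearMap.inr ℝ ℝ E2 z = (ε, z) := by simp
  rw [e2]
  refine mul_le_of_le_one_right (norm_nonneg _) (Finset.prod_le_one (fun _ _ => norm_nonneg _)
    fun _ _ => ContinuousLinearMap.norm_inr_le_one ℝ ℝ E2)

theorem parK_ZoomA {W : Type} [NormedAddCommGroup W] [NormedSpace ℝ W] {Φ : ℝ × E2 → W}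
    (hΦ : ContDiff ℝ ∞ Φ) {r : ℝ} (hs : ∀ ε z, r < ‖z‖ → Φ (ε, z) = 0) (j : ℕ) :
    ∃ C : ℝ, ∀ ε ∈ Icc (0 : ℝ) 1, ∀ z, ‖iteratedFDeriv ℝ j (fun x => Φ (ε, x)) z‖ ≤ C := by
  obtain ⟨C, hC⟩ := ((isCompact_Icc (a := (0 : ℝ)) (b := 1)).prod
    (isCompact_closedBall (0 : E2) r)).exists_bound_of_continuousOn
    (hΦ.continuous_iteratedFDeriv (m := j) (by exact_mod_cast le_top)).continuousOn
  refine ⟨max C 0, fun ε hε z => ?_⟩
  rcases le_or_gt ‖z‖ r with h | h
  · exact le_max_of_le_left ((par_ZoomA hΦ j ε z).trans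
      (hC (ε, z) ⟨hε, mem_closedBall_zero_iff.2 h⟩))
  · refine le_max_of_le_right (cmp_zero ?_ j).le
    filter_upwards [continuous_norm.continuousAt.eventually (lt_mem_nhds h)] with x hx
    exact hs ε x hx

theorem zsmul_ZoomA (B : Bil) : (0 : ℝ) • B = 0 := by
  ext v w
  simp

theorem zoom_bd {G : E2 → Bil} (hG : ContDiff ℝ ∞ G) {χ : E2 → ℝ} (hχ : ContDiff ℝ ∞ χ) {r : ℝ}
    (hs : support χ ⊆ closedBall 0 r) :
    (∀ j : ℕ, ∃ C : ℝ, ∀ ε ∈ Icc (0 : ℝ) 1, ∀ z,
      ‖iteratedFDeriv ℝ j (fun x => χ x • (G (ε • x) - G 0)) z‖ ≤ C) ∧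
    ∃ C : ℝ, ∀ ε ∈ Icc (0 : ℝ) 1, ∀ z, ‖χ z • (G (ε • z) - G 0)‖ ≤ C * ε := by
  have h0 : ∀ z : E2, r < ‖z‖ → χ z = 0 := fun z hz => by
    by_contra h
    exact hz.not_ge (mem_closedBall_zero_iff.1 (hs h))
  refine ⟨fun j => parK_ZoomA (Φ := fun p : ℝ × E2 => χ p.2 • (G (p.1 • p.2) - G 0)) ?_
    (r := r) (fun ε z hz => by simp only [h0 z hz, zsmul_ZoomA]) j, ?_⟩
  · have h1 : ContDiff ℝ ∞ fun p : ℝ × E2 => G (p.1 • p.2) - G 0 :=
      (hG.comp (contDiff_fst.smul contDiff_snd)).sub contDiff_const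
    rw [contDiff_clm_apply_iff] at h1 ⊢
    intro v
    have h2 := h1 v
    rw [contDiff_clm_apply_iff] at h2 ⊢
    intro w
    exact (hχ.comp contDiff_snd).mul (h2 w)
  · obtain ⟨L, hL⟩ := (hG.contDiffOn (s := closedBall 0 |r|)).exists_lipschitzOnWith (by simp)
      (convex_closedBall _ _) (isCompact_closedBall _ _)
    obtain ⟨B, hB⟩ := (isCompact_closedBall (0 : E2) r).exists_bound_of_continuousOn
      hχ.continuous.continuousOn
    refine ⟨|B| * (L * |r|), fun ε hε z => ?_⟩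
    rcases le_or_gt ‖z‖ r with h | h
    · have h1 : ‖ε • z‖ ≤ |r| * ε := by
        rw [norm_smul, Real.norm_of_nonneg hε.1, mul_comm]
        exact mul_le_mul_of_nonneg_right (h.trans (le_abs_self r)) hε.1
      have h2 := hL.dist_le_mul (ε • z) (mem_closedBall_zero_iff.2
        (h1.trans (mul_le_of_le_one_right (abs_nonneg r) hε.2))) 0 (mem_closedBall_self (abs_nonneg r))
      rw [dist_eq_norm, dist_zero_right] at h2
      have h3 := (hB z (mem_closedBall_zero_iff.2 h)).trans (le_abs_self B)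
      refine (ContinuousLinearMap.opNorm_smul_le _ _).trans ?_
      rw [mul_assoc, mul_assoc]
      exact mul_le_mul h3 (h2.trans (mul_le_mul_of_nonneg_left h1 L.2)) (norm_nonneg _)
        (abs_nonneg _)
    · rw [h0 z h, zsmul_ZoomA, ContinuousLinearMap.opNorm_zero]
      have := hε.1
      positivity

variable {M : Type*} [TopologicalSpace M] [ChartedSpace E2 M] [IsManifold I2 ∞ M]
  [T2Space M] [CompactSpace M]

theorem bdT_sum {α : Type*} {κ : Type} {l : Filter κ} {lam : κ → ℝ} (s : Finset α)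
    {T : α → κ → M → Bil} (h1 : ∀ᶠ i in l, 1 ≤ lam i) (hb : ∀ a ∈ s, BdT l lam (T a))
    (hs : ∀ a ∈ s, ∀ᶠ i in l, SmT (T a i)) : BdT l lam fun i p => ∑ a ∈ s, T a i p := by
  classical
  induction s using Finset.induction_on with
  | empty =>
    simp only [Finset.sum_empty]
    exact bdT_const h1 (by simpa using smT_sum (M := M) (∅ : Finset ℕ) (T := fun _ _ => 0) (by simp))
  | insert a s ha ih =>
    simp only [Finset.sum_insert ha]
    have h2 : ∀ b ∈ s, ∀ᶠ i in l, SmT (T b i) := fun b hb => hs b (Finset.mem_insert_of_mem hb)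
    refine BdT.add (hb a (Finset.mem_insert_self a s))
      (ih (fun b h => hb b (Finset.mem_insert_of_mem h)) h2) (hs a (Finset.mem_insert_self a s)) ?_
    filter_upwards [(Filter.eventually_all_finset s).2 h2] with i hi
    exact smT_sum s hi

end Vale.Agent.P205.G
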